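import Crest.Agent.GP.Stage
/-! Accumulating stages, and the Baire argument. -/
set_option autoImplicit false
namespace Crest.Agent.GP
open scoped ComplexConjugate
open Filter Topology

variable {A : Type*} [CStarAlgebra A] {P : StarSubalgebra ℂ A}

noncomputable abbrev Alg (P : StarSubalgebra ℂ A) (u : A) := StarAlgebra.adjoin ℂ (insert u (P : Set A))

namespace Tr
variable {T : Tr A}

theorem open_alg {u a : A} (ha : a ∈ Alg P u) : ∃ C L : ℝ, 0 ≤ L ∧ ∀ v ∈ unitary A,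
    ∃ a' ∈ Alg P v, ‖a'‖ ≤ C ∧ T.n (a' - a) ≤ L * T.n (v - u) := by
  induction ha using StarAlgebra.adjoin_induction with
  | mem x hx =>
    rcases hx with rfl | hx
    · exact ⟨1, 1, zero_le_one, fun v hv => ⟨v, StarAlgebra.subset_adjoin _ _ (Set.mem_insert _ _),
        norm_unit hv, by simp⟩⟩
    · exact ⟨_, 0, le_rfl, fun v _ => ⟨x, StarAlgebra.subset_adjoin _ _ (Set.mem_insert_of_mem _ hx),
        le_rfl, by simp⟩⟩
  | algebraMap r => exact ⟨_, 0, le_rfl, fun v _ => ⟨_, algebraMap_mem _ r, le_rfl, by simp⟩⟩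
  | add x y _ _ hx hy =>
    obtain ⟨C, L, hL, h⟩ := hx
    obtain ⟨C', L', hL', h'⟩ := hy
    refine ⟨C + C', L + L', by positivity, fun v hv => ?_⟩
    obtain ⟨a, a1, a2, a3⟩ := h v hv
    obtain ⟨b, b1, b2, b3⟩ := h' v hv
    refine ⟨a + b, add_mem a1 b1, norm_add_le_of_le a2 b2, ?_⟩
    rw [add_sub_add_comm]; linarith [T.n_add_le (a - x) (b - y)]
  | mul x y _ _ hx hy =>
    obtain ⟨C, L, hL, h⟩ := hx
    obtain ⟨C', L', hL', h'⟩ := hy
    refine ⟨C * C', |C| * L' + L * ‖y‖, by positivity, fun v hv => ?_⟩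
    obtain ⟨a, a1, a2, a3⟩ := h v hv
    obtain ⟨b, b1, b2, b3⟩ := h' v hv
    refine ⟨a * b, mul_mem a1 b1, norm_mul_le' a2 b2, (T.n_tri _ (a * y) _).trans ?_⟩
    rw [← mul_sub, ← sub_mul]
    linarith [T.n_l (a2.trans (le_abs_self C)) b3, T.n_r a3 (le_refl ‖y‖)]
  | star x _ hx =>
    obtain ⟨C, L, hL, h⟩ := hx
    refine ⟨C, L, hL, fun v hv => ?_⟩
    obtain ⟨a, a1, a2, a3⟩ := h v hv
    exact ⟨star a, star_mem a1, by rwa [norm_star], by rwa [← star_sub, n_star]⟩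

theorem open_alg' {u a : A} (ha : a ∈ Alg P u) {ε : ℝ} (hε : 0 < ε) : ∃ δ > 0, ∀ v ∈ unitary A,
    T.n (v - u) ≤ δ → ∃ a' ∈ Alg P v, T.n (a' - a) < ε := by
  obtain ⟨C, L, hL, h⟩ := open_alg (T := T) ha
  refine ⟨ε / (L + 1), by positivity, fun v hv hv' => ?_⟩
  obtain ⟨a', a1, -, a3⟩ := h v hv
  refine ⟨a', a1, a3.trans_lt ((mul_le_mul_of_nonneg_left hv' hL).trans_lt ?_)⟩
  rw [mul_div_assoc', div_lt_iff₀ (by positivity)]; linarith

theorem accum (hP : T.LQ P) {u ζ : A} (hu : u ∈ unitary A) (hζ : ‖ζ‖ ≤ 1) {t : ℝ} (ht : 0 < t)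
    (ht1 : t ≤ 1 / 2) (K : ℕ) : ∀ δ > 0, ∃ u' ∈ unitary A, T.n (u' - u) ≤ δ ∧ ∃ a ∈ Alg P u',
      T.n (a - ((K * t ^ 2 : ℝ) : ℂ) • ζ) ≤ 40 * K * t ^ 3 + 3 * √K := by
  induction K with
  | zero => exact fun δ hδ => ⟨u, hu, by simpa using hδ.le, 0, zero_mem _, by simp⟩
  | succ K ih =>
    intro δ hδ
    obtain ⟨u₁, hu₁, h1, a₁, ha₁, h2⟩ := ih _ (half_pos hδ)
    obtain ⟨δ', hδ', h3⟩ := open_alg' (T := T) ha₁ (ε := t ^ 3) (by positivity)
    obtain ⟨u', hu', h4, w, hw, h5, h6⟩ := stage hP hu₁ hζ (a₁ - ((K * t ^ 2 : ℝ) : ℂ) • ζ) ht ht1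
      (lt_min (lt_min hδ' (half_pos hδ)) one_half_pos)
    obtain ⟨a₂, ha₂, h7⟩ := h3 u' hu' (h4.trans ((min_le_left _ _).trans (min_le_left _ _)))
    refine ⟨u', hu', by linarith [T.n_tri u' u₁ u, h4.trans ((min_le_left _ _).trans (min_le_right _ _))],
      a₂ + w, add_mem ha₂ hw, ?_⟩
    have e : a₂ + w - ((((K + 1 : ℕ) : ℝ) * t ^ 2 : ℝ) : ℂ) • ζ = (a₁ - ((K * t ^ 2 : ℝ) : ℂ) • ζ) +
        ((w - ((t ^ 2 : ℝ) : ℂ) • ζ) + (a₂ - a₁)) := by push_cast; module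
    rw [e]
    generalize a₁ - ((K * t ^ 2 : ℝ) : ℂ) • ζ = E at *
    have t3 : t ^ 3 ≤ 1 / 8 := by nlinarith [pow_le_pow_left₀ ht.le ht1 3]
    have h8 : T.n ((w - ((t ^ 2 : ℝ) : ℂ) • ζ) + (a₂ - a₁)) ≤ 2 := by
      have := T.n_add_le (w - ((t ^ 2 : ℝ) : ℂ) • ζ) (a₂ - a₁)
      have := T.n_sub_le w (((t ^ 2 : ℝ) : ℂ) • ζ)
      rw [n_smul, Complex.norm_real, Real.norm_of_nonneg (sq_nonneg _)] at this
      have := T.n_le w
      have := mul_le_of_le_one_right (sq_nonneg t) ((T.n_le ζ).trans hζ)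
      nlinarith
    have h9 := (Complex.re_le_norm _).trans (T.cs (star E) (a₂ - a₁))
    rw [n_star] at h9
    have h10 := min_le_right (min δ' (δ / 2)) (1 / 2)
    have hx := T.n_nonneg E
    have hK := Nat.cast_nonneg (α := ℝ) K
    have t4 := pow_pos ht 3
    have s1 := Real.sq_sqrt hK
    have s2 := Real.sq_sqrt (show (0 : ℝ) ≤ K + 1 by linarith)
    have s3 := Real.sqrt_le_sqrt (show (K : ℝ) ≤ K + 1 by linarith)
    have s4 := Real.sqrt_nonneg (K : ℝ)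
    rw [← sq_le_sq₀ (T.n_nonneg _) (by positivity), n_add_sq, mul_add, map_add, Complex.add_re]
    push_cast at h6 h8 ⊢
    have b1 := pow_le_pow_left₀ (T.n_nonneg _) h8 2
    have b2 := mul_le_mul_of_nonneg_left h7.le hx
    have b3 : (T.n E + 40 * t ^ 3) ^ 2 ≤ (40 * (K + 1) * t ^ 3 + 3 * √K) ^ 2 :=
      pow_le_pow_left₀ (by positivity) (by linarith) 2
    have b4 := mul_le_mul_of_nonneg_left s3 (show 0 ≤ (K + 1) * t ^ 3 by positivity)
    nlinarith [mul_nonneg hx t4.le]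

theorem dense_alg (hP : T.LQ P) {u : A} (hu : u ∈ unitary A) (x : A) {ε δ : ℝ} (hε : 0 < ε)
    (hδ : 0 < δ) : ∃ u' ∈ unitary A, T.n (u' - u) ≤ δ ∧ ∃ a ∈ Alg P u', T.n (a - x) < ε := by
  set R := ‖x‖ + 1 with hR
  have R0 : 0 < R := by positivity
  set t := min (1 / 2) (ε / R / 80) with ht
  have t0 : 0 < t := by positivity
  have t1 : t ≤ ε / R / 80 := min_le_right _ _
  obtain ⟨K, hK⟩ := exists_nat_gt ((6 / (ε / R * t ^ 2)) ^ 2)
  have K0 : (0 : ℝ) < K := lt_trans (by positivity) hK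
  obtain ⟨u', h1, h2, a, h3, h4⟩ := accum hP hu (ζ := (R : ℂ)⁻¹ • x) (by
    rw [norm_smul, norm_inv, Complex.norm_real, Real.norm_of_nonneg R0.le, inv_mul_le_iff₀ R0]
    linarith) t0 (min_le_left _ _) K δ hδ
  refine ⟨u', h1, h2, ((R / (K * t ^ 2) : ℝ) : ℂ) • a, SMulMemClass.smul_mem _ h3, ?_⟩
  have e : ((R / (K * t ^ 2) : ℝ) : ℂ) • a - x =
      ((R / (K * t ^ 2) : ℝ) : ℂ) • (a - ((K * t ^ 2 : ℝ) : ℂ) • (R : ℂ)⁻¹ • x) := by
    rw [smul_sub, smul_smul, smul_smul, ← Complex.ofReal_inv, ← Complex.ofReal_mul,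
      ← Complex.ofReal_mul, show R / (K * t ^ 2) * (K * t ^ 2) * R⁻¹ = 1 by field_simp]
    simp
  rw [e, n_smul, Complex.norm_real, Real.norm_of_nonneg (by positivity), div_mul_eq_mul_div,
    div_lt_iff₀ (by positivity), ← lt_div_iff₀' R0]
  refine h4.trans_lt ?_
  have s1 := Real.sq_sqrt K0.le
  have s2 := Real.lt_sqrt_of_sq_lt hK
  have s3 := Real.sqrt_pos.mpr K0
  rw [div_lt_iff₀ (by positivity)] at s2
  have e2 : ε * (K * t ^ 2) / R = ε / R * t ^ 2 * K := by ring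
  rw [e2]
  generalize ε / R = η at *
  nlinarith [mul_le_mul_of_nonneg_left t1 (show 0 ≤ K * t ^ 2 by positivity),
    mul_lt_mul_of_pos_left s2 s3]

theorem baire (hT : T.W) (hP : T.LQ P) (d : ℕ → A) {u : A} (hu : u ∈ unitary A) {ε : ℝ}
    (hε : 0 < ε) : ∃ v ∈ unitary A, T.n (v - u) < ε ∧
      ∀ k, ∀ η > 0, ∃ a ∈ Alg P v, T.n (a - d k) < η := by
  let S : Set T.L2 := {f | T.ι.symm f ∈ unitary A}
  haveI : CompleteSpace S := by
    refine Metric.complete_of_cauchySeq_tendsto fun f hc => ?_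
    have hf := fun k => (f k).2
    obtain ⟨y, -, hy⟩ := hT.lim (fun k => T.ι.symm (f k)) 1 (fun k => norm_unit (hf k))
      (uniformContinuous_subtype_val.comp_cauchySeq hc)
    have hy : T.To _ y := hy
    refine ⟨⟨T.ι y, (hy.star.mul hy fun k => norm_unit (Unitary.star_mem (hf k))).unique hT
      (To.const 1) fun k => (hf k).1, (hy.mul hy.star fun k => norm_unit (hf k)).unique hT
      (To.const 1) fun k => (hf k).2⟩, ?_⟩
    rw [tendsto_iff_dist_tendsto_zero]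
    exact hy.congr fun k => (T.dist_ι _ _).symm
  have hd : ∀ f g : S, dist f g = T.n (T.ι.symm f - T.ι.symm g) := fun f g => T.dist_ι _ _
  let O : ℕ × ℕ → Set S := fun p =>
    {f | ∃ a ∈ Alg P (T.ι.symm f), T.n (a - d p.1) < 1 / ((p.2 : ℝ) + 1)}
  have := dense_iInter_of_isOpen (f := O) (fun p => Metric.isOpen_iff.mpr fun f ⟨a, ha, h⟩ => by
    obtain ⟨δ, hδ, h1⟩ := open_alg' (T := T) ha (sub_pos.mpr h)
    refine ⟨δ, hδ, fun g hg => ?_⟩
    obtain ⟨a', h2, h3⟩ := h1 (T.ι.symm g) g.2 (by rw [← hd]; exact le_of_lt hg)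
    exact ⟨a', h2, by linarith [T.n_tri a' a (d p.1)]⟩) fun p => Metric.dense_iff.mpr fun f r hr => by
      obtain ⟨v, hv, h1, h2⟩ := dense_alg hP f.2 (d p.1) (Nat.one_div_pos_of_nat (n := p.2))
        (half_pos hr)
      exact ⟨⟨T.ι v, hv⟩, by rw [Metric.mem_ball, hd]; exact h1.trans_lt (half_lt_self hr), h2⟩
  obtain ⟨f, h1, h2⟩ := Metric.dense_iff.mp this ⟨T.ι u, hu⟩ ε hε
  refine ⟨_, f.2, by rwa [Metric.mem_ball, hd] at h1, fun k η hη => ?_⟩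
  obtain ⟨l, hl⟩ := exists_nat_one_div_lt hη
  obtain ⟨a, ha, h⟩ := Set.mem_iInter.mp h2 (k, l)
  exact ⟨a, ha, h.trans hl⟩

end Tr
end Crest.Agent.GP
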