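import Crest.Agent.GP.Gen
import Crest.Prelude.Def_VNFactor
/-! Concrete von Neumann algebras with a vector trace as tracial W⋆-algebras. -/
set_option autoImplicit false
namespace Crest.Agent.GP
open scoped ComplexConjugate InnerProductSpace
open Filter Topology Crest.OpAlg TopologicalSpace

variable {H : Type*} [NormedAddCommGroup H] [InnerProductSpace ℂ H] [CompleteSpace H]

abbrev L2H (H : Type*) [NormedAddCommGroup H] := lp (fun _ : ℕ => H) 2

noncomputable def amp (x : H →L[ℂ] H) : L2H H →L[ℂ] L2H H :=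
  lp.mapCLM 2 (fun _ => x) (norm_nonneg x) fun _ => le_rfl

omit [CompleteSpace H] in
theorem amp_apply (x : H →L[ℂ] H) (f : L2H H) (i : ℕ) : amp x f i = x (f i) := rfl

theorem amp_inner (x : H →L[ℂ] H) (f g : L2H H) : ⟪g, amp x f⟫_ℂ = ⟪amp (star x) g, f⟫_ℂ := by
  simp only [lp.inner_eq_tsum, amp_apply, ContinuousLinearMap.star_eq_adjoint,
    ContinuousLinearMap.adjoint_inner_left]

theorem mem_of_comm {M : VonNeumannAlgebra H} {b : H →L[ℂ] H}
    (h : ∀ y ∈ M.commutant, y * b = b * y) : b ∈ M := by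
  rwa [← M.commutant_commutant, VonNeumannAlgebra.mem_commutant_iff]

theorem proj_comm {E : Type*} [NormedAddCommGroup E] [InnerProductSpace ℂ E] (K : Submodule ℂ E)
    [CompleteSpace E] {a a' : E →L[ℂ] E} (h : ∀ f g, ⟪g, a f⟫_ℂ = ⟪a' g, f⟫_ℂ)
    (h1 : ∀ f ∈ K, a f ∈ K) (h2 : ∀ f ∈ K, a' f ∈ K) (f : E) :
    K.topologicalClosure.starProjection (a f) = a (K.topologicalClosure.starProjection f) := by
  have cl : ∀ b : E →L[ℂ] E, (∀ f ∈ K, b f ∈ K) → ∀ f ∈ K.topologicalClosure,
      b f ∈ K.topologicalClosure := fun b hb f hf => map_mem_closure b.continuous hf hb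
  refine Submodule.eq_starProjection_of_mem_orthogonal
    (cl a h1 _ (Submodule.starProjection_apply_mem _ _)) fun k hk => ?_
  rw [← map_sub, h]
  exact Submodule.sub_starProjection_mem_orthogonal f _ (cl a' h2 k hk)

instance (M : VonNeumannAlgebra H) : IsClosed (M.toStarSubalgebra : Set (H →L[ℂ] H)) := by
  rw [VonNeumannAlgebra.coe_toStarSubalgebra, ← M.centralizer_centralizer]
  exact Set.isClosed_centralizer _

variable {M : VonNeumannAlgebra H} {ξ : ℕ → H} (hξ : IsFaithfulTracialVectorState M ξ)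

def vec : L2H H := ⟨ξ, memℓp_gen (by simpa using hξ.1.summable)⟩

noncomputable def J : M.toStarSubalgebra →ₗ[ℂ] L2H H where
  toFun a := amp a (vec hξ)
  map_add' _ _ := by ext; rfl
  map_smul' _ _ := by ext; rfl

theorem J_apply (a : M.toStarSubalgebra) (i : ℕ) : J hξ a i = a.1 (ξ i) := rfl

theorem inner_J (a b : M.toStarSubalgebra) : ⟪J hξ a, J hξ b⟫_ℂ = vectorState ξ (star a * b).1 := by
  simp only [lp.inner_eq_tsum, J_apply, vectorState]
  congr; funext i
  exact (ContinuousLinearMap.adjoint_inner_right _ _ _).symm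

theorem norm_J_sq (a : M.toStarSubalgebra) : ‖J hξ a‖ ^ 2 = traceNormSq ξ a := by
  simpa [traceNormSq, J_apply] using lp.norm_rpow_eq_tsum (p := 2) (by simp) (J hξ a)

noncomputable def trM : Tr M.toStarSubalgebra where
  τ := innerₛₗ ℂ (J hξ 1) ∘ₗ J hξ
  one := by
    have := (lp.hasSum_norm (p := 2) (by simp) (J hξ 1)).unique (by simpa [J_apply] using hξ.1)
    simp only [ENNReal.toReal_ofNat, Real.rpow_ofNat] at this
    simp only [LinearMap.comp_apply, innerₛₗ_apply_apply, inner_self_eq_norm_sq_to_K]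
    rw [← RCLike.ofReal_pow, this]; simp
  comm a b := by simpa [inner_J] using hξ.2.1 a a.2 b b.2
  map_star a := by
    simp only [LinearMap.comp_apply, innerₛₗ_apply_apply, inner_conj_symm]
    simp [inner_J]
  pos a := by
    have := inner_self_nonneg (𝕜 := ℂ) (x := J hξ a)
    rw [inner_J] at this
    simpa [inner_J] using this

theorem n_trM (a : M.toStarSubalgebra) : (trM hξ).n a = ‖J hξ a‖ := by
  rw [← sq_eq_sq₀ (Tr.n_nonneg _ _) (norm_nonneg _), Tr.n_sq, ← inner_self_eq_norm_sq (𝕜 := ℂ),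
    inner_J]
  simp [trM, inner_J]

theorem n_trM_sq (a : M.toStarSubalgebra) : (trM hξ).n a ^ 2 = traceNormSq ξ a := by
  rw [n_trM, norm_J_sq]

theorem apply_le (a : M.toStarSubalgebra) (i : ℕ) : ‖a.1 (ξ i)‖ ≤ (trM hξ).n a := by
  rw [n_trM]; exact lp.norm_apply_le_norm (by simp) (J hξ a) i

include hξ in
theorem cyc (S : Submodule ℂ H) (hS : IsClosed (S : Set H))
    (h : ∀ y ∈ M.commutant, ∀ n, y (ξ n) ∈ S) (η : H) : η ∈ S := by
  let K := Submodule.span ℂ {η | ∃ y ∈ M.commutant, ∃ n, η = y (ξ n)}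
  have inv : ∀ z ∈ M.commutant, ∀ f ∈ K, z f ∈ K := fun z hz f hf =>
    Submodule.span_le.mpr (show _ ⊆ (K.comap z.toLinearMap : Set H) by
      rintro _ ⟨y, hy, n, rfl⟩; exact Submodule.subset_span ⟨z * y, mul_mem hz hy, n, rfl⟩) hf
  have h1 : K.topologicalClosure.starProjection ∈ M := mem_of_comm fun y hy => by
    ext f
    exact (proj_comm K (a' := star y) (fun f g => (ContinuousLinearMap.adjoint_inner_left _ _ _).symm)
      (inv y hy) (inv _ (star_mem hy)) f).symm
  have h2 := hξ.2.2 _ (sub_mem (one_mem _) h1) fun n => by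
    rw [ContinuousLinearMap.sub_apply, Submodule.starProjection_eq_self_iff.mpr
      (K.le_topologicalClosure (show ξ n ∈ K from Submodule.subset_span ⟨1, one_mem _, n, rfl⟩))]
    simp
  refine K.topologicalClosure_minimal (Submodule.span_le.mpr ?_) hS ?_
  · rintro _ ⟨y, hy, n, rfl⟩; exact h y hy n
  · rw [← Submodule.starProjection_eq_self_iff, ← sub_eq_zero.mp h2]; rfl

theorem trM_W : (trM hξ).W := by
  refine ⟨fun x hx => Subtype.ext (hξ.2.2 x x.2 fun n =>
    norm_le_zero_iff.mp (hx ▸ apply_le hξ x n)), fun x C hC hx => ?_⟩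
  have hx' : CauchySeq fun k => J hξ (x k) := by
    rw [Metric.cauchySeq_iff] at hx ⊢
    simp only [Tr.dist_ι, n_trM, map_sub] at hx
    simpa only [dist_eq_norm] using hx
  obtain ⟨f, hf⟩ := cauchySeq_tendsto_of_complete hx'
  have hf' : ∀ i, Tendsto (fun k => (x k).1 (ξ i)) atTop (𝓝 (f i)) := fun i =>
    ((lp.evalCLM ℂ (fun _ : ℕ => H) 2 i).continuous.tendsto f).comp hf
  have hC0 : 0 ≤ C := (norm_nonneg _).trans (hC 0)
  let S : Submodule ℂ H :=
    { carrier := {η | CauchySeq fun k => (x k).1 η}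
      add_mem' := fun ha hb => by simpa [Pi.add_def] using CauchySeq.add ha hb
      zero_mem' := by simpa using cauchySeq_const 0
      smul_mem' := fun c η h => by
        simpa [Function.comp_def] using (uniformContinuous_const_smul c).comp_cauchySeq h }
  have hS := cyc hξ S (isClosed_of_closure_subset fun η hη => Metric.cauchySeq_iff.mpr fun ε hε => by
      obtain ⟨η', h1, h2⟩ := Metric.mem_closure_iff.mp hη (ε / (3 * (C + 1))) (by positivity)
      obtain ⟨N, hN⟩ := Metric.cauchySeq_iff.mp h1 (ε / 3) (by positivity)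
      refine ⟨N, fun k hk l hl => ?_⟩
      have h3 : ∀ k, dist ((x k).1 η) ((x k).1 η') ≤ C * dist η η' := fun k =>
        ((x k).1.dist_le_opNorm _ _).trans (mul_le_mul_of_nonneg_right (hC k) dist_nonneg)
      rw [lt_div_iff₀ (by positivity)] at h2
      linarith [dist_triangle4 ((x k).1 η) ((x k).1 η') ((x l).1 η') ((x l).1 η), h3 k, h3 l,
        hN k hk l hl, dist_comm ((x l).1 η') ((x l).1 η), dist_nonneg (x := η) (y := η')])
    fun y hy n => (((y.continuous.tendsto _).comp (hf' n)).congr fun k => (DFunLike.congr_fun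
      (VonNeumannAlgebra.mem_commutant_iff.mp hy _ (x k).2) (ξ n)).symm).cauchySeq
  choose g hg using fun η => cauchySeq_tendsto_of_complete (hS η)
  let y := ContinuousLinearMap.ofTendstoOfBoundedRange g (fun k => (x k).1) (tendsto_pi_nhds.mpr hg)
    (isBounded_iff_forall_norm_le.mpr ⟨C, by rintro _ ⟨k, rfl⟩; exact hC k⟩)
  have hy : ∀ η, Tendsto (fun k => (x k).1 η) atTop (𝓝 (y η)) := hg
  refine ⟨⟨y, mem_of_comm fun z hz => ?_⟩, y.opNorm_le_bound hC0 fun η =>
    le_of_tendsto' (hy η).norm fun k => (x k).1.le_of_opNorm_le (hC k) η, ?_⟩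
  · ext η
    exact tendsto_nhds_unique ((z.continuous.tendsto _).comp (hy η)) ((hy (z η)).congr fun k =>
      DFunLike.congr_fun (VonNeumannAlgebra.mem_commutant_iff.mp hz _ (x k).2) η)
  · simp only [n_trM, map_sub]
    rw [← tendsto_iff_norm_sub_tendsto_zero]
    convert hf
    ext i
    exact tendsto_nhds_unique (hy _) (hf' i)

theorem cl_vN (N : VonNeumannAlgebra H) :
    (trM hξ).Cl (N.toStarSubalgebra.comap M.toStarSubalgebra.subtype) := by
  intro x hx
  refine mem_of_comm fun z hz => sub_eq_zero.mp ?_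
  have key : ∀ y ∈ M.commutant, ∀ n, ∀ y' ∈ M.commutant, ∀ n',
      ⟪y' (ξ n'), (z * x.1 - x.1 * z) (y (ξ n))⟫_ℂ = 0 := by
    intro y hy n y' hy' n'
    have hb : ∀ a : M.toStarSubalgebra, ‖⟪y' (ξ n'), (z * a.1 - a.1 * z) (y (ξ n))⟫_ℂ‖ ≤
        (‖y' (ξ n')‖ * (‖z‖ * ‖y‖) + ‖y'‖ * ‖z (y (ξ n))‖) * (trM hξ).n a := fun a => by
      have e1 := DFunLike.congr_fun (VonNeumannAlgebra.mem_commutant_iff.mp hy _ a.2) (ξ n)
      have e2 := DFunLike.congr_fun (VonNeumannAlgebra.mem_commutant_iff.mp hy' _ (star a).2) (ξ n')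
      simp only [ContinuousLinearMap.mul_apply] at e1 e2
      rw [ContinuousLinearMap.sub_apply, inner_sub_right, ContinuousLinearMap.mul_apply,
        ContinuousLinearMap.mul_apply, e1, ← ContinuousLinearMap.adjoint_inner_left a.1]
      refine (norm_sub_le _ _).trans ?_
      rw [add_mul]
      refine add_le_add ((norm_inner_le_norm _ _).trans ?_) ((norm_inner_le_norm _ _).trans ?_)
      · rw [mul_assoc, mul_assoc]
        gcongr
        exact z.le_opNorm_of_le (y.le_opNorm_of_le (apply_le hξ a n))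
      · rw [mul_right_comm]
        gcongr
        rw [← Tr.n_star]
        exact e2.symm ▸ y'.le_opNorm_of_le (apply_le hξ (star a) n')
    set C := ‖y' (ξ n')‖ * (‖z‖ * ‖y‖) + ‖y'‖ * ‖z (y (ξ n))‖
    have hC : 0 ≤ C := by positivity
    refine norm_le_zero_iff.mp (le_of_forall_pos_le_add fun ε hε => ?_)
    obtain ⟨a, ha, h⟩ := hx (ε / (C + 1)) (by positivity)
    have := hb (x - a)
    have e : z * (x - a).1 - (x - a).1 * z = z * x.1 - x.1 * z := by
      have := VonNeumannAlgebra.mem_commutant_iff.mp hz _ ha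
      simp only [AddSubgroupClass.coe_sub, mul_sub, sub_mul]
      rw [show z * a.1 = a.1 * z from this.symm]; abel
    rw [e, Tr.n_sub_rev] at this
    rw [lt_div_iff₀ (by positivity)] at h
    nlinarith [(trM hξ).n_nonneg (a - x)]
  ext η
  refine inner_self_eq_zero (𝕜 := ℂ).mp ?_
  rw [← inner_conj_symm, map_eq_zero]
  refine cyc hξ (innerSL ℂ ((z * x.1 - x.1 * z) η)).ker (ContinuousLinearMap.isClosed_ker _)
    (fun y' hy' n' => ?_) _
  rw [LinearMap.mem_ker, ContinuousLinearMap.coe_coe, innerSL_apply_apply, ← inner_conj_symm,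
    map_eq_zero]
  exact cyc hξ ((innerSL ℂ (y' (ξ n'))).comp (z * x.1 - x.1 * z)).ker
    (ContinuousLinearMap.isClosed_ker _) (fun y hy n => key y hy n y' hy' n') η

theorem bicomm (𝒜 : StarSubalgebra ℂ M.toStarSubalgebra) (x : M.toStarSubalgebra)
    (hx : ∀ z : H →L[ℂ] H, (∀ a ∈ 𝒜, a.1 * z = z * a.1) → x.1 * z = z * x.1) :
    ∀ ε > 0, ∃ a ∈ 𝒜, (trM hξ).n (a - x) < ε := by
  let K := 𝒜.toSubalgebra.toSubmodule.map (J hξ)
  have inv : ∀ a ∈ 𝒜, ∀ f ∈ K, amp a.1 f ∈ K := by
    rintro a ha _ ⟨b, hb, rfl⟩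
    exact ⟨a * b, (show a * b ∈ 𝒜 from mul_mem ha hb), by ext; rfl⟩
  let p := K.topologicalClosure.starProjection
  have sing : ∀ (a : H →L[ℂ] H) j η, amp a (lp.single 2 j η) = lp.single 2 j (a η) := fun a j η => by
    ext i
    by_cases h : i = j
    · rw [h, amp_apply, lp.single_apply_self, lp.single_apply_self]
    · rw [amp_apply, lp.single_apply_ne _ _ _ h, lp.single_apply_ne _ _ _ h, map_zero]
  have h1 : (amp x.1).comp p = p.comp (amp x.1) := lp.ext_continuousLinearMap (by simp) fun j => by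
    ext η i
    have := hx ((lp.evalCLM ℂ (fun _ : ℕ => H) 2 i).comp
      (p.comp (lp.singleContinuousLinearMap ℂ (fun _ : ℕ => H) 2 j))) fun a ha => by
        ext η
        have := proj_comm K (amp_inner a.1) (inv a ha) (inv _ (star_mem ha)) (lp.single 2 j η)
        rw [sing] at this
        exact (congrArg (fun f : L2H H => f i) this).symm
    have := DFunLike.congr_fun this η
    simp only [ContinuousLinearMap.comp_apply, lp.singleContinuousLinearMap_apply, sing]
    exact this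
  have h2 : J hξ x ∈ K.topologicalClosure := by
    have := DFunLike.congr_fun h1 (J hξ 1)
    rw [ContinuousLinearMap.comp_apply, Submodule.starProjection_eq_self_iff.mpr
      (K.le_topologicalClosure ⟨1, one_mem 𝒜, rfl⟩)] at this
    exact Submodule.starProjection_eq_self_iff.mp this.symm
  intro ε hε
  obtain ⟨_, ⟨a, ha, rfl⟩, h⟩ := Metric.mem_closure_iff.mp h2 ε hε
  exact ⟨a, ha, by rwa [n_trM, map_sub, ← dist_eq_norm, dist_comm]⟩

theorem exists_dense [SeparableSpace H] : ∃ d : ℕ → M.toStarSubalgebra,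
    ∀ x, ∀ ε > 0, ∃ k, (trM hξ).n (d k - x) < ε := by
  have h1 : IsSeparable (Set.range (J hξ)) := by
    refine (IsSeparable.span (R := ℂ) (isSeparable_iUnion.mpr fun j : ℕ => isSeparable_range
      (lp.singleContinuousLinearMap ℂ (fun _ : ℕ => H) 2 j).continuous)).closure.mono fun f _ => ?_
    exact mem_closure_of_tendsto (lp.hasSum_single (by simp) f) (Eventually.of_forall fun s =>
      sum_mem fun j _ => Submodule.subset_span (Set.mem_iUnion.mpr ⟨j, f j, rfl⟩))
  obtain ⟨t, t1, t2, t3⟩ := h1.exists_countable_dense_subset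
  obtain ⟨e, rfl⟩ := t2.exists_eq_range (Set.Nonempty.of_closure ⟨_, t3 ⟨0, rfl⟩⟩)
  choose d hd using fun k => t1 ⟨k, rfl⟩
  refine ⟨d, fun x ε hε => ?_⟩
  obtain ⟨_, ⟨k, rfl⟩, h⟩ := Metric.mem_closure_iff.mp (t3 ⟨x, rfl⟩) ε hε
  exact ⟨k, by rwa [n_trM, map_sub, hd, ← dist_eq_norm, dist_comm]⟩

theorem gd_vN {P : VonNeumannAlgebra H} (hPM : P ≤ M) (hP : ¬ FiniteDimensional ℂ P.toStarSubalgebra)
    (irr : ∀ x ∈ M, (∀ y ∈ P, x * y = y * x) → ∃ c : ℂ, x = c • (1 : H →L[ℂ] H)) :
    (trM hξ).Gd (P.toStarSubalgebra.comap M.toStarSubalgebra.subtype) ⊤ := by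
  refine ⟨trM_W hξ, cl_vN hξ P, fun _ _ => trivial, le_top, fun y _ hy => ?_, fun s hs => hP ?_⟩
  · obtain ⟨c, hc⟩ := irr y y.2 fun z hz => (congrArg Subtype.val (hy ⟨z, hPM hz⟩ hz)).symm
    exact ⟨c, Subtype.ext hc⟩
  · have : FiniteDimensional ℂ (Submodule.span ℂ (Subtype.val '' (s : Set M.toStarSubalgebra))) :=
      FiniteDimensional.span_of_finite _ (s.finite_toSet.image _)
    exact Submodule.finiteDimensional_of_le (S₁ := P.toStarSubalgebra.toSubalgebra.toSubmodule)
      (S₂ := Submodule.span ℂ (Subtype.val '' (s : Set M.toStarSubalgebra)))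
      fun x hx => Submodule.apply_mem_span_image_of_mem_span
        M.toStarSubalgebra.subtype.toLinearMap (hs ⟨x, hPM hx⟩ hx)

end Crest.Agent.GP
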