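import Crest.Agent.GP.Accum
/-! Single generation of separable tracial factors, abstract form. -/
set_option autoImplicit false
namespace Crest.Agent.GP
open scoped ComplexConjugate
open Filter Topology

variable {A : Type*} [CStarAlgebra A]
namespace Tr
variable {T : Tr A} {P Q : StarSubalgebra ℂ A}

noncomputable def res (T : Tr A) (Q : StarSubalgebra ℂ A) [IsClosed (Q : Set A)] : Tr Q where
  τ := T.τ ∘ₗ Q.subtype.toLinearMap
  one := T.one
  comm a b := T.comm a b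
  map_star a := T.map_star a
  pos a := T.pos a

theorem n_res [IsClosed (Q : Set A)] (x : Q) : (T.res Q).n x = T.n x := rfl

theorem Gd.res [IsClosed (Q : Set A)] (G : T.Gd P Q) : (T.res Q).Gd (P.comap Q.subtype) ⊤ := by
  classical
  refine ⟨⟨fun x hx => Subtype.ext (G.hT.faith _ hx), fun x C hC hx => ?_⟩,
    fun x hx => G.hP x fun ε hε => ?_, fun _ _ => trivial, le_top, fun y _ hy => ?_, fun s hs => ?_⟩
  · obtain ⟨y, h1, h2⟩ := G.hT.lim (fun k => x k) C hC (by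
      rw [Metric.cauchySeq_iff] at hx ⊢
      simp only [dist_ι] at hx ⊢
      exact hx)
    exact ⟨⟨y, G.hQ.lim (fun k => (x k).2) h2⟩, h1, h2⟩
  · obtain ⟨y, h1, h2⟩ := hx ε hε
    exact ⟨y, h1, h2⟩
  · obtain ⟨c, hc⟩ := G.irr y y.2 fun z hz => congrArg Subtype.val (hy ⟨z, G.le hz⟩ hz)
    exact ⟨c, Subtype.ext hc⟩
  · refine G.inf (s.image Subtype.val) fun x hx => ?_
    have := Submodule.apply_mem_span_image_of_mem_span Q.subtype.toLinearMap (hs ⟨x, G.le hx⟩ hx)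
    rwa [Finset.coe_image]

theorem Gd.gen_rel (G : T.Gd P Q) {d : ℕ → A} (hd : ∀ k, d k ∈ Q)
    (hd' : ∀ x ∈ Q, ∀ ε > 0, ∃ k, T.n (d k - x) < ε) :
    ∃ v ∈ Q, ∀ N : StarSubalgebra ℂ A, T.Cl N → P ≤ N → v ∈ N → Q ≤ N := by
  haveI : IsClosed (Q : Set A) := G.hQ.isClosed
  obtain ⟨v, -, -, h⟩ := baire G.res.hT G.res.lq (fun k => ⟨d k, hd k⟩) (one_mem _) one_pos
  refine ⟨v, v.2, fun N hN h1 h2 x hx => hN x fun ε hε => ?_⟩
  obtain ⟨k, hk⟩ := hd' x hx _ (half_pos hε)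
  obtain ⟨a, ha, h3⟩ := h k _ (half_pos hε)
  have : Alg (P.comap Q.subtype) v ≤ N.comap Q.subtype :=
    StarAlgebra.adjoin_le (Set.insert_subset h2 fun y hy => h1 hy)
  exact ⟨a, this ha, by linarith [T.n_tri a (d k) x, show T.n (a - d k) < ε / 2 from h3]⟩

theorem series (hT : T.W) (hQ : T.Cl Q) {S : ℕ → A} (hS : ∀ k, Sym (S k)) (hSQ : ∀ k, S k ∈ Q)
    (hc : ∀ k l, k ≠ l → S k * S l = S l * S k) : ∃ a ∈ Q, star a = a ∧ ‖a‖ ≤ 3 / 2 ∧
      ∀ N : StarSubalgebra ℂ A, T.Cl N → a ∈ N → ∀ k, S k ∈ N := by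
  let a : ℕ → A := fun k => ∑' j, (1 / 3 : ℂ) ^ j • S (j + k)
  have hb : ∀ k j, ‖(1 / 3 : ℂ) ^ j • S (j + k)‖ ≤ (1 / 3 : ℝ) ^ j := fun k j => by
    rw [norm_smul, norm_pow]
    simpa using mul_le_of_le_one_right (a := (1 / 3 : ℝ) ^ j) (by positivity) (hS _).norm
  have hg := hasSum_geometric_of_lt_one (r := 1 / 3) (by norm_num) (by norm_num)
  have h1 : ∀ k, ‖a k‖ ≤ 3 / 2 := fun k => (tsum_of_norm_bounded hg (hb k)).trans (by norm_num)
  have h2 : ∀ k, star (a k) = a k := fun k => by simp [a, tsum_star, (hS _).1]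
  have h3 : ∀ k, a k = S k + (1 / 3 : ℂ) • a (k + 1) := fun k => by
    simp only [a]
    rw [(Summable.of_norm_bounded hg.summable (hb k)).tsum_eq_zero_add, ← tsum_const_smul'']
    simp only [pow_zero, zero_add, one_smul, smul_smul, pow_succ', add_assoc, add_comm 1 k]
  haveI : IsClosed (Q : Set A) := hQ.isClosed
  refine ⟨a 0, tsum_mem hQ.isClosed fun j => SMulMemClass.smul_mem _ (hSQ _), h2 0, h1 0,
    fun N hN ha => ?_⟩
  have key : ∀ k, a k ∈ N → S k ∈ N := fun k hk =>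
    sym_mem hT hN (hS k) (b := (1 / 3 : ℂ) • a (k + 1)) (by simp [h2])
      (Commute.smul_right (Commute.tsum_right _ fun j =>
        Commute.smul_right (hc k _ (by omega)) _) _).eq
      (by rw [norm_smul]; have := h1 (k + 1); simp; linarith) (h3 k ▸ hk)
  intro k
  refine key k ?_
  induction k with
  | zero => exact ha
  | succ k ih =>
    have := SMulMemClass.smul_mem (3 : ℂ) (sub_mem ih (key k ih))
    rw [h3 k] at this
    simpa [smul_smul] using this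

theorem mix_mem {X Z p q : A} (h : Qb X Z) {N : StarSubalgebra ℂ A} (hX : X ∈ N) (hZ : Z ∈ N)
    (hp : X * p = p * X) (hq : X * q = q * X) (hm : p + Z * q ∈ N) : p ∈ N ∧ q ∈ N := by
  have h1 : p ∈ N := by
    convert EZ_mem hX hm using 1
    rw [EZ, mul_add, add_mul, hp, mul_assoc p, h.hX.2, ← mul_assoc, h.anti, neg_mul, mul_assoc Z, hq,
      neg_mul, mul_assoc, mul_assoc, h.hX.2, mul_one, mul_one]; module
  exact ⟨h1, by simpa [h.hZ.mul_mul] using mul_mem hZ (sub_mem hm h1)⟩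

theorem Gd.single (G : T.Gd ⊤ ⊤) {d : ℕ → A} (hd : ∀ x, ∀ ε > 0, ∃ k, T.n (d k - x) < ε) :
    ∃ x, ∀ N : StarSubalgebra ℂ A, T.Cl N → x ∈ N → ∀ y, y ∈ N := by
  obtain ⟨X₀, -, Z₀, -, h⟩ := G.qb
  have GQ := G.cm trivial trivial h
  set Q := Cm ⊤ X₀ Z₀
  have hd1 : ∀ k, EZ X₀ (EZ Z₀ (d k)) ∈ Q := fun k =>
    (qb_half (Q := ⊤) h trivial trivial trivial (EZ_comm h.hZ _)).1
  have hd2 : ∀ x ∈ Q, ∀ ε > 0, ∃ k, T.n (EZ X₀ (EZ Z₀ (d k)) - x) < ε := fun x hx ε hε => by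
    obtain ⟨k, hk⟩ := hd x ε hε
    obtain ⟨-, h1, h2⟩ := h.mem_Cm.mp hx
    refine ⟨k, lt_of_le_of_lt ?_ hk⟩
    conv_lhs => rw [← EZ_of_comm h.hX h1, ← EZ_of_comm h.hZ h2, ← EZ_sub, ← EZ_sub]
    exact (n_EZ_le h.hX _).trans (n_EZ_le h.hZ _)
  obtain ⟨X, Z, h1, h2, h3⟩ := GQ.tower _ hd1
  let R := sInf {N : StarSubalgebra ℂ A | T.Cl N ∧ ∀ k, X k ∈ N ∧ Z k ∈ N}
  have hR : ∀ k, X k ∈ R ∧ Z k ∈ R := fun k =>
    ⟨StarSubalgebra.mem_sInf.mpr fun N hN => (hN.2 k).1,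
      StarSubalgebra.mem_sInf.mpr fun N hN => (hN.2 k).2⟩
  have GR : T.Gd R Q := by
    refine ⟨G.hT, fun x hx => StarSubalgebra.mem_sInf.mpr fun N hN => hN.1 x fun ε hε =>
      (hx ε hε).imp fun y hy => ⟨StarSubalgebra.mem_sInf.mp hy.1 N hN, hy.2⟩, GQ.hQ,
      sInf_le ⟨GQ.hQ, fun k => ⟨(h1 k).1, (h1 k).2.1⟩⟩, fun y hy hc => ⟨T.τ y, ?_⟩, fun s hs => ?_⟩
    · refine G.hT.eq_of_le fun ε hε => ?_
      obtain ⟨k, hk⟩ := hd2 y hy ε hε
      exact (h3 y (fun k => ⟨hc _ (hR k).1, hc _ (hR k).2⟩) k).trans (T.n_sub_rev _ _ ▸ hk.le)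
    · have := (orthonormal_of (T := T) (fun k => (h1 k).2.2.hX) (fun k => (h1 k).2.2.hZ)
        (fun k => (h1 k).2.2.anti) fun k l hkl => (h2 k l hkl).2.1).linearIndependent
      have : Finite ℕ := LinearIndependent.finite_of_le_span_finite (R := ℂ) (M := A) Z this s
        (by rintro _ ⟨k, rfl⟩; exact hs _ (hR k).2)
      exact not_finite ℕ
  obtain ⟨u, hu, h4⟩ := GR.gen_rel hd1 hd2
  obtain ⟨a, ha, a1, a2, a3⟩ := series G.hT GQ.hQ (fun k => (h1 k).2.2.hZ) (fun k => (h1 k).2.1)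
    fun k l hkl => (h2 k l hkl).2.2
  obtain ⟨b, hb, b1, b2, b3⟩ := series G.hT GQ.hQ (fun k => (h1 k).2.2.hX) (fun k => (h1 k).1)
    fun k l hkl => (h2 k l hkl).1
  obtain ⟨p, q, p1, q1, -, -, e, ep, eq⟩ := decomp u
  obtain ⟨-, a4, a5⟩ := h.mem_Cm.mp ha
  obtain ⟨-, b4, b5⟩ := h.mem_Cm.mp hb
  obtain ⟨-, p4, p5⟩ := h.mem_Cm.mp (show p ∈ Q from ep ▸ SMulMemClass.smul_mem _
    (add_mem hu (star_mem hu)))
  obtain ⟨-, q4, q5⟩ := h.mem_Cm.mp (show q ∈ Q from eq ▸ SMulMemClass.smul_mem _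
    (sub_mem hu (star_mem hu)))
  have key : ∀ (B C : A) (N : StarSubalgebra ℂ A), star B = B → star C = C →
      B + Complex.I • C ∈ N → B ∈ N ∧ C ∈ N := fun B C N hB hC hx => by
    have h1 : B ∈ N := by
      convert SMulMemClass.smul_mem (1 / 2 : ℂ) (add_mem hx (star_mem hx)) using 1
      simp only [star_add, star_smul, hB, hC, Complex.star_def, Complex.conj_I]; module
    refine ⟨h1, ?_⟩
    simpa [smul_smul] using SMulMemClass.smul_mem (-Complex.I) (sub_mem hx h1)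
  refine ⟨(Z₀ + (1 / 4 : ℂ) • (a + Z₀ * b)) + Complex.I • (X₀ + (p + Z₀ * q)), fun N hN hx y => ?_⟩
  have s1 : star ((1 / 4 : ℂ) • (a + Z₀ * b)) = (1 / 4 : ℂ) • (a + Z₀ * b) := by
    simp [a1, b1, h.hZ.1, b5]
  obtain ⟨k1, k2⟩ := key _ _ N (by rw [star_add, s1, h.hZ.1])
    (by simp [p1, q1, h.hZ.1, h.hX.1, q5]) hx
  have hZ : Z₀ ∈ N := sym_mem G.hT hN h.hZ s1 (Commute.smul_right (Commute.add_right a5
    (Commute.mul_right rfl b5)) _).eq (by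
      have := norm_add_le a (Z₀ * b)
      have := norm_mul_le' h.hZ.norm b2
      rw [norm_smul]; simp only [norm_div, norm_one, Complex.norm_ofNat]; linarith) k1
  have hX : X₀ ∈ N := by
    have e1 : EZ Z₀ (X₀ + (p + Z₀ * q)) = p + Z₀ * q := by
      have := EZ_of_comm h.hZ (Commute.add_right p5 (Commute.mul_right rfl q5)).eq
      generalize p + Z₀ * q = r at *
      rw [EZ] at this ⊢
      rw [mul_add Z₀ X₀, add_mul, h.symm.anti, neg_mul, mul_assoc X₀, h.hZ.2, mul_one]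
      conv_rhs => rw [← this]
      module
    simpa [e1] using sub_mem k2 (EZ_mem hZ k2)
  obtain ⟨m1, m2⟩ := mix_mem h hX hZ a4 b4 (by
    simpa [smul_smul] using SMulMemClass.smul_mem (4 : ℂ) (sub_mem k1 hZ))
  obtain ⟨m3, m4⟩ := mix_mem h hX hZ p4 q4 (by simpa using sub_mem k2 hX)
  have hQ := h4 N hN (sInf_le ⟨hN, fun k => ⟨b3 N hN m2 k, a3 N hN m1 k⟩⟩)
    (e ▸ add_mem m3 (SMulMemClass.smul_mem _ m4))
  obtain ⟨a, ha, b, hb, c, hc, d, hd, -, -, -, -, rfl⟩ := qb_decomp (Q := ⊤) (m := y) h trivial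
    trivial trivial
  exact add_mem (add_mem (hQ ha) (mul_mem hZ (hQ hb)))
    (mul_mem hX (add_mem (hQ hc) (mul_mem hZ (hQ hd))))

end Tr
end Crest.Agent.GP
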