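import Crest.Agent.GP.Popa
/-! Iterated free unitaries: homogeneous elements of non-trivial degree have trace zero. -/
set_option autoImplicit false
namespace Crest.Agent.GP
open scoped ComplexConjugate
open Filter Topology BoundedContinuousFunction Function

variable {A : Type*} [CStarAlgebra A]

def Om (P : StarSubalgebra ℂ A) := ℕ → UP P
instance (P : StarSubalgebra ℂ A) : TopologicalSpace (Om P) := ⊥
instance (P : StarSubalgebra ℂ A) : DiscreteTopology (Om P) := ⟨rfl⟩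

variable {P : StarSubalgebra ℂ A}

def upd (ω : Om P) (j : ℕ) (v : UP P) : Om P := update ω j v

noncomputable def gen (P : StarSubalgebra ℂ A) (i : ℕ) : Om P →ᵇ A :=
  ofNormedAddCommGroupDiscrete (fun ω => (ω i).1) 1 fun ω => norm_unit (ω i).2.2

theorem gen_apply (i : ℕ) (ω : Om P) : gen P i ω = (ω i).1 := rfl

theorem gen_unit (i : ℕ) : gen P i ∈ unitary (Om P →ᵇ A) :=
  ⟨by ext ω; exact (ω i).2.2.1, by ext ω; exact (ω i).2.2.2⟩

theorem pw_gen (i : ℕ) (b : Bool) (ω : Om P) : pw (gen P i) b ω = pw (ω i).1 b := by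
  cases b <;> rfl

theorem pw_not {B : Type*} [CStarAlgebra B] {v : B} (hv : v ∈ unitary B) (b : Bool) :
    pw v b * pw v (!b) = 1 := by
  cases b
  · exact hv.1
  · exact hv.2

def Ad (j : ℕ) (f : Om P →ᵇ A) : Prop := ∀ i, j ≤ i → ∀ ω v, f (upd ω i v) = f ω
def Sc (z : Om P →ᵇ A) : Prop := ∀ ω, ∃ c : ℂ, z ω = c • 1

theorem Sc.comm {z : Om P →ᵇ A} (h : Sc z) (f : Om P →ᵇ A) : f * z = z * f := by
  ext ω; obtain ⟨c, hc⟩ := h ω; simp [hc]

variable {G : Type*} [Group G]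

def dg (g : G) (b : Bool) : G := if b then g else g⁻¹
theorem dg_not (g : G) (b : Bool) : dg g b * dg g (!b) = 1 := by cases b <;> simp [dg]

inductive Gr (β : ℕ → G) (j : ℕ) : G → (Om P →ᵇ A) → Prop
  | const (a : A) : Gr β j 1 (const _ a)
  | gen (i : ℕ) (b : Bool) : i < j → Gr β j (dg (β i) b) (pw (gen P i) b)
  | scal (z) : Sc z → Ad j z → Gr β j 1 z
  | mul {g g' f f'} : Gr β j g f → Gr β j g' f' → Gr β j (g * g') (f * f')
  | add {g f f'} : Gr β j g f → Gr β j g f' → Gr β j g (f + f')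

variable {β : ℕ → G} {j : ℕ}

theorem Gr.ad {g : G} {f : Om P →ᵇ A} (h : Gr β j g f) : Ad j f := by
  induction h with
  | const a => exact fun _ _ _ _ => rfl
  | gen i b hi => intro k hk ω v; rw [pw_gen, pw_gen, upd, update_of_ne (by omega)]
  | scal z _ h => exact h
  | mul _ _ h h' => intro k hk ω v; simp [h k hk, h' k hk]
  | add _ _ h h' => intro k hk ω v; simp [h k hk, h' k hk]

theorem Gr.zero {g : G} {f : Om P →ᵇ A} (h : Gr β 0 g f) : g = 1 := by
  induction h with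
  | gen i b hi => omega
  | mul _ _ h h' => rw [h, h', one_mul]
  | add _ _ h _ => exact h
  | _ => rfl

noncomputable def itU (𝔉 : Ultrafilter (UP P)) : ℕ → Ultrafilter (Om P)
  | 0 => pure fun _ => ⟨1, one_mem _, one_mem _⟩
  | j + 1 => (itU 𝔉 j).bind fun ω => 𝔉.map (upd ω j)

namespace Tr
variable (T : Tr A) (𝔉 : Ultrafilter (UP P))

def Null (j : ℕ) (f : Om P →ᵇ A) : Prop := Tendsto (fun ω => T.τ (f ω)) (itU 𝔉 j) (𝓝 0)

inductive Rest (β : ℕ → G) (j : ℕ) : Option Bool → G → (Om P →ᵇ A) → Prop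
  | nil : Rest β j none 1 1
  | cons {s g R g' f} (b : Bool) : Rest β j s g R → Gr β j g' f → (s = some (!b) → T.Null 𝔉 j f) →
      Rest β j (some b) (dg (β j) b * (g' * g)) (pw (gen P j) b * (f * R))

inductive TT (β : ℕ → G) (j : ℕ) : G → (Om P →ᵇ A) → Prop
  | word {s g R g' f} : Gr β j g' f → T.Rest 𝔉 β j s g R → TT β j (g' * g) (f * R)
  | add {g t t'} : TT β j g t → TT β j g t' → TT β j g (t + t')
  | smul {g z t} : Sc z → TT β j g t → TT β j g (z * t)

noncomputable def scτ (f : Om P →ᵇ A) : Om P →ᵇ A :=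
  ofNormedAddCommGroupDiscrete (fun ω => T.τ (f ω) • 1) ‖f‖ fun ω => by
    rw [norm_smul]
    simpa using mul_le_mul ((T.τ_le _).trans (f.norm_coe_le_norm ω)) (norm_one_le (A := A))
      (norm_nonneg _) (norm_nonneg _)

theorem scτ_apply (f : Om P →ᵇ A) (ω : Om P) : T.scτ f ω = T.τ (f ω) • 1 := rfl

variable {T 𝔉}

theorem TT.cast {g g' : G} {t t' : Om P →ᵇ A} (h : T.TT 𝔉 β j g t) (e : g = g') (e' : t = t') :
    T.TT 𝔉 β j g' t' := e ▸ e' ▸ h

theorem TT.letter {g g' : G} {f t : Om P →ᵇ A} (hf : Gr β j g f) (h : T.TT 𝔉 β j g' t) :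
    T.TT 𝔉 β j (g * g') (f * t) := by
  induction h with
  | word h1 h2 => exact (TT.word (hf.mul h1) h2).cast (mul_assoc _ _ _) (mul_assoc _ _ _)
  | add _ _ h h' => exact (h.add h').cast rfl (mul_add _ _ _).symm
  | smul hz _ h => exact (h.smul hz).cast rfl (by rw [← mul_assoc, ← hz.comm, mul_assoc])

theorem TT.gen (ih : ∀ g f, Gr β j g f → g ≠ 1 → T.Null 𝔉 j f) (b : Bool) {g : G} {t : Om P →ᵇ A}
    (h : T.TT 𝔉 β j g t) : T.TT 𝔉 β j (dg (β j) b * g) (pw (gen P j) b * t) := by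
  induction h with
  | add _ _ h h' => exact (h.add h').cast rfl (mul_add _ _ _).symm
  | smul hz _ h => exact (h.smul hz).cast rfl (by rw [← mul_assoc, ← hz.comm, mul_assoc])
  | @word s g R g' f h1 h2 =>
    by_cases h : s = some (!b) → T.Null 𝔉 j f
    · exact (TT.word (Gr.const 1) (h2.cons b h1 h)).cast (one_mul _) (one_mul _)
    rw [Classical.not_imp] at h
    obtain rfl : g' = 1 := by_contra fun hg => h.2 (ih _ _ h1 hg)
    have hs : Sc (T.scτ f) := fun ω => ⟨_, rfl⟩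
    have h3 : Gr β j 1 (f + -T.scτ f) := h1.add (Gr.scal _
      (fun ω => ⟨-T.τ (f ω), by simp [scτ_apply]⟩) fun i hi ω v => by
        simp [scτ_apply, h1.ad i hi])
    have h4 := TT.word (Gr.const 1) (h2.cons b h3 fun _ => by simp [Null, scτ_apply, T.one])
    cases h2 with
    | nil => simp at h
    | @cons s g R g' f' b' r1 r2 r3 =>
      obtain rfl : b' = !b := by simpa using h.1
      refine ((h4.cast (one_mul _) (one_mul _)).add (((TT.word r2 r1).smul hs).cast ?_ rfl)).cast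
        rfl ?_
      · rw [one_mul, ← mul_assoc, dg_not, one_mul]
      · rw [add_mul, mul_add, neg_mul, mul_neg, ← mul_assoc _ (T.scτ f), hs.comm, mul_assoc,
          ← mul_assoc (pw _ b) (pw _ _), pw_not (gen_unit j), one_mul]
        abel

theorem _root_.Crest.Agent.GP.Gr.toTT (ih : ∀ g f, Gr β j g f → g ≠ 1 → T.Null 𝔉 j f) {g : G}
    {f : Om P →ᵇ A} (h : Gr β (j + 1) g f) :
    ∀ g' t, T.TT 𝔉 β j g' t → T.TT 𝔉 β j (g * g') (f * t) := by
  induction h with
  | const a => exact fun _ _ h => h.letter (Gr.const a)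
  | gen i b hi =>
    intro g' t h
    rcases (Nat.lt_succ_iff.mp hi).lt_or_eq with hi | rfl
    · exact h.letter (Gr.gen i b hi)
    · exact h.gen ih b
  | scal z hz _ => exact fun _ _ h => (h.smul hz).cast (one_mul _).symm rfl
  | mul _ _ h h' =>
    exact fun _ _ ht => (h _ _ (h' _ _ ht)).cast (mul_assoc _ _ _).symm (mul_assoc _ _ _).symm
  | add _ _ h h' => exact fun _ _ ht => ((h _ _ ht).add (h' _ _ ht)).cast rfl (add_mul _ _ _).symm

theorem Rest.approx {s : Option Bool} {g : G} {R : Om P →ᵇ A} (h : T.Rest 𝔉 β j s g R) :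
    ∃ (L : Om P → List (Bool × A)) (e : Om P → ℝ), Tendsto e (itU 𝔉 j) (𝓝 0) ∧ ∀ ω, T.Ch (L ω) ∧
      (L ω).head?.map Prod.fst = s ∧ ∀ v, ‖R (upd ω j v) - wd v.1 (L ω)‖ ≤ e ω := by
  induction h with
  | nil => exact ⟨fun _ => [], fun _ => 0, tendsto_const_nhds, fun ω => ⟨List.isChain_nil, rfl, by simp⟩⟩
  | @cons s g R g' f b _ hf hn ih =>
    obtain ⟨L, e, he, h⟩ := ih
    obtain ⟨c, hc, hc'⟩ : ∃ c : Om P → ℂ, Tendsto c (itU 𝔉 j) (𝓝 0) ∧
        ∀ ω, s = some (!b) → c ω = T.τ (f ω) := by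
      by_cases hs : s = some (!b)
      · exact ⟨_, hn hs, fun _ _ => rfl⟩
      · exact ⟨fun _ => 0, tendsto_const_nhds, fun _ h => absurd h hs⟩
    refine ⟨fun ω => (b, f ω - c ω • 1) :: L ω, fun ω => ‖f‖ * e ω + ‖c ω‖ * (‖R‖ + e ω),
      by simpa using (he.const_mul ‖f‖).add (hc.norm.mul (he.const_add ‖R‖)),
      fun ω => ⟨?_, rfl, fun v => ?_⟩⟩
    · obtain ⟨h1, h2, -⟩ := h ω
      refine List.IsChain.cons h1 fun q hq hb => ?_
      rw [Option.mem_def] at hq
      rw [map_sub, map_smul, T.one, hc' ω (by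
        rw [← h2, hq]; revert hb; cases b <;> cases q with | mk b' _ => cases b' <;> simp)]
      simp
    · have h1 := (h ω).2.2 v
      have h2 : ‖wd v.1 (L ω)‖ ≤ ‖R‖ + e ω := by
        have := norm_sub_le (R (upd ω j v)) (R (upd ω j v) - wd v.1 (L ω))
        rw [sub_sub_cancel] at this
        linarith [R.norm_coe_le_norm (upd ω j v)]
      have : (pw (gen P j) b * (f * R)) (upd ω j v) - wd v.1 ((b, f ω - c ω • 1) :: L ω) =
          pw v.1 b * (f ω * (R (upd ω j v) - wd v.1 (L ω)) + c ω • wd v.1 (L ω)) := by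
        have : pw (gen P j) b (upd ω j v) = pw v.1 b := by simp [pw_gen, upd]
        simp [this, hf.ad j le_rfl, mul_sub, sub_mul, mul_add, mul_assoc]; abel
      rw [this]
      refine (norm_mul_le' (norm_unit (pw_unit v.2.2 b)) (norm_add_le _ _)).trans ?_
      rw [one_mul, norm_smul]
      exact add_le_add (norm_mul_le' (f.norm_coe_le_norm ω) h1)
        (mul_le_mul_of_nonneg_left h2 (norm_nonneg _))

def Free (T : Tr A) (𝔉 : Ultrafilter (UP P)) : Prop := ∀ (x : A) (l : List (Bool × A)), l ≠ [] →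
  T.Ch l → Tendsto (fun v : UP P => T.τ (x * wd v.1 l)) 𝔉 (𝓝 0)

theorem null_succ {f : Om P →ᵇ A} : T.Null 𝔉 (j + 1) f ↔
    ∀ ε > 0, ∀ᶠ ω in itU 𝔉 j, ∀ᶠ v in 𝔉, ‖T.τ (f (upd ω j v))‖ < ε := by
  rw [Null, NormedAddGroup.tendsto_nhds_zero]; rfl

theorem TT.null (hF : T.Free 𝔉) (ih : ∀ g f, Gr β j g f → g ≠ 1 → T.Null 𝔉 j f) {g : G}
    {t : Om P →ᵇ A} (h : T.TT 𝔉 β j g t) : g ≠ 1 → T.Null 𝔉 (j + 1) t := by
  induction h with
  | add _ _ h h' => intro hg; simpa [Null] using (h hg).add (h' hg)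
  | @smul g z t hz _ h =>
    intro hg
    refine squeeze_zero_norm (a := fun ω => ‖z‖ * ‖T.τ (t ω)‖) (fun ω => ?_)
      (by simpa using (h hg).norm.const_mul ‖z‖)
    obtain ⟨c, hc⟩ := hz ω
    have := (T.τ_le _).trans (z.norm_coe_le_norm ω)
    simp only [hc, map_smul, T.one, smul_eq_mul, mul_one] at this
    simpa [hc] using mul_le_mul_of_nonneg_right this (norm_nonneg _)
  | @word s g R g' f h1 h2 =>
    intro hg
    rw [null_succ]
    intro ε hε
    obtain ⟨L, e, he, h⟩ := h2.approx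
    cases h2 with
    | nil =>
      filter_upwards [NormedAddGroup.tendsto_nhds_zero.mp (ih _ _ h1 (by simpa using hg)) ε hε]
        with ω hω
      simpa [h1.ad j le_rfl] using hω
    | @cons s g R g'' f' b r1 r2 r3 =>
      filter_upwards [(he.const_mul ‖f‖).eventually (gt_mem_nhds (show _ < ε / 2 by linarith))]
        with ω hω
      obtain ⟨a1, a2, a3⟩ := h ω
      filter_upwards [NormedAddGroup.tendsto_nhds_zero.mp (hF (f ω) (L ω)
        (by rintro h; simp [h] at a2) a1) _ (half_pos hε)] with v hv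
      generalize pw (GP.gen P j) b * (f' * R) = R' at *
      have := norm_add_le (T.τ (f ω * (R' (upd ω j v) - wd v.1 (L ω)))) (T.τ (f ω * wd v.1 (L ω)))
      rw [← map_add, ← mul_add, sub_add_cancel] at this
      have := (T.τ_le _).trans (norm_mul_le' (f.norm_coe_le_norm ω) (a3 v))
      rw [mul_apply, h1.ad j le_rfl]; linarith

theorem gr_null (hF : T.Free 𝔉) (j : ℕ) : ∀ g (f : Om P →ᵇ A), Gr β j g f → g ≠ 1 → T.Null 𝔉 j f := by
  induction j with
  | zero => exact fun g f h hg => absurd h.zero hg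
  | succ j ih =>
    exact fun g f h hg => ((h.toTT ih _ _ (TT.word (Gr.const 1) Rest.nil)).cast (by simp)
      (by rw [mul_one]; exact mul_one f)).null hF ih hg

theorem exists_lim (T : Tr A) (𝒰 : Ultrafilter (Om P)) : ∃ T' : Tr (Om P →ᵇ A),
    ∀ f, Tendsto (fun ω => T.τ (f ω)) 𝒰 (𝓝 (T'.τ f)) := by
  have : ∀ f : Om P →ᵇ A, ∃ l, Tendsto (fun ω => T.τ (f ω)) 𝒰 (𝓝 l) := fun f => by
    obtain ⟨l, -, hl⟩ := (isCompact_closedBall (0 : ℂ) ‖f‖).ultrafilter_le_nhds
      (𝒰.map fun ω => T.τ (f ω)) (by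
        rw [le_principal_iff, Ultrafilter.coe_map, mem_map]
        exact univ_mem' fun ω => by simpa using (T.τ_le _).trans (f.norm_coe_le_norm ω))
    exact ⟨l, hl⟩
  choose l hl using this
  refine ⟨⟨⟨⟨l, fun f g => tendsto_nhds_unique (hl _) (by simpa using (hl f).add (hl g))⟩,
    fun c f => tendsto_nhds_unique (hl _) (by simpa using (hl f).const_mul c)⟩,
    tendsto_nhds_unique (hl _) (by simp [T.one]),
    fun f g => tendsto_nhds_unique (hl _) (by simpa [T.comm (f _)] using hl (g * f)),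
    fun f => tendsto_nhds_unique (hl _) (by
      simpa [T.map_star, Function.comp_def] using (Complex.continuous_conj.tendsto _).comp (hl f)),
    fun f => ge_of_tendsto' ((Complex.continuous_re.tendsto _).comp (hl _)) fun ω => T.pos _⟩, hl⟩

end Tr

/-- closed span of homogeneous elements with degree in `S` -/
noncomputable def CS (β : ℕ → G) (j : ℕ) (S : Set G) : Submodule ℂ (Om P →ᵇ A) :=
  (Submodule.span ℂ {f | ∃ g ∈ S, Gr β j g f}).topologicalClosure

theorem Gr.cs {S : Set G} {g : G} {f : Om P →ᵇ A} (h : Gr β j g f) (hg : g ∈ S) : f ∈ CS β j S :=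
  Submodule.le_topologicalClosure _ (Submodule.subset_span ⟨g, hg, h⟩)

theorem cs_mul {S S' S'' : Set G} (h : ∀ g ∈ S, ∀ g' ∈ S', g * g' ∈ S'') {f f' : Om P →ᵇ A}
    (hf : f ∈ CS β j S) (hf' : f' ∈ CS β j S') : f * f' ∈ CS β j S'' :=
  map_mem_closure₂ (f := fun a b : Om P →ᵇ A => a * b) continuous_mul hf hf' fun a ha b hb => by
    have := Submodule.mul_mem_mul ha hb
    rw [Submodule.span_mul_span] at this
    refine Submodule.span_mono ?_ this
    rintro _ ⟨a, ⟨g, hg, ha⟩, b, ⟨g', hg', hb⟩, rfl⟩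
    exact ⟨_, h g hg g' hg', ha.mul hb⟩

theorem cs_null {S : Set G} (hS : 1 ∉ S) {T' : Tr (Om P →ᵇ A)}
    (h : ∀ g f, Gr β j g f → g ≠ 1 → T'.τ f = 0) {f : Om P →ᵇ A} (hf : f ∈ CS β j S) :
    T'.τ f = 0 := by
  refine Submodule.topologicalClosure_minimal _ (t := LinearMap.ker T'.τ) (Submodule.span_le.mpr ?_)
    ?_ hf
  · rintro f ⟨g, hg, hf⟩
    exact h g f hf (by rintro rfl; exact hS hg)
  · exact Tr.Cl.isClosed (Tr.cl_τ 0)

theorem cs_inv (K : Subgroup G) {x R : Om P →ᵇ A} (hx : x ∈ CS β j K) (h1 : ‖x‖ < 1)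
    (hR : R = 1 + x * R) : R ∈ CS β j K := by
  have h0 : (1 : Om P →ᵇ A) ∈ CS β j K := (Gr.const 1).cs K.one_mem
  have key : ∀ n : ℕ, R - x ^ n * R ∈ CS β j K ∧ x ^ n ∈ CS β j K := fun n => by
    induction n with
    | zero => simpa using h0
    | succ n ih =>
      refine ⟨?_, by rw [pow_succ]; exact cs_mul (fun _ h _ h' => K.mul_mem h h') ih.2 hx⟩
      have : R - x ^ (n + 1) * R = (R - x ^ n * R) + x ^ n := by
        have : x ^ n * R = x ^ n + x ^ (n + 1) * R := by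
          conv_lhs => rw [hR, mul_add, mul_one, ← mul_assoc, ← pow_succ]
        rw [this]; abel
      rw [this]; exact add_mem ih.1 ih.2
  refine (Submodule.isClosed_topologicalClosure _).mem_of_tendsto (b := atTop)
    (f := fun n => R - x ^ n * R) ?_ (Eventually.of_forall fun n => (key n).1)
  simpa using ((tendsto_pow_atTop_nhds_zero_of_norm_lt_one h1).mul_const R).const_sub R

end Crest.Agent.GP
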