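import Crest.Agent.GP.Polar
/-! An infinite-dimensional tracial factor contains a qubit. -/
set_option autoImplicit false
namespace Crest.Agent.GP
open scoped ComplexConjugate
open Filter Topology

theorem greedy {X : Type*} (le : X → X → Prop) (refl : ∀ x, le x x) (r : X → ℝ) (B : ℝ)
    (trans : ∀ x y z, le x y → le y z → le x z) (bdd : ∀ x, r x ≤ B)
    (mono : ∀ x y, le x y → r x ≤ r y)
    (ub : ∀ x : ℕ → X, (∀ k l, k ≤ l → le (x k) (x l)) → ∃ y, ∀ k, le (x k) y) (x₀ : X) :
    ∃ y, ∀ z, le y z → r z ≤ r y := by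
  have step : ∀ (k : ℕ) (x : X), ∃ y, le x y ∧ ∀ z, le x z → r z ≤ r y + 1 / ((k : ℝ) + 1) := by
    intro k x
    have hb : BddAbove (r '' {z | le x z}) := ⟨B, by rintro _ ⟨z, -, rfl⟩; exact bdd z⟩
    obtain ⟨_, ⟨y, hy, rfl⟩, h⟩ := exists_lt_of_lt_csSup (s := r '' {z | le x z})
      ⟨_, x, refl x, rfl⟩ (sub_lt_self _ (Nat.one_div_pos_of_nat (n := k)))
    exact ⟨y, hy, fun z hz => by linarith [le_csSup hb ⟨z, hz, rfl⟩]⟩
  choose f hf hf' using step
  let x : ℕ → X := fun k => Nat.rec x₀ (fun k x => f k x) k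
  obtain ⟨y, hy⟩ := ub x fun k l hkl => by
    induction l, hkl using Nat.le_induction with
    | base => exact refl _
    | succ l _ ih => exact trans _ _ _ ih (hf l (x l))
  refine ⟨y, fun z hz => ge_of_tendsto' (x := atTop) (f := fun k : ℕ => r y + 1 / ((k : ℝ) + 1))
    (by simpa using tendsto_one_div_add_atTop_nhds_zero_nat.const_add (r y)) fun k => ?_⟩
  have := hf' k (x k) z (trans _ _ _ (hy k) hz)
  have := mono _ _ (hy (k + 1))
  simp only [x] at *
  linarith

variable {A : Type*} [CStarAlgebra A]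

def Proj (e : A) : Prop := star e = e ∧ e * e = e

structure Qb (X Z : A) : Prop where
  hX : Sym X
  hZ : Sym Z
  anti : X * Z = -(Z * X)

def InfD (P : StarSubalgebra ℂ A) : Prop :=
  ∀ s : Finset A, ¬ ∀ x ∈ P, x ∈ Submodule.span ℂ (s : Set A)

theorem Proj.norm {e : A} (h : Proj e) : ‖e‖ ≤ 1 := by
  have := CStarRing.norm_star_mul_self (x := e)
  rw [h.1, h.2] at this
  nlinarith [norm_nonneg e]

theorem Proj.compl {e : A} (h : Proj e) : Proj (1 - e) :=
  ⟨by simp [h.1], by simp [mul_sub, sub_mul, h.2]⟩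

theorem pi_star {v : A} (h : v * star v * v = v) : star v * v * star v = star v := by
  simpa [mul_assoc] using congrArg star h

theorem pi_proj {v : A} (h : v * star v * v = v) : Proj (star v * v) :=
  ⟨by simp, by rw [mul_assoc, ← mul_assoc v, h]⟩

theorem pi_proj' {v : A} (h : v * star v * v = v) : Proj (v * star v) :=
  ⟨by simp, by rw [← mul_assoc, h]⟩

theorem pi_norm {v : A} (h : v * star v * v = v) : ‖v‖ ≤ 1 :=
  norm_le_one_of_star_mul (pi_proj h).norm

namespace Tr
variable {T : Tr A}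

theorem τ_proj {e : A} (h : Proj e) : T.τ e = ((T.n e ^ 2 : ℝ) : ℂ) := by
  rw [← n_sq', h.1, h.2]

theorem τ_proj_ne (hT : T.W) {e : A} (h : Proj e) (he : e ≠ 0) : T.τ e ≠ 0 := by
  rw [τ_proj h]
  exact_mod_cast pow_ne_zero 2 fun h => he (hT.faith _ h)

theorem pi_between (hT : T.W) {P : StarSubalgebra ℂ A} (hP : T.Cl P) (irr : Irr P P) {e f : A}
    (he : e ∈ P) (hf : f ∈ P) (he' : Proj e) (hf' : Proj f) (he0 : e ≠ 0) (hf0 : f ≠ 0) :
    ∃ v ∈ P, v ≠ 0 ∧ v * star v * v = v ∧ v * e = v ∧ f * v = v := by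
  letI := CStarAlgebra.spectralOrder A
  haveI := CStarAlgebra.spectralOrderedRing A
  obtain ⟨x, hx, h⟩ := nondeg hT hP irr he (τ_proj_ne hT he' he0) hf0
  obtain ⟨v, hv, -, e1, -, e2, e3, e4, -⟩ := polar hT hP (mul_mem (mul_mem hf hx) he)
  refine ⟨v, hv, fun h0 => h (by rw [← e1, h0, zero_mul]), e2, ?_, ?_⟩
  · have := e3 (1 - e) (by rw [mul_assoc, mul_sub, he'.2]; simp)
    rw [mul_sub, mul_one, sub_eq_zero] at this; exact this.symm
  · have := e4 (1 - f) (by rw [← mul_assoc, ← mul_assoc, sub_mul, hf'.2]; simp)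
    rw [sub_mul, one_mul, sub_eq_zero] at this; exact this.symm

theorem minimal (hT : T.W) {P : StarSubalgebra ℂ A} (hP : T.Cl P) {g : A} (hg : g ∈ P)
    (hg' : Proj g) (hg0 : g ≠ 0) (hmin : ∀ e ∈ P, Proj e → e * g = e → e = 0 ∨ e = g) :
    ∀ x ∈ P, ∃ c : ℂ, g * x * g = c • g := by
  letI := CStarAlgebra.spectralOrder A
  haveI := CStarAlgebra.spectralOrderedRing A
  have key : ∀ b ∈ P, star b = b → b * g = b → T.τ b = 0 → b = 0 := by
    intro b hb hs hbg h0
    obtain ⟨v, hv, -, e1, e2, e3, e4, -, e5⟩ := polar hT hP hb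
    have e5 := e5 hs
    rw [e5] at e2 e3
    have e6 : v * g = v := by
      have := e4 (1 - g) (by rw [mul_sub, hbg]; simp)
      rw [mul_sub, mul_one, sub_eq_zero] at this; exact this.symm
    have hgb : g * b = b := by simpa [hs, hg'.1] using congrArg star hbg
    have e7 : v * (v * v) = v := by rw [← mul_assoc, e3]
    have pr : ∀ w ∈ P, star w = w → w * (w * w) = w → w * g = w →
        T.τ (((1 / 2 : ℂ) • (w * w + w)) * b) = 0 := fun w hw h1 h2 h3 => by
      rcases hmin _ (SMulMemClass.smul_mem (1 / 2 : ℂ) (add_mem (mul_mem hw hw) hw)) ⟨by simp [h1], by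
        simp only [mul_smul_comm, smul_mul_assoc, mul_add, add_mul, mul_assoc, h2]; module⟩
        (by simp [add_mul, mul_assoc, h3]) with h | h
      · rw [h]; simp
      · rw [h, hgb, h0]
    have h1 := pr v hv e5 e7 e6
    have h2 := pr (-v) (neg_mem hv) (by simp [e5]) (by simp [e7]) (by simp [e6])
    have h3 : T.τ (CFC.abs b) = 0 := by
      simp only [smul_mul_assoc, add_mul, map_smul, map_add, neg_mul, mul_neg, neg_neg, map_neg,
        e2, smul_eq_mul] at h1 h2
      linear_combination h1 - h2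
    obtain ⟨d, hd, e8⟩ := CStarAlgebra.nonneg_iff_exists_isSelfAdjoint_and_eq_mul_self.mp
      (CFC.abs_nonneg b)
    have : d = 0 := hT.faith _ (by
      have := T.n_sq d
      rw [hd.star_eq, ← e8, h3] at this
      simpa using this)
    rw [← e1, e8, this]; simp
  have key2 : ∀ x ∈ P, star x = x → ∃ c : ℂ, g * x * g = c • g := by
    intro x hx hs
    have hτ := τ_proj_ne hT hg' hg0
    refine ⟨T.τ (g * x * g) / T.τ g, sub_eq_zero.mp (key _ (sub_mem (mul_mem (mul_mem hg hx) hg)
      (SMulMemClass.smul_mem _ hg)) ?_ ?_ ?_)⟩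
    · have h1 : star (g * x * g) = g * x * g := by simp [hs, hg'.1, mul_assoc]
      rw [star_sub, star_smul, h1, hg'.1, star_div₀, Complex.star_def, ← T.map_star, ← T.map_star,
        h1, hg'.1]
    · simp [sub_mul, mul_assoc, hg'.2]
    · simp [hτ]
  intro x hx
  obtain ⟨b, c, hb, hc, -, -, e, eb, ec⟩ := decomp x
  obtain ⟨β, h2⟩ := key2 b (eb ▸ SMulMemClass.smul_mem _ (add_mem hx (star_mem hx))) hb
  obtain ⟨γ, h3⟩ := key2 c (ec ▸ SMulMemClass.smul_mem _ (sub_mem hx (star_mem hx))) hc
  refine ⟨β + Complex.I * γ, ?_⟩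
  rw [e, mul_add, add_mul, mul_smul_comm, smul_mul_assoc, h2, h3]; module

theorem exists_sub (hT : T.W) {P : StarSubalgebra ℂ A} (hP : T.Cl P) (irr : Irr P P) (inf : InfD P)
    {g : A} (hg : g ∈ P) (hg' : Proj g) (hg0 : g ≠ 0) :
    ∃ e ∈ P, Proj e ∧ e * g = e ∧ e ≠ 0 ∧ e ≠ g := by
  classical
  by_contra! hmin'
  have hmin : ∀ e ∈ P, Proj e → e * g = e → e = 0 ∨ e = g := fun e h1 h2 h3 =>
    or_iff_not_imp_left.mpr (hmin' e h1 h2 h3)
  have key : ∀ k : ℕ, ∃ v : ℕ → A, (∀ i, v i ∈ P ∧ v i * g = v i) ∧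
      Proj (∑ i ∈ Finset.range k, v i * star (v i)) ∧
      T.τ (∑ i ∈ Finset.range k, v i * star (v i)) = k * T.τ g := by
    intro k
    induction k with
    | zero => exact ⟨fun _ => 0, fun _ => ⟨zero_mem _, zero_mul _⟩, ⟨by simp, by simp⟩, by simp⟩
    | succ k ih =>
      obtain ⟨v, hv, h1, h2⟩ := ih
      set h := ∑ i ∈ Finset.range k, v i * star (v i) with hh
      have hP' : h ∈ P := sum_mem fun i _ => mul_mem (hv i).1 (star_mem (hv i).1)
      have h0 : 1 - h ≠ 0 := fun h0 => inf ((Finset.range k ×ˢ Finset.range k).image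
          fun p => v p.1 * g * star (v p.2)) fun x hx => by
        have : x = h * x * h := by rw [← sub_eq_zero.mp h0]; simp
        rw [this, hh, Finset.sum_mul, Finset.sum_mul]
        refine sum_mem fun i hi => ?_
        rw [Finset.mul_sum]
        refine sum_mem fun j hj => ?_
        obtain ⟨c, hc⟩ := minimal hT hP hg hg' hg0 hmin (star (v i) * x * v j)
          (mul_mem (mul_mem (star_mem (hv i).1) hx) (hv j).1)
        have : v i * star (v i) * x * (v j * star (v j)) =
            v i * (g * (star (v i) * x * v j) * g) * star (v j) := by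
          have e1 : ∀ i y, v i * (g * y) = v i * y := fun i y => by rw [← mul_assoc, (hv i).2]
          simp only [mul_assoc, e1]
        rw [this, hc, mul_smul_comm, smul_mul_assoc]
        exact Submodule.smul_mem _ _ (Submodule.subset_span (by
          simp only [Finset.coe_image]; exact ⟨(i, j), by simpa using ⟨Finset.mem_range.mp hi, Finset.mem_range.mp hj⟩, rfl⟩))
      obtain ⟨w, hw, hw0, e1, e2, e3⟩ := pi_between hT hP irr hg (sub_mem (one_mem _) hP') hg'
        h1.compl hg0 h0
      have e4 : star w * w = g := (hmin _ (mul_mem (star_mem hw) hw) (pi_proj e1)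
        (by rw [mul_assoc, e2])).resolve_left (by simpa using hw0)
      have e5 : h * w = 0 := by rw [← e3, ← mul_assoc, mul_sub, h1.2]; simp
      have e6 : star w * h = 0 := by simpa [h1.1] using congrArg star e5
      have e7 : ∑ i ∈ Finset.range (k + 1), Function.update v k w i * star (Function.update v k w i)
          = h + w * star w := by
        rw [Finset.sum_range_succ, Function.update_self]
        congr 1
        exact Finset.sum_congr rfl fun i hi => by
          rw [Function.update_of_ne (Finset.mem_range.mp hi).ne]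
      refine ⟨Function.update v k w, fun i => ?_, ?_, ?_⟩
      · by_cases hi : i = k
        · rw [hi, Function.update_self]; exact ⟨hw, e2⟩
        · rw [Function.update_of_ne hi]; exact hv i
      · rw [e7]
        refine ⟨by simp [h1.1], ?_⟩
        rw [mul_add, add_mul, add_mul, h1.2, (pi_proj' e1).2, ← mul_assoc h, e5, mul_assoc w, e6]
        simp
      · rw [e7, map_add, h2, T.comm, e4]; push_cast; ring
  have hp : 0 < ‖T.τ g‖ := norm_pos_iff.mpr (τ_proj_ne hT hg' hg0)
  obtain ⟨k, hk⟩ := exists_nat_gt (1 / ‖T.τ g‖)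
  obtain ⟨v, -, h1, h2⟩ := key k
  have := (T.τ_le _).trans h1.norm
  rw [h2, norm_mul, Complex.norm_natCast] at this
  rw [div_lt_iff₀ hp] at hk
  linarith

theorem exists_qb (hT : T.W) {P : StarSubalgebra ℂ A} (hP : T.Cl P) (irr : Irr P P) (inf : InfD P) :
    ∃ X ∈ P, ∃ Z ∈ P, Qb X Z := by
  have hn : ∀ v w : A, v * star v * v = v → w * (star v * v) = v →
      T.n (w - v) ^ 2 = T.n w ^ 2 - T.n v ^ 2 := fun v w h1 h2 => by
    have : T.τ (star v * w) = T.τ (star v * v) := by
      rw [← pi_star h1, mul_assoc, T.comm, mul_assoc, h2, pi_star h1]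
    rw [T.n_sub_rev, n_sub_sq, this, ← n_sq]; ring
  obtain ⟨⟨v, hv, e1, e2⟩, hmax⟩ := greedy (X := {v // v ∈ P ∧ v * star v * v = v ∧ v * v = 0})
    (fun v w => w.1 * (star v.1 * v.1) = v.1 ∧ star w.1 * v.1 = star v.1 * v.1)
    (fun v => ⟨by rw [← mul_assoc, v.2.2.1], rfl⟩) (fun v => T.n v.1 ^ 2) 1
    (fun x y z h1 h2 => ⟨by rw [← h1.2, ← h1.1, ← mul_assoc (star y.1), ← mul_assoc, h2.1], by
      rw [← h1.2, ← h1.1, ← mul_assoc, h2.2, mul_assoc]⟩)
    (fun x => by nlinarith [T.n_nonneg x.1, (T.n_le x.1).trans (pi_norm x.2.2.1)])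
    (fun x y h => by nlinarith [hn _ _ x.2.2.1 h.1, sq_nonneg (T.n (y.1 - x.1))])
    (fun x hx => by
      have h1 : ∀ k, ‖(x k).1‖ ≤ 1 := fun k => pi_norm (x k).2.2.1
      obtain ⟨y, -, hy⟩ := hT.lim_mono (fun k => (x k).1) 1 h1 (fun k => T.n (x k).1 ^ 2) 1
        (fun k => by nlinarith [T.n_nonneg (x k).1, (T.n_le (x k).1).trans (h1 k)])
        fun k l hkl => (hn _ _ (x k).2.2.1 (hx k l hkl).1).le
      refine ⟨⟨y, hP.lim (fun k => (x k).2.1) hy, ?_, ?_⟩, fun k => ⟨?_, ?_⟩⟩
      · exact ((hy.mul hy.star h1).mul hy fun k => norm_mul_one' (h1 k)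
          (by simpa using h1 k)).unique hT hy fun k => (x k).2.2.1
      · exact (hy.mul hy h1).unique hT (To.const 0) fun k => (x k).2.2.2
      · exact ((hy.shift k).mul_const _).unique hT (To.const _) fun l => (hx k _ (by omega)).1
      · exact ((hy.shift k).star.mul_const _).unique hT (To.const _) fun l => (hx k _ (by omega)).2)
    ⟨0, zero_mem _, by simp, by simp⟩
  have e1' := pi_star e1
  have e2' : star v * star v = 0 := by simpa using congrArg star e2
  have a1 : ∀ y, v * (v * y) = 0 := fun y => by rw [← mul_assoc, e2, zero_mul]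
  have a2 : ∀ y, star v * (star v * y) = 0 := fun y => by rw [← mul_assoc, e2', zero_mul]
  have a3 : ∀ y, v * (star v * (v * y)) = v * y := fun y => by rw [← mul_assoc, ← mul_assoc, e1]
  have a4 : ∀ y, star v * (v * (star v * y)) = star v * y := fun y => by
    rw [← mul_assoc, ← mul_assoc, e1']
  have a5 : v * (star v * v) = v := by rw [← mul_assoc, e1]
  have a6 : star v * (v * star v) = star v := by rw [← mul_assoc, e1']
  set g := 1 - star v * v - v * star v with hg
  have hg0 : g = 0 := by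
    by_contra hg0
    have hgP : g ∈ P := sub_mem (sub_mem (one_mem _) (mul_mem (star_mem hv) hv))
      (mul_mem hv (star_mem hv))
    have b1 : v * g = 0 := by simp [hg, mul_sub, a1, a5]
    have b2 : g * v = 0 := by simp [hg, sub_mul, mul_assoc, e2, a5]
    have b3 : star v * g = 0 := by simp [hg, mul_sub, a2, a6]
    have hg' : Proj g := ⟨by simp [hg], by
      nth_rewrite 1 [hg]; simp [sub_mul, mul_assoc, b1, b3]⟩
    have b4 : g * star v = 0 := by simpa [hg'.1] using congrArg star b1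
    obtain ⟨e, he, he', heg, he0, he1⟩ := exists_sub hT hP irr inf hgP hg' hg0
    have hge : g * e = e := by simpa [hg'.1, he'.1] using congrArg star heg
    obtain ⟨w, hw, hw0, f1, f2, f3⟩ := pi_between hT hP irr he (sub_mem hgP he) he'
      ⟨by simp [hg'.1, he'.1], by simp [mul_sub, sub_mul, hg'.2, he'.2, heg, hge]⟩ he0
      (sub_ne_zero.mpr he1.symm)
    have c1 : w * g = w := by rw [← f2, mul_assoc, heg]
    have c2 : g * w = w := by rw [← f3, ← mul_assoc, mul_sub, hg'.2, hge]
    have c3 : w * w = 0 := by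
      nth_rewrite 1 [← f2]; nth_rewrite 2 [← f3]
      rw [mul_assoc, ← mul_assoc e, mul_sub, heg, he'.2]; simp
    have d1 : v * w = 0 := by rw [← c2, ← mul_assoc, b1, zero_mul]
    have d2 : w * v = 0 := by rw [← c1, mul_assoc, b2, mul_zero]
    have d3 : star v * w = 0 := by rw [← c2, ← mul_assoc, b3, zero_mul]
    have d4 : w * star v = 0 := by rw [← c1, mul_assoc, b4, mul_zero]
    have d5 : star w * v = 0 := by simpa using congrArg star d3
    have d6 : v * star w = 0 := by simpa using congrArg star d4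
    have h1 : (v + w) * (star v * v) = v := by rw [add_mul, a5, ← mul_assoc, d4]; simp
    have h2 := hmax ⟨v + w, add_mem hv hw, by
      have : (v + w) * star (v + w) = v * star v + w * star w := by
        simp [mul_add, add_mul, d4, d6]
      rw [this, add_mul, mul_add, mul_add, e1, f1, mul_assoc, mul_assoc, d3, d5]; simp,
      by simp [mul_add, add_mul, e2, d1, d2, c3]⟩ ⟨h1, by simp [add_mul, d5]⟩
    have h3 := hn _ _ e1 h1
    rw [add_sub_cancel_left] at h3
    exact hw0 (hT.faith _ (pow_eq_zero_iff two_ne_zero |>.mp (le_antisymm (by linarith) (sq_nonneg _))))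
  have h1 : star v * v + v * star v = 1 := by rw [hg, sub_sub, sub_eq_zero] at hg0; exact hg0.symm
  refine ⟨v + star v, add_mem hv (star_mem hv), star v * v - v * star v,
    sub_mem (mul_mem (star_mem hv) hv) (mul_mem hv (star_mem hv)), ⟨by simp [add_comm], ?_⟩,
    ⟨by simp, ?_⟩, ?_⟩
  · simp [mul_add, add_mul, e2, e2', ← h1, add_comm]
  · simp [mul_sub, sub_mul, mul_assoc, a1, a2, a5, a6, e2, e2', h1]
  · simp [mul_sub, sub_mul, mul_add, add_mul, mul_assoc, a1, a2, a5, a6, e2, e2']; abel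

end Tr
end Crest.Agent.GP
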