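import Crest.Agent.GP.Qubit
/-! Local quantization with a uniform trace. -/
set_option autoImplicit false
namespace Crest.Agent.GP
open scoped ComplexConjugate InnerProductSpace
open Filter Topology

variable {A : Type*} [CStarAlgebra A]
namespace Tr
variable {T : Tr A} {P Q : StarSubalgebra ℂ A}

theorem Gd.step (G : T.Gd P Q) {I : Type*} (s : Finset I) (Y : I → A) {Y₀ : A} (h₀ : Y₀ ∈ Q)
    {δ : ℝ} (hδ : 0 < δ) : ∃ X ∈ P, ∃ S ∈ P, Qb X S ∧
      T.n (T.c Y₀) ≤ 80 * T.n (S * Y₀ - Y₀ * S) ∧ ∀ i ∈ s, ‖T.τ (S * Y i)‖ ≤ δ := by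
  obtain ⟨X, hX, Z, hZ, h, hg⟩ := G.gap h₀
  obtain ⟨X', Z', h1, h2, -⟩ := (G.cm hX hZ h).tower (fun _ => 0) fun _ => zero_mem _
  have hX' := fun k => h.mem_Cm.mp (h1 k).1
  have hZ' := fun k => h.mem_Cm.mp (h1 k).2.1
  have : ∀ k, ∃ e ∈ P, Sym e ∧ (∀ l, X' l * e = e * X' l) ∧ Z' k * e = e * Z' k ∧
      T.n (T.c Y₀) ≤ 80 * T.n (Z' k * e * Y₀ - Y₀ * (Z' k * e)) := by
    intro k
    have h3 := comm_mul (T := T) (h1 k).2.2.hZ.norm
      ((h1 k).2.2.hZ.mul h.hZ (hZ' k).2.2.symm).norm Y₀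
    rw [(h1 k).2.2.hZ.mul_mul] at h3
    by_cases h4 : T.n (T.c Y₀) ≤ 80 * T.n (Z' k * Y₀ - Y₀ * Z' k)
    · exact ⟨1, one_mem _, ⟨star_one _, one_mul _⟩, by simp, by simp, by simpa using h4⟩
    · exact ⟨Z, hZ, h.hZ, fun l => (hX' l).2.2.symm, (hZ' k).2.2.symm, by linarith⟩
  choose e he he' e1 e2 e3 using this
  have hq := fun k => (h1 k).2.2.mul (he' k) (e1 k k) (e2 k)
  have ho := orthonormal_of (T := T) (fun k => (hq k).hX) (fun k => (hq k).hZ) (fun k => (hq k).anti)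
    fun k l hkl => by rw [← mul_assoc, (h2 k l hkl).2.1, mul_assoc, e1, mul_assoc]
  obtain ⟨k, hk⟩ := ((eventually_all_finset s).mpr fun i _ =>
    ((ho.inner_products_summable (T.ι (Y i))).tendsto_atTop_zero.eventually
      (gt_mem_nhds (pow_pos hδ 2)))).exists
  refine ⟨_, (hX' k).1, _, mul_mem (hZ' k).1 (he k), hq k, e3 k, fun i hi => ?_⟩
  have := hk i hi
  rw [inner_ι, (hq k).hZ.1] at this
  exact (pow_lt_pow_iff_left₀ (norm_nonneg _) hδ.le two_ne_zero).mp this |>.le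

theorem n_half {X S z : A} (h : Qb X S) (h1 : X * z = z * X) :
    T.n ((1 / 2 : ℂ) • (1 + S) * z) = √(1 / 2) * T.n z := by
  have h0 : T.τ (star z * (S * z)) = 0 := τ_anti h.hX (by
    have : X * star z = star z * X := by simpa [h.hX.1] using (congrArg star h1).symm
    rw [← mul_assoc, this, mul_assoc, ← mul_assoc X, h.anti, neg_mul, mul_assoc, h1]
    simp [mul_assoc])
  rw [← sq_eq_sq₀ (T.n_nonneg _) (mul_nonneg (Real.sqrt_nonneg _) (T.n_nonneg _)), mul_pow,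
    Real.sq_sqrt (by norm_num), smul_mul_assoc, n_smul, add_mul, one_mul, mul_pow, n_add_sq, h0,
    T.n_unit_l h.hZ.unit.1]
  simp only [norm_div, norm_one, Complex.norm_ofNat, Complex.zero_re]; ring

theorem lq {I : Type*} (s : Finset I) {N : ℝ} (hN : 1 ≤ N) (hs : (s.card : ℝ) ≤ N) (r : ℕ) :
    ∀ {P Q : StarSubalgebra ℂ A} (_ : T.Gd P Q) (Y : I → A) (_ : ∀ i, Y i ∈ Q) (B δ : ℝ), 0 ≤ B →
      0 < δ → ∑ i ∈ s, T.n (T.c (Y i)) ^ 2 ≤ B ^ 2 → ∃ q ∈ P, Proj q ∧ T.n q = √(1 / 2) ^ r ∧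
        ∀ i ∈ s, T.n (q * T.c (Y i) * q) ≤ √(1 / 2) ^ r * ((1 - 1 / (51200 * N)) ^ r * B + δ) := by
  have hρ : 0 ≤ 1 - 1 / (51200 * N) := by
    rw [sub_nonneg, div_le_one (by positivity)]; linarith
  induction r with
  | zero =>
    intro P Q G Y hY B δ hB hδ h
    refine ⟨1, one_mem _, ⟨star_one _, one_mul _⟩, by simp, fun i hi => ?_⟩
    have := (Finset.single_le_sum (f := fun i => T.n (T.c (Y i)) ^ 2)
      (fun _ _ => sq_nonneg _) hi).trans h
    have := (pow_le_pow_iff_left₀ (T.n_nonneg _) hB two_ne_zero).mp this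
    simp; linarith
  | succ r ih =>
    intro P Q G Y hY B δ hB hδ h
    have hYc : ∀ i, T.c (Y i) ∈ Q := fun i => sub_mem (hY i) (SMulMemClass.smul_mem _ (one_mem _))
    obtain ⟨Y₀, h₀, hmax⟩ : ∃ Y₀, (Y₀ = 0 ∨ ∃ i ∈ s, Y₀ = T.c (Y i)) ∧
        ∀ i ∈ s, T.n (T.c (Y i)) ≤ T.n Y₀ := by
      rcases s.eq_empty_or_nonempty with rfl | hne
      · exact ⟨0, .inl rfl, by simp⟩
      · obtain ⟨i, hi, h⟩ := s.exists_max_image (fun i => T.n (T.c (Y i))) hne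
        exact ⟨_, .inr ⟨i, hi, rfl⟩, h⟩
    have h₀' : Y₀ ∈ Q ∧ T.c Y₀ = Y₀ := by
      rcases h₀ with rfl | ⟨i, -, rfl⟩
      · exact ⟨zero_mem _, by simp [c]⟩
      · exact ⟨hYc i, by rw [c, τ_c]; simp⟩
    obtain ⟨X, hX, S, hS, hq, h1, h2⟩ := G.step s (fun i => T.c (Y i)) h₀'.1 (half_pos hδ)
    rw [h₀'.2] at h1
    -- the two candidates
    let κ : A → I → A := fun S i => EZ X (EZ S (T.c (Y i))) + EZ X (S * EZ S (T.c (Y i)))
    have hκ : ∀ i, T.n (κ S i) ^ 2 + T.n (κ (-S) i) ^ 2 =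
        2 * (T.n (T.c (Y i)) ^ 2 - T.n (S * T.c (Y i) - T.c (Y i) * S) ^ 2 / 4) := by
      intro i
      have e1 : κ (-S) i = EZ X (EZ S (T.c (Y i))) - EZ X (S * EZ S (T.c (Y i))) := by
        simp only [κ, EZ, mul_neg, neg_mul, neg_neg]; module
      rw [e1, n_par, ← n_EZ_sq hq.hZ]
      set m := EZ S (T.c (Y i))
      have hb := EZ_comm hq.hX (S * m)
      have ha : X * star (EZ X m) = star (EZ X m) * X := by
        simpa [hq.hX.1] using (congrArg star (EZ_comm hq.hX m)).symm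
      conv_rhs => rw [EZ_dec hq.symm m, n_add_sq, T.n_unit_l hq.hZ.unit.1, τ_anti hq.hX (by
        rw [← mul_assoc, ha, mul_assoc, ← mul_assoc X, hq.anti, neg_mul, mul_assoc, hb]
        simp [mul_assoc])]
      simp
    have hsum : ∑ i ∈ s, T.n (κ S i) ^ 2 + ∑ i ∈ s, T.n (κ (-S) i) ^ 2 ≤
        2 * ((1 - 1 / (51200 * N)) * B) ^ 2 := by
      rw [← Finset.sum_add_distrib, Finset.sum_congr rfl fun i _ => hκ i, ← Finset.mul_sum,
        Finset.sum_sub_distrib]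
      have a1 : ∑ i ∈ s, T.n (T.c (Y i)) ^ 2 ≤ N * T.n Y₀ ^ 2 :=
        (Finset.sum_le_card_nsmul _ _ _ fun i hi =>
          pow_le_pow_left₀ (T.n_nonneg _) (hmax i hi) 2).trans (by
            rw [nsmul_eq_mul]; exact mul_le_mul_of_nonneg_right hs (sq_nonneg _))
      have a2 : T.n Y₀ ^ 2 / 25600 ≤ ∑ i ∈ s, T.n (S * T.c (Y i) - T.c (Y i) * S) ^ 2 / 4 := by
        rcases h₀ with rfl | ⟨i, hi, rfl⟩
        · simpa using Finset.sum_nonneg fun i _ => by positivity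
        · refine le_trans ?_ (Finset.single_le_sum (f := fun i =>
            T.n (S * T.c (Y i) - T.c (Y i) * S) ^ 2 / 4) (fun _ _ => by positivity) hi)
          have := pow_le_pow_left₀ (T.n_nonneg _) h1 2
          linarith [mul_pow 80 (T.n (S * T.c (Y i) - T.c (Y i) * S)) 2]
      have a3 : 1 / N * ∑ i ∈ s, T.n (T.c (Y i)) ^ 2 ≤ T.n Y₀ ^ 2 := by
        rw [one_div, inv_mul_le_iff₀ (by positivity)]; exact a1
      have a4 : 1 / (51200 * N) = 1 / 51200 * (1 / N) := by field_simp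
      have a5 : 1 / N ≤ 1 := by rw [div_le_one (by positivity)]; exact hN
      rw [a4]
      nlinarith [mul_le_mul_of_nonneg_left h (show 0 ≤ 1 - 1 / 25600 * (1 / N) by linarith),
        sq_nonneg (1 / N * B)]
    obtain ⟨S, hS, hq, h2, h3⟩ : ∃ S ∈ P, Qb X S ∧ (∀ i ∈ s, ‖T.τ (S * T.c (Y i))‖ ≤ δ / 2) ∧
        ∑ i ∈ s, T.n (κ S i) ^ 2 ≤ ((1 - 1 / (51200 * N)) * B) ^ 2 := by
      by_cases h4 : ∑ i ∈ s, T.n (κ S i) ^ 2 ≤ ((1 - 1 / (51200 * N)) * B) ^ 2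
      · exact ⟨S, hS, hq, h2, h4⟩
      · exact ⟨-S, neg_mem hS, hq.neg, by simpa using h2, by linarith⟩
    have hm := fun i => qb_half hq (G.le hX) (G.le hS) (EZ_mem (G.le hS) (hYc i)) (EZ_comm hq.hZ _)
    have hκ : ∀ i, κ S i ∈ Cm Q X S := fun i => add_mem (hm i).1 (hm i).2
    obtain ⟨q, hqP, hq', n1, n2⟩ := ih (G.cm hX hS hq) (κ S) hκ _ (δ / 2) (mul_nonneg hρ hB)
      (half_pos hδ) ((Finset.sum_le_sum fun i _ => pow_le_pow_left₀ (T.n_nonneg _)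
        (T.n_c_le _) 2).trans h3)
    obtain ⟨q1, q2, q3⟩ := hq.mem_Cm.mp hqP
    obtain ⟨e, he⟩ : ∃ e : A, e = (1 / 2 : ℂ) • (1 + S) := ⟨_, rfl⟩
    have e1 : e * S = e := by rw [he, smul_mul_assoc, add_mul, hq.hZ.2, one_mul, add_comm]
    have e1' : S * e = e := by rw [he, mul_smul_comm, mul_add, hq.hZ.2, mul_one, add_comm]
    have e2 : e * e = e := by nth_rewrite 2 [he]; rw [mul_smul_comm, mul_add, e1, mul_one]; module
    have e3 : ∀ z, S * z = z * S → e * z = z * e := fun z hz => by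
      simp only [he, smul_mul_assoc, mul_smul_comm, add_mul, mul_add, hz, one_mul, mul_one]
    refine ⟨e * q, mul_mem (he ▸ SMulMemClass.smul_mem _ (add_mem (one_mem _) hS)) q1,
      ⟨by rw [star_mul, hq'.1, e3 q q3]; simp [he, hq.hZ.1], by
        rw [mul_assoc, ← mul_assoc q, ← e3 q q3, mul_assoc, hq'.2, ← mul_assoc, e2]⟩,
      by rw [he, n_half hq q2, n1, pow_succ'], fun i hi => ?_⟩
    have e4 : e * T.c (Y i) * e = e * κ S i := by
      have : e * T.c (Y i) * e = e * EZ S (T.c (Y i)) * e := by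
        rw [EZ, mul_smul_comm, smul_mul_assoc, mul_add, add_mul, mul_assoc S, ← mul_assoc e S, e1,
          mul_assoc e (_ * S), mul_assoc _ S, e1', ← mul_assoc]; module
      rw [this, mul_assoc, ← e3 _ (EZ_comm hq.hZ _), ← mul_assoc, e2]
      conv_lhs => rw [EZ_dec hq.symm (EZ S _), mul_add, ← mul_assoc, e1, ← mul_add]
    have e5 : e * q * T.c (Y i) * (e * q) = e * (q * T.c (κ S i) * q + T.τ (κ S i) • q) := by
      have : q * T.c (κ S i) * q + T.τ (κ S i) • q = q * κ S i * q := by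
        simp [c, mul_sub, sub_mul, hq'.2]
      have h5 : e * q * T.c (Y i) * (e * q) = q * (e * T.c (Y i) * e) * q := by
        nth_rewrite 1 [e3 q q3]; simp only [mul_assoc]
      rw [this, h5, e4, ← mul_assoc q, ← e3 q q3]
      simp only [mul_assoc]
    obtain ⟨-, k2, -⟩ := hq.mem_Cm.mp (hκ i)
    have k3 : ‖T.τ (κ S i)‖ ≤ δ / 2 := by
      have : T.τ (S * EZ S (T.c (Y i))) = T.τ (S * T.c (Y i)) := by
        rw [← τ_EZ hq.hZ (S * T.c (Y i))]; simp [EZ, mul_add, mul_assoc]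
      simp only [κ, map_add, τ_EZ hq.hX, τ_EZ hq.hZ, τ_c, zero_add, this]; exact h2 i hi
    have k4 : X * T.c (κ S i) = T.c (κ S i) * X := by simp [c, mul_sub, sub_mul, k2]
    rw [e5, he, n_half hq (Commute.add_right (Commute.mul_right (Commute.mul_right q2 k4) q2)
      (Commute.smul_right q2 _)).eq, pow_succ', mul_assoc √(1 / 2)]
    refine mul_le_mul_of_nonneg_left ((T.n_add_le _ _).trans ?_) (Real.sqrt_nonneg _)
    rw [n_smul, n1]
    have := n2 i hi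
    have := mul_le_mul_of_nonneg_right k3 (pow_nonneg (Real.sqrt_nonneg (1 / 2)) r)
    rw [pow_succ]; linarith

/-- local quantization property -/
def LQ (T : Tr A) (P : StarSubalgebra ℂ A) : Prop := ∀ (N : ℕ) (η θ₀ : ℝ), 0 < η → 0 < θ₀ →
  ∃ θ : ℝ, 0 < θ ∧ θ ≤ θ₀ ∧ ∀ s : Finset A, s.card ≤ N → (∀ y ∈ s, ‖y‖ ≤ 1) →
    ∃ q ∈ P, Proj q ∧ T.τ q = θ ∧ (∀ z, ‖T.τ (q * z)‖ ≤ θ * ‖z‖) ∧
      ∀ y ∈ s, ∀ z, ‖T.τ (q * y * q * z) - T.τ y * T.τ (q * z)‖ ≤ η * θ * ‖z‖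

theorem Gd.lq (G : T.Gd P ⊤) : T.LQ P := by
  intro N η θ₀ hη hθ
  have hN : (1 : ℝ) ≤ N + 1 := by linarith [Nat.cast_nonneg (α := ℝ) N]
  have hρ : 0 ≤ 1 - 1 / (51200 * ((N : ℝ) + 1)) := by
    rw [sub_nonneg, div_le_one (by positivity)]; linarith
  obtain ⟨r, r1, r2⟩ := ((((tendsto_pow_atTop_nhds_zero_of_lt_one hρ (sub_lt_self _ (by positivity))
    ).mul_const ((N : ℝ) + 1)).eventually (gt_mem_nhds (show 0 * _ < η / 2 by linarith))).and
    ((tendsto_pow_atTop_nhds_zero_of_lt_one (r := (1 / 2 : ℝ)) (by norm_num)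
      (by norm_num)).eventually (gt_mem_nhds hθ))).exists
  refine ⟨(1 / 2) ^ r, by positivity, r2.le, fun s hs h1 => ?_⟩
  have hs' : (s.card : ℝ) ≤ N + 1 := by have : (s.card : ℝ) ≤ N := by exact_mod_cast hs
                                        linarith
  obtain ⟨q, hq, hq', n1, n2⟩ := Tr.lq s hN hs' r G id (fun _ => trivial) (N + 1) (η / 2)
    (by positivity) (half_pos hη) ((Finset.sum_le_card_nsmul _ _ 1 fun i hi => by
      have := (T.n_c_le i).trans ((T.n_le i).trans (h1 i hi))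
      exact pow_le_one₀ (T.n_nonneg _) this).trans (by simp; nlinarith))
  have hω : (√(1 / 2) ^ r) ^ 2 = (1 / 2 : ℝ) ^ r := by
    rw [← pow_mul, mul_comm, pow_mul, Real.sq_sqrt (by norm_num)]
  set ω := √(1 / 2) ^ r
  have hω0 : 0 ≤ ω := by positivity
  have h2 : ∀ z, T.n (q * z) ≤ ω * ‖z‖ := fun z => T.n_r n1.le le_rfl
  refine ⟨q, hq, hq', by rw [τ_proj hq', n1, hω], fun z => ?_, fun y hy z => ?_⟩
  · have := T.cs q (q * z)
    rw [← mul_assoc, hq'.2, n1] at this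
    rw [← hω]; nlinarith [h2 z]
  · have := T.cs (q * T.c y * q) (q * z)
    have e : T.τ (q * T.c y * q * (q * z)) = T.τ (q * y * q * z) - T.τ y * T.τ (q * z) := by
      rw [mul_assoc _ q, ← mul_assoc q q, hq'.2]
      simp [c, mul_sub, sub_mul, mul_assoc, ← mul_assoc q q, hq'.2]
    rw [e] at this
    refine this.trans ((mul_le_mul ((n2 y hy).trans (mul_le_mul_of_nonneg_left
      (show _ ≤ η by linarith) hω0)) (h2 z) (T.n_nonneg _) (by positivity)).trans_eq ?_)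
    rw [← hω]; ring

end Tr
end Crest.Agent.GP
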