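import Crest.Agent.GP.Tr
/-! Polar decomposition, sign trick and fixed points in tracial W⋆-algebras. -/
set_option autoImplicit false
namespace Crest.Agent.GP
open scoped ComplexConjugate
open Filter Topology

variable {A : Type*} [CStarAlgebra A]

def Sym (s : A) : Prop := star s = s ∧ s * s = 1

theorem Sym.unit {s : A} (h : Sym s) : s ∈ unitary A := by
  rw [Unitary.mem_iff, h.1]; exact ⟨h.2, h.2⟩
theorem Sym.norm {s : A} (h : Sym s) : ‖s‖ ≤ 1 := norm_unit h.unit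
theorem Sym.mul_mul {s : A} (h : Sym s) (x : A) : s * (s * x) = x := by rw [← mul_assoc, h.2, one_mul]

namespace Tr
variable {T : Tr A}

def To (T : Tr A) (x : ℕ → A) (y : A) : Prop := Tendsto (fun k => T.n (x k - y)) atTop (𝓝 0)

theorem To.const (y : A) : T.To (fun _ => y) y := by simp [To]
theorem To.star {x : ℕ → A} {y : A} (h : T.To x y) : T.To (fun k => star (x k)) (star y) := by
  simpa only [To, ← star_sub, n_star] using h
theorem To.shift {x : ℕ → A} {y : A} (h : T.To x y) (l : ℕ) : T.To (fun k => x (k + l)) y :=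
  h.comp (tendsto_add_atTop_nat l)
theorem To.mul {x x' : ℕ → A} {y y' : A} (h : T.To x y) (h' : T.To x' y') {C : ℝ}
    (hC : ∀ k, ‖x k‖ ≤ C) : T.To (fun k => x k * x' k) (y * y') := by
  refine squeeze_zero (fun _ => T.n_nonneg _) (g := fun k => C * T.n (x' k - y') +
    T.n (x k - y) * ‖y'‖) (fun k => ?_) (by simpa using (h'.const_mul C).add (h.mul_const _))
  refine (T.n_tri _ (x k * y') _).trans (add_le_add ?_ ?_)
  · rw [← mul_sub]; exact T.n_l (hC k) le_rfl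
  · rw [← sub_mul]; exact T.n_mul_le' _ _
theorem To.mul_const {x : ℕ → A} {y : A} (h : T.To x y) (b : A) :
    T.To (fun k => x k * b) (y * b) := by
  refine squeeze_zero (fun _ => T.n_nonneg _) (g := fun k => T.n (x k - y) * ‖b‖) (fun k => ?_)
    (by simpa using Tendsto.mul_const ‖b‖ h)
  rw [← sub_mul]; exact T.n_mul_le' _ _
theorem To.const_mul {x : ℕ → A} {y : A} (h : T.To x y) (b : A) :
    T.To (fun k => b * x k) (b * y) := (To.const b).mul h fun _ => le_rfl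
theorem To.unique (hT : T.W) {x x' : ℕ → A} {y y' : A} (h : T.To x y) (h' : T.To x' y')
    (e : ∀ k, x k = x' k) : y = y' := hT.lim_eq h (AddMonoidHom.id A) 1 (by simp) h' e
theorem To.of_norm {x : ℕ → A} {y : A} {f : ℕ → ℝ} (hf : Tendsto f atTop (𝓝 0))
    (h : ∀ k, ‖x k - y‖ ^ 2 ≤ f k) : T.To x y := by
  refine squeeze_zero (fun _ => T.n_nonneg _) (g := fun k => √(f k))
    (fun k => (T.n_le _).trans (Real.le_sqrt_of_sq_le (h k))) (by simpa using hf.sqrt)

theorem W.lim_sq (hT : T.W) (x : ℕ → A) (C : ℝ) (hC : ∀ k, ‖x k‖ ≤ C) {f : ℕ → ℝ}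
    (hf : Tendsto f atTop (𝓝 0)) (h : ∀ k l, k ≤ l → T.n (x l - x k) ^ 2 ≤ f k) :
    ∃ y, ‖y‖ ≤ C ∧ T.To x y :=
  hT.lim x C hC (cauchySeq_of_le_tendsto_0' (fun k => √(f k))
    (fun k l hkl => by rw [dist_ι, n_sub_rev]; exact Real.le_sqrt_of_sq_le (h k l hkl))
    (by simpa using hf.sqrt))

theorem W.lim_mono (hT : T.W) (x : ℕ → A) (C : ℝ) (hC : ∀ k, ‖x k‖ ≤ C) (r : ℕ → ℝ) (B : ℝ)
    (hB : ∀ k, r k ≤ B) (h : ∀ k l, k ≤ l → T.n (x l - x k) ^ 2 ≤ r l - r k) :
    ∃ y, ‖y‖ ≤ C ∧ T.To x y := by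
  have hm : Monotone r := fun k l hkl => by nlinarith [h k l hkl, sq_nonneg (T.n (x l - x k))]
  have hb : BddAbove (Set.range r) := ⟨B, by rintro _ ⟨k, rfl⟩; exact hB k⟩
  refine hT.lim_sq x C hC (f := fun k => (⨆ i, r i) - r k) ?_ fun k l hkl => ?_
  · simpa using (tendsto_atTop_ciSup hm hb).const_sub (⨆ i, r i)
  · linarith [h k l hkl, le_ciSup hb l]

theorem sq_form {a m : A} (hm : IsSelfAdjoint m) (h : star a * a = m * m) {f : ℝ → ℝ}
    (hf : Continuous f) : star (a * cfc f m) * (a * cfc f m) = cfc (fun t => (t * f t) ^ 2) m := by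
  have e : (fun t => (t * f t) ^ 2) = fun t => f t * (id t * id t * f t) := by
    funext t; simp; ring
  rw [e, cfc_mul _ _ m, cfc_mul _ _ m, cfc_mul _ _ m, cfc_id ℝ m, star_mul,
    (cfc_predicate f m).star_eq, mul_assoc, ← mul_assoc (star a), h]

theorem sq_bound {a m : A} (hm : IsSelfAdjoint m) (h : star a * a = m * m) {f : ℝ → ℝ}
    (hf : Continuous f) {C : ℝ} (hC : 0 ≤ C) (hb : ∀ t, (t * f t) ^ 2 ≤ C) :
    ‖a * cfc f m‖ ^ 2 ≤ C := by
  rw [sq, ← CStarRing.norm_star_mul_self, sq_form hm h hf]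
  exact norm_cfc_le hC fun t _ => by rw [Real.norm_of_nonneg (sq_nonneg _)]; exact hb t

theorem exists_K : ∃ (δ : ℕ → ℝ) (g K : ℕ → ℝ → ℝ), Tendsto δ atTop (𝓝 0) ∧ (∀ k, 0 ≤ δ k) ∧
    (∀ k, Continuous (g k)) ∧ (∀ k, Continuous (K k)) ∧ (∀ k, K k = fun t => g k t * t) ∧
    (∀ k t, 0 ≤ t * K k t ∧ t * K k t ≤ 1) ∧ (∀ k l, k ≤ l → ∀ t, t * K k t ≤ t * K l t) ∧
    ∀ k t, (t * (K k t * t - 1)) ^ 2 ≤ δ k := by
  let δ : ℕ → ℝ := fun k => 1 / ((k : ℝ) + 1)
  have hδ : ∀ k, 0 < δ k := fun k => Nat.one_div_pos_of_nat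
  have hpos : ∀ k (t : ℝ), 0 < t ^ 2 + δ k := fun k t => by have := hδ k; positivity
  have hg : ∀ k, Continuous fun t : ℝ => (t ^ 2 + δ k)⁻¹ := fun k =>
    Continuous.inv₀ (by fun_prop) fun t => (hpos k t).ne'
  refine ⟨δ, fun k t => (t ^ 2 + δ k)⁻¹, fun k t => (t ^ 2 + δ k)⁻¹ * t, tendsto_one_div_add_atTop_nhds_zero_nat,
    fun k => (hδ k).le, hg, fun k => (hg k).mul continuous_id, fun _ => rfl, fun k t => ?_,
    fun k l hkl t => ?_, fun k t => ?_⟩
  · have : t * ((t ^ 2 + δ k)⁻¹ * t) = t ^ 2 / (t ^ 2 + δ k) := by field_simp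
    rw [this, div_le_one (hpos k t)]
    exact ⟨div_nonneg (sq_nonneg _) (hpos k t).le, by linarith [hδ k]⟩
  · have h1 : δ l ≤ δ k := Nat.one_div_le_one_div hkl
    have : (t ^ 2 + δ k)⁻¹ ≤ (t ^ 2 + δ l)⁻¹ := inv_anti₀ (hpos l t) (by linarith)
    nlinarith [sq_nonneg t]
  · have : t * ((t ^ 2 + δ k)⁻¹ * t * t - 1) = -(t * δ k / (t ^ 2 + δ k)) := by
      have := (hpos k t).ne'
      field_simp; ring
    rw [this, neg_sq, div_pow, div_le_iff₀ (pow_pos (hpos k t) 2)]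
    have := hδ k
    nlinarith [sq_nonneg t, mul_pos this this, sq_nonneg (t ^ 2), mul_nonneg this.le (sq_nonneg (t ^ 2)),
      mul_nonneg (mul_pos this this).le (sq_nonneg t), mul_pos this (mul_pos this this)]

section Order
variable [PartialOrder A] [StarOrderedRing A]

theorem polar (hT : T.W) {P : StarSubalgebra ℂ A} (hP : T.Cl P) {a : A} (ha : a ∈ P) :
    ∃ v ∈ P, ‖v‖ ≤ 1 ∧ v * CFC.abs a = a ∧ star v * a = CFC.abs a ∧ v * star v * v = v ∧
      (∀ b, a * b = 0 → v * b = 0) ∧ (∀ b, b * a = 0 → b * v = 0) ∧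
      (star a = a → star v = v) := by
  set m := CFC.abs a with hmd
  have hm : IsSelfAdjoint m := .of_nonneg (CFC.abs_nonneg a)
  have hmm : star a * a = m * m := (CFC.abs_mul_abs a).symm
  haveI : IsClosed (P : Set A) := hP.isClosed
  have hmP : m ∈ P := by
    rw [hmd, CFC.abs, CFC.sqrt_eq_real_sqrt _ (star_mul_self_nonneg a), cfcₙ_eq_cfc]
    exact cfc_mem (𝕜' := ℂ) _ (mul_mem (star_mem ha) ha)
  obtain ⟨δ, g, K, hδ0, hδ, hg, hK, hKg, h01, hmono, hest⟩ := exists_K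
  have hKm : ∀ k, cfc (K k) m = cfc (g k) m * m := fun k => by
    rw [hKg, cfc_mul _ _ m (hg k).continuousOn, cfc_id' ℝ m]
  let v : ℕ → A := fun k => a * cfc (K k) m
  have hv1 : ∀ k, ‖v k‖ ≤ 1 := fun k => by
    have := sq_bound hm hmm (hK k) zero_le_one fun t => by nlinarith [h01 k t]
    nlinarith [norm_nonneg (v k)]
  obtain ⟨w, hw1, hw⟩ := hT.lim_mono v 1 hv1 (fun k => (T.τ (cfc (fun t => t * K k t) m)).re) 1
    (fun k => (Complex.re_le_norm _).trans ((T.τ_le _).trans (norm_cfc_le zero_le_one fun t _ => by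
      rw [Real.norm_of_nonneg (h01 k t).1]; exact (h01 k t).2))) fun k l hkl => by
      have hk := hK k; have hl := hK l
      rw [← mul_sub, ← cfc_sub _ _ m, n_sq, sq_form hm hmm (by fun_prop), ← Complex.sub_re,
        ← map_sub, ← cfc_sub _ _ m]
      refine T.re_mono (cfc_mono fun t _ => ?_)
      nlinarith [h01 k t, h01 l t, hmono k l hkl t]
  have hF : ∀ k, ∀ b : A, star b * b = m * m → ‖b * (cfc (K k) m * m) - b‖ ^ 2 ≤ δ k := by
    intro k b hb
    have hk := hK k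
    have := sq_bound hm hb (f := fun t => K k t * t - 1) (by fun_prop) (hδ k) (hest k)
    rwa [cfc_sub _ _ m, cfc_mul _ _ m, cfc_id' ℝ m, cfc_const_one ℝ m, mul_sub, mul_one] at this
  have h1 : w * m = a := (hw.mul_const m).unique hT (To.of_norm hδ0 fun k => hF k a hmm)
    fun k => mul_assoc _ _ _
  have h2 : star w * a = m := by
    refine (hw.star.mul_const a).unique hT (x' := fun k => star (m * (cfc (K k) m * m)))
      (To.of_norm hδ0 fun k => ?_) fun k => ?_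
    · have := hF k m (by rw [hm.star_eq])
      rwa [← norm_star, star_sub, hm.star_eq] at this
    · have hc : Commute m (cfc (K k) m) := (Commute.refl m).cfc_real _ |>.symm
      simp only [v, star_mul, (cfc_predicate (K k) m).star_eq, hm.star_eq, mul_assoc, hmm]
      conv_lhs => rw [← mul_assoc, ← hc.eq, mul_assoc]
  have h3 : ∀ b, a * b = 0 → w * b = 0 := fun b hb => by
    have : m * b = 0 := by
      rw [← CStarRing.star_mul_self_eq_zero_iff, star_mul, hm.star_eq, mul_assoc, ← mul_assoc m,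
        ← hmm, mul_assoc, hb]; simp
    exact (hw.mul_const b).unique hT (To.const 0) fun k => by simp [v, hKm, mul_assoc, this]
  refine ⟨w, hP.lim (fun k => mul_mem ha (cfc_mem (𝕜' := ℂ) _ hmP)) hw, hw1, h1, h2, ?_, h3,
    fun b hb => (hw.const_mul b).unique hT (To.const 0) fun k => by simp [v, ← mul_assoc, hb],
    fun hs => hw.star.unique hT hw fun k => ?_⟩
  · have e1 : star w * w * m = m := by rw [mul_assoc, h1, h2]
    have e2 : m * (star w * w) = m := by simpa [hm.star_eq] using congrArg star e1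
    have := h3 (1 - star w * w) (by rw [← h1, mul_assoc, mul_sub, e2]; simp)
    rw [mul_sub, mul_one, sub_eq_zero] at this
    rw [mul_assoc, ← this]
  · have : IsSelfAdjoint a := hs
    have hc : Commute a (cfc (K k) m) := ((CFC.commute_abs_self a).cfc_real _).symm
    simp only [v, star_mul, (cfc_predicate (K k) m).star_eq, hs, hc.eq]

end Order

theorem sign (hT : T.W) {P : StarSubalgebra ℂ A} (hP : T.Cl P) {a : A} (ha : a ∈ P)
    (hs : star a = a) (h1 : ‖a‖ ≤ 1) : ∃ s ∈ P, Sym s ∧ ‖(2 : ℂ) • a - s‖ ≤ 1 := by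
  letI := CStarAlgebra.spectralOrder A
  haveI := CStarAlgebra.spectralOrderedRing A
  obtain ⟨v, hv, -, e1, e2, e3, -, -, e4⟩ := polar hT hP ha
  set m := CFC.abs a
  have hm : star m = m := (IsSelfAdjoint.of_nonneg (CFC.abs_nonneg a)).star_eq
  have hmm : a * a = m * m := by rw [CFC.abs_mul_abs, hs]
  have e4 := e4 hs
  rw [e4] at e2 e3
  have e5 : (v + 1 - v * v) * a = m := by
    rw [sub_mul, add_mul, mul_assoc, e2, e1]; simp
  have e0 : star (v + 1 - v * v) = v + 1 - v * v := by simp [e4]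
  have e6 : a * (v + 1 - v * v) = m := by simpa only [star_mul, e0, hs, hm] using congrArg star e5
  have e7 : (v + 1 - v * v) * (v + 1 - v * v) = 1 := by
    have : v * (v * v) = v := by rw [← mul_assoc, e3]
    simp only [mul_sub, sub_mul, mul_add, add_mul, mul_one, one_mul, e3, this, mul_assoc]; abel
  refine ⟨v + 1 - v * v, sub_mem (add_mem hv (one_mem _)) (mul_mem hv hv), ⟨e0, e7⟩,
    norm_le_one_of_star_mul ?_⟩
  rw [CStarAlgebra.norm_le_one_iff_of_nonneg _ (star_mul_self_nonneg _)]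
  have : m ^ 2 ≤ m ^ 1 := CStarAlgebra.pow_antitone (CFC.abs_nonneg a)
    ((CStarAlgebra.norm_le_one_iff_of_nonneg _ (CFC.abs_nonneg a)).mp (by rwa [CFC.norm_abs]))
    (by norm_num)
  rw [sq, pow_one, ← sub_nonneg] at this
  rw [← sub_nonneg]
  convert add_nonneg (add_nonneg this this) (add_nonneg this this) using 1
  generalize v + 1 - v * v = s at *
  simp only [star_sub, two_smul, star_add, hs, e0, mul_sub, sub_mul, mul_add, add_mul, e5, e6, e7, hmm]
  abel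

theorem comm_sa (hT : T.W) {P : StarSubalgebra ℂ A} (hP : T.Cl P) {y : A} {σ : ℝ}
    (h : ∀ s ∈ P, Sym s → T.n (s * y - y * s) ≤ σ) :
    ∀ a ∈ P, star a = a → ‖a‖ ≤ 1 → T.n (a * y - y * a) ≤ σ := by
  have key : ∀ k : ℕ, ∀ a ∈ P, star a = a → ‖a‖ ≤ 1 →
      T.n (a * y - y * a) ≤ σ + 2 * T.n y * (1 / 2) ^ k := by
    have hσ : 0 ≤ σ := by simpa using h 1 (one_mem _) ⟨star_one _, one_mul _⟩
    intro k
    induction k with
    | zero =>
      intro a _ _ h1
      have := T.n_comm_le y a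
      rw [T.n_sub_rev] at this
      nlinarith [T.n_nonneg y]
    | succ k ih =>
      intro a ha hs h1
      obtain ⟨s, hsP, hss, h2⟩ := sign hT hP ha hs h1
      have h3 := ih _ (sub_mem (SMulMemClass.smul_mem (2 : ℂ) ha) hsP) (by simp [hs, hss.1]) h2
      have h4 := T.n_add_le (s * y - y * s) (((2 : ℂ) • a - s) * y - y * ((2 : ℂ) • a - s))
      have : s * y - y * s + (((2 : ℂ) • a - s) * y - y * ((2 : ℂ) • a - s)) =
          (2 : ℂ) • (a * y - y * a) := by simp only [two_smul]; noncomm_ring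
      rw [this, n_smul] at h4
      have := h s hsP hss
      simp only [Complex.norm_ofNat] at h4
      rw [pow_succ]; linarith
  intro a ha hs h1
  refine ge_of_tendsto' (x := atTop) ?_ fun k => key k a ha hs h1
  simpa using ((tendsto_pow_atTop_nhds_zero_of_lt_one (r := (1 / 2 : ℝ)) (by norm_num)
    (by norm_num)).const_mul (2 * T.n y)).const_add σ

theorem decomp (a : A) : ∃ b c : A, star b = b ∧ star c = c ∧ ‖b‖ ≤ ‖a‖ ∧ ‖c‖ ≤ ‖a‖ ∧
    a = b + Complex.I • c ∧ b = (1 / 2 : ℂ) • (a + star a) ∧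
    c = (-Complex.I / 2) • (a - star a) := by
  refine ⟨_, _, ?_, ?_, ?_, ?_, ?_, rfl, rfl⟩
  · simp [add_comm]
  · rw [star_smul, star_sub, star_star, ← neg_sub a, smul_neg, ← neg_smul]; congr 1; simp; ring
  · have := norm_add_le a (star a); rw [norm_smul]; simp at *; linarith
  · have := norm_sub_le a (star a); simp [norm_smul] at *; linarith
  · rw [smul_smul, show Complex.I * (-Complex.I / 2) = 1 / 2 by
      rw [mul_div_assoc', mul_neg, Complex.I_mul_I, neg_neg]]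
    module

theorem comm_all (hT : T.W) {P : StarSubalgebra ℂ A} (hP : T.Cl P) {y : A} {σ : ℝ}
    (h : ∀ s ∈ P, Sym s → T.n (s * y - y * s) ≤ σ) :
    ∀ a ∈ P, ‖a‖ ≤ 1 → T.n (a * y - y * a) ≤ 2 * σ := by
  intro a ha h1
  obtain ⟨b, c, hb, hc, hb1, hc1, e, eb, ec⟩ := decomp a
  have h2 := comm_sa hT hP h b (eb ▸ SMulMemClass.smul_mem _ (add_mem ha (star_mem ha))) hb
    (hb1.trans h1)
  have h3 := comm_sa hT hP h c (ec ▸ SMulMemClass.smul_mem _ (sub_mem ha (star_mem ha))) hc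
    (hc1.trans h1)
  have h4 := T.n_add_le (b * y - y * b) (Complex.I • (c * y - y * c))
  rw [n_smul, Complex.norm_I] at h4
  have : a * y - y * a = b * y - y * b + Complex.I • (c * y - y * c) := by
    conv_lhs => rw [e]
    simp only [add_mul, mul_add, smul_mul_assoc, mul_smul_comm, smul_sub]; abel
  rw [this]; linarith

theorem comm_of_sym (hT : T.W) {P : StarSubalgebra ℂ A} (hP : T.Cl P) {y : A}
    (h : ∀ s ∈ P, Sym s → s * y = y * s) : ∀ a ∈ P, a * y = y * a := by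
  intro a ha
  have hp : 0 < ‖a‖ + 1 := by positivity
  have := comm_all hT hP (y := y) (σ := 0) (fun s hs hs' => by simp [h s hs hs']) (((‖a‖ + 1 : ℝ) : ℂ)⁻¹ • a)
    (SMulMemClass.smul_mem _ ha) (by
      rw [norm_smul, norm_inv, Complex.norm_real, Real.norm_of_nonneg hp.le, inv_mul_le_iff₀ hp]
      linarith)
  have h2 := hT.faith _ (le_antisymm (this.trans_eq (mul_zero _)) (T.n_nonneg _))
  rw [smul_mul_assoc, mul_smul_comm, ← smul_sub, smul_eq_zero, sub_eq_zero] at h2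
  exact h2.resolve_left (inv_ne_zero (by exact_mod_cast hp.ne'))

theorem sym_mem (hT : T.W) {N : StarSubalgebra ℂ A} (hN : T.Cl N) {Z b : A} (hZ : Sym Z)
    (hb : star b = b) (hc : Z * b = b * Z) (h1 : ‖b‖ < 1) (h : Z + b ∈ N) : Z ∈ N := by
  letI := CStarAlgebra.spectralOrder A
  haveI := CStarAlgebra.spectralOrderedRing A
  obtain ⟨v, hv, -, e1, -⟩ := polar hT hN h
  have h2 : ‖Z * b‖ < 1 := (norm_mul_le' hZ.norm le_rfl).trans_lt (by simpa using h1)
  have hs : IsSelfAdjoint (Z * b) := by rw [IsSelfAdjoint, star_mul, hb, hZ.1, hc]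
  have e2 : CFC.abs (Z + b) = 1 + Z * b := by
    refine CFC.sqrt_unique ?_ ?_
    · have : Z * b * (Z * b) = b * b := by
        rw [hc, mul_assoc, ← hc, hZ.mul_mul]
      simp only [star_add, hb, hZ.1, mul_add, add_mul, hZ.2, mul_one, one_mul, this, ← hc]
    · have := hs.neg_algebraMap_norm_le_self
      rw [neg_le_iff_add_nonneg'] at this
      refine this.trans (add_le_add_left ?_ _)
      rw [← map_one (algebraMap ℝ A)]
      exact algebraMap_mono A h2.le
  have hu : IsUnit (1 + Z * b) := by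
    simpa using isUnit_one_sub_of_norm_lt_one (x := -(Z * b)) (by rwa [norm_neg])
  have : v = Z := hu.mul_right_cancel (by rw [← e2, e1, e2, mul_add, mul_one, hZ.mul_mul])
  exact this ▸ hv

/-- irreducibility of an inclusion -/
def Irr (P Q : StarSubalgebra ℂ A) : Prop := ∀ y ∈ Q, (∀ z ∈ P, z * y = y * z) → ∃ c : ℂ, y = c • 1

theorem fix (hT : T.W) {P Q : StarSubalgebra ℂ A} (hP : T.Cl P) (irr : Irr P Q) {C : Set A}
    (hQ : ∀ x ∈ C, x ∈ Q) (ne : C.Nonempty) {R : ℝ} (bdd : ∀ x ∈ C, ‖x‖ ≤ R) (cl : T.Cl C)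
    (mid : ∀ x ∈ C, ∀ y ∈ C, (1 / 2 : ℂ) • (x + y) ∈ C)
    (inv : ∀ s ∈ P, Sym s → ∀ x ∈ C, s * x * s ∈ C) : ∃ c : ℂ, c • (1 : A) ∈ C := by
  have hb : BddBelow (T.n '' C) := ⟨0, by rintro _ ⟨x, -, rfl⟩; exact T.n_nonneg x⟩
  obtain ⟨u, hu, hu', hu''⟩ := exists_seq_tendsto_sInf (ne.image T.n) hb
  choose x hx hxu using hu''
  set d := sInf (T.n '' C)
  have hd : ∀ y ∈ C, d ≤ T.n y := fun y hy => csInf_le hb ⟨y, hy, rfl⟩
  have hd0 : 0 ≤ d := le_csInf (ne.image _) (by rintro _ ⟨x, -, rfl⟩; exact T.n_nonneg x)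
  have par : ∀ y ∈ C, ∀ z ∈ C, T.n (y - z) ^ 2 ≤ 2 * (T.n y ^ 2 + T.n z ^ 2) - 4 * d ^ 2 := by
    intro y hy z hz
    have h1 := hd _ (mid y hy z hz)
    rw [n_smul] at h1
    simp only [norm_div, norm_one, Complex.norm_ofNat] at h1
    nlinarith [T.n_par y z]
  obtain ⟨y, -, hy⟩ := hT.lim_sq x R (fun k => bdd _ (hx k)) (f := fun k => 4 * u k ^ 2 - 4 * d ^ 2)
    (by convert ((hu'.pow 2).const_mul 4).sub_const (4 * d ^ 2) using 2; exact (sub_self _).symm) fun k l hkl => by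
      have := par _ (hx l) _ (hx k)
      rw [hxu, hxu] at this
      have h2 := hu hkl
      have h3 : 0 ≤ u l := hxu l ▸ T.n_nonneg _
      nlinarith
  have hyC : y ∈ C := cl.lim hx hy
  have hyd : T.n y ≤ d := by
    refine ge_of_tendsto' (by simpa using hu'.add hy) fun k => ?_
    have := T.n_sub_le (x k) (x k - y)
    rwa [sub_sub_cancel, hxu] at this
  obtain ⟨c, hc⟩ := irr y (hQ y hyC) (comm_of_sym hT hP fun s hs hs' => by
    have h1 := par _ (inv s hs hs' y hyC) y hyC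
    rw [T.n_unit_r hs'.unit.2, T.n_unit_l hs'.unit.1] at h1
    have h2 := hT.faith (s * y * s - y) (by
      have := T.n_nonneg y
      nlinarith [T.n_nonneg (s * y * s - y)])
    rw [sub_eq_zero] at h2
    conv_rhs => rw [← h2, mul_assoc, hs'.2, mul_one])
  exact ⟨c, hc ▸ hyC⟩

theorem cl_τ (z : ℂ) : T.Cl {x | T.τ x = z} := fun x hx => by
  refine eq_of_forall_dist_le fun ε hε => ?_
  obtain ⟨y, hy, h⟩ := hx ε hε
  rw [← show T.τ y = z from hy, dist_comm, dist_eq_norm, ← map_sub]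
  exact (T.τ_le_n _).trans h.le

theorem Cl.inter {S S' : Set A} (h : T.Cl S) (h' : T.Cl S') : T.Cl (S ∩ S') := fun x hx =>
  ⟨h x fun ε hε => (hx ε hε).imp fun _ hy => ⟨hy.1.1, hy.2⟩,
    h' x fun ε hε => (hx ε hε).imp fun _ hy => ⟨hy.1.2, hy.2⟩⟩

theorem cl_conj {I : Type*} (a b c : I → A) (r : ℝ) :
    T.Cl {x | ∀ i, T.n (a i * x * b i - c i) ≤ r} := fun x hx i => by
  refine le_of_forall_pos_le_add fun ε hε => ?_
  have hp : 0 < ‖a i‖ * ‖b i‖ + 1 := by positivity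
  obtain ⟨y, hy, h⟩ := hx _ (div_pos hε hp)
  refine (T.n_tri _ (a i * y * b i) _).trans ?_
  rw [add_comm, ← sub_mul, ← mul_sub]
  refine add_le_add (hy i) ((T.n_r (T.n_l le_rfl (le_refl (T.n (x - y)))) le_rfl).trans ?_)
  rw [lt_div_iff₀ hp, T.n_sub_rev] at h
  nlinarith [T.n_nonneg (x - y)]

theorem fix' (hT : T.W) {P Q : StarSubalgebra ℂ A} (hP : T.Cl P) (hQ : T.Cl Q) (hPQ : P ≤ Q)
    (irr : Irr P Q) {Y : A} (hY : Y ∈ Q) {I : Type*} (a b c : I → A) (r : ℝ)
    (h : ∀ i, T.n (a i * Y * b i - c i) ≤ r)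
    (inv : ∀ s ∈ P, Sym s → ∀ i, ∃ j, a j = a i * s ∧ b j = s * b i ∧ c j = c i) (i : I) :
    T.n (T.τ Y • (a i * b i) - c i) ≤ r := by
  obtain ⟨z, ⟨⟨-, -⟩, h1⟩, h2⟩ := fix hT hP irr (C := (((Q : Set A) ∩ {x | ‖x‖ ≤ ‖Y‖}) ∩
    {x | T.τ x = T.τ Y}) ∩ {x | ∀ i, T.n (a i * x * b i - c i) ≤ r}) (fun x hx => hx.1.1.1)
    ⟨Y, ⟨⟨hY, le_refl ‖Y‖⟩, rfl⟩, h⟩ (R := ‖Y‖) (fun x hx => hx.1.1.2)
    (((hQ.inter (hT.cl_ball _)).inter (cl_τ _)).inter (cl_conj a b c r)) (by
      rintro x ⟨⟨⟨x1, x2⟩, x3⟩, x4⟩ y ⟨⟨⟨y1, y2⟩, y3⟩, y4⟩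
      refine ⟨⟨⟨SMulMemClass.smul_mem _ (add_mem x1 y1), ?_⟩, ?_⟩, fun i => ?_⟩
      · have := norm_add_le x y
        simp only [Set.mem_setOf_eq, norm_smul, norm_div, norm_one, Complex.norm_ofNat] at *
        linarith
      · simp only [Set.mem_setOf_eq, map_smul, map_add, smul_eq_mul] at *; rw [x3, y3]; ring
      · have : a i * ((1 / 2 : ℂ) • (x + y)) * b i - c i =
            (1 / 2 : ℂ) • ((a i * x * b i - c i) + (a i * y * b i - c i)) := by
          simp only [mul_smul_comm, smul_mul_assoc, mul_add, add_mul]; module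
        rw [this, n_smul]
        have := T.n_add_le (a i * x * b i - c i) (a i * y * b i - c i)
        have := x4 i; have := y4 i
        simp only [norm_div, norm_one, Complex.norm_ofNat]; linarith) (by
      rintro s hs hs' x ⟨⟨⟨x1, x2⟩, x3⟩, x4⟩
      refine ⟨⟨⟨mul_mem (mul_mem (hPQ hs) x1) (hPQ hs), ?_⟩, (T.τ_conj hs'.2 x).trans x3⟩, fun i => ?_⟩
      · simpa using norm_mul_le' (norm_mul_le' hs'.norm x2) hs'.norm
      · obtain ⟨j, e1, e2, e3⟩ := inv s hs hs' i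
        have := x4 j
        rw [e1, e2, e3] at this
        simpa only [mul_assoc] using this)
  have : z = T.τ Y := by simpa [T.one] using h1
  simpa [this] using h2 i

theorem gap0 (hT : T.W) {P Q : StarSubalgebra ℂ A} (hP : T.Cl P) (hQ : T.Cl Q) (hPQ : P ≤ Q)
    (irr : Irr P Q) {Y : A} (hY : Y ∈ Q) {r : ℝ}
    (h : ∀ u ∈ P, u ∈ unitary A → T.n (u * Y - Y * u) ≤ r) : T.n (T.c Y) ≤ r := by
  have := fix' hT hP hQ hPQ irr hY (I := {u // u ∈ P ∧ u ∈ unitary A}) (fun u => u.1)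
    (fun u => star u.1) (fun _ => Y) r (fun u => by
      have := h u.1 u.2.1 u.2.2
      rw [← T.n_unit_r (u := star u.1) (by simpa using u.2.2.1), sub_mul, mul_assoc Y, u.2.2.2,
        mul_one] at this
      exact this)
    (fun s hs hs' u => ⟨⟨u.1 * s, mul_mem u.2.1 hs, mul_mem u.2.2 hs'.unit⟩, rfl,
      by simp [hs'.1], rfl⟩) ⟨1, one_mem _, one_mem _⟩
  rw [T.n_sub_rev] at this
  simpa [c] using this

theorem nondeg (hT : T.W) {P : StarSubalgebra ℂ A} (hP : T.Cl P) (irr : Irr P P) {q e : A}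
    (he : e ∈ P) (he' : T.τ e ≠ 0) (hq : q ≠ 0) : ∃ x ∈ P, q * x * e ≠ 0 := by
  by_contra! h
  have := fix' hT hP hP le_rfl irr he (I := {x : A × A // x.1 ∈ P}) (fun x => q * x.1.1)
    (fun x => x.1.2) (fun _ => 0) 0 (fun x => by simp [h _ x.2])
    (fun s hs _ x => ⟨⟨(x.1.1 * s, s * x.1.2), mul_mem x.2 hs⟩, by simp [mul_assoc], rfl, rfl⟩)
    ⟨(1, 1), one_mem _⟩
  have := hT.faith _ (le_antisymm this (T.n_nonneg _))
  simp [he', hq] at this

end Tr
end Crest.Agent.GP
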