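import Crest.Agent.GP.LQ
/-! Asymptotically free Haar unitaries in an irreducible subalgebra. -/
set_option autoImplicit false
namespace Crest.Agent.GP
open scoped ComplexConjugate Pointwise
open Filter Topology

variable {A : Type*} [CStarAlgebra A]

def pw (v : A) (b : Bool) : A := if b then v else star v
def Lf (v : A) (b : Bool) : A := if b then v else 1
def Rt (v : A) (b : Bool) : A := if b then 1 else star v
def wd (v : A) (l : List (Bool × A)) : A := (l.map fun p => pw v p.1 * p.2).prod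

@[simp] theorem wd_nil (v : A) : wd v [] = 1 := rfl
@[simp] theorem wd_cons (v : A) (p : Bool × A) (l : List (Bool × A)) :
    wd v (p :: l) = pw v p.1 * p.2 * wd v l := rfl
theorem wd_append (v : A) (l l' : List (Bool × A)) : wd v (l ++ l') = wd v l * wd v l' := by
  simp [wd]
theorem pw_eq (v : A) (b : Bool) : pw v b = Lf v b * Rt v b := by cases b <;> simp [pw, Lf, Rt]
theorem pw_kick (v : A) {q : A} (hq : star q = q) (b : Bool) :
    pw (v * (1 - (2 : ℂ) • q)) b = pw v b - (2 : ℂ) • (Lf v b * q * Rt v b) := by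
  cases b <;> simp [pw, Lf, Rt, mul_sub, sub_mul, hq]
theorem pw_unit {v : A} (hv : v ∈ unitary A) (b : Bool) : pw v b ∈ unitary A := by
  cases b
  · exact Unitary.star_mem hv
  · exact hv
theorem norm_wd {v : A} (hv : v ∈ unitary A) {l : List (Bool × A)} (hl : ∀ p ∈ l, ‖p.2‖ ≤ 1) :
    ‖wd v l‖ ≤ 1 := by
  induction l with
  | nil => exact norm_one_le
  | cons p l ih =>
    exact norm_mul_one' (norm_mul_one' (norm_unit (pw_unit hv _)) (hl p (by simp)))
      (ih fun p hp => hl p (by simp [hp]))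

theorem Proj.sym {q : A} (hq : Proj q) : Sym (1 - (2 : ℂ) • q) :=
  ⟨by simp [hq.1], by simp only [mul_sub, sub_mul, two_smul, mul_add, add_mul, hq.2, mul_one, one_mul]; abel⟩

abbrev UP (P : StarSubalgebra ℂ A) := {v : A // v ∈ P ∧ v ∈ unitary A}

namespace Tr
variable (T : Tr A)

def Ch (l : List (Bool × A)) : Prop := l.IsChain fun p q => p.1 ≠ q.1 → T.τ p.2 = 0

def Bd (F : Finset A) (v : A) (n : ℕ) (f : ℕ → ℝ) : Prop :=
  ∀ x ∈ F, ∀ l, l ≠ [] → l.length ≤ n → (∀ p ∈ l, p.2 ∈ F) → T.Ch l → ‖T.τ (x * wd v l)‖ ≤ f l.length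

variable {T}

theorem seg {F : Finset A} (h1 : 1 ∈ F) {v : A} (hv : v ∈ unitary A) {n : ℕ} {μ : ℝ} (hμ : 0 ≤ μ)
    (H : T.Bd F v n fun _ => μ) {p p' : Bool × A} {m l : List (Bool × A)}
    (hc : T.Ch (p :: (m ++ p' :: l))) (hF : ∀ x ∈ p :: m, x.2 ∈ F) (hn : m.length + 1 ≤ n) :
    ‖T.τ (Rt v p.1 * p.2 * wd v m * Lf v p'.1)‖ ≤ μ := by
  rw [T.comm, ← mul_assoc, ← mul_assoc]
  have hc' : T.Ch (p :: m) := List.IsChain.left_of_append (l₁ := p :: m) hc
  by_cases h : p'.1 = p.1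
  · rw [h, ← pw_eq]
    simpa using H 1 h1 (p :: m) (by simp) hn hF hc'
  · have : Lf v p'.1 * Rt v p.1 = 1 := by
      revert h; cases p'.1 <;> cases p.1 <;> simp [Lf, Rt, hv.2]
    rw [this, one_mul]
    rcases eq_or_ne m [] with rfl | hm
    · simpa [(List.isChain_cons_cons.mp hc).1 (Ne.symm h)] using hμ
    · exact H _ (hF p (by simp)) m hm (by omega) (fun x hx => hF x (by simp [hx])) hc'.tail

section Kick
open Classical
variable {F G : Finset A} {v q : A} {n : ℕ} {μ η θ : ℝ} (h1 : 1 ∈ F) (hv : v ∈ unitary A)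
  (hFG : F ⊆ G) (hvG : v ∈ G) (hvG' : star v ∈ G) (hG : ∀ y ∈ G, ‖y‖ ≤ 1) (hq : Proj q)
include h1 hFG hvG hvG'

theorem Lf_mem (b : Bool) : Lf v b ∈ G ^ 1 := by cases b <;> simp [Lf, hvG, hFG h1]
theorem Rt_mem (b : Bool) : Rt v b ∈ G ^ 1 := by cases b <;> simp [Rt, hvG', hFG h1]
omit h1 hFG hvG hvG' in
theorem pow_mul_mem {i j : ℕ} {a b : A} (ha : a ∈ G ^ i) (hb : b ∈ G ^ j) : a * b ∈ G ^ (i + j) := by
  rw [pow_add]; exact Finset.mul_mem_mul ha hb
theorem wd_mem {l : List (Bool × A)} (hl : ∀ p ∈ l, p.2 ∈ F) : wd v l ∈ G ^ (3 * l.length) := by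
  induction l with
  | nil => simp
  | cons p l ih =>
    have := pow_mul_mem (pow_mul_mem (pow_mul_mem (Lf_mem h1 hFG hvG hvG' p.1)
      (Rt_mem h1 hFG hvG hvG' p.1)) (show p.2 ∈ G ^ 1 by simpa using hFG (hl p (by simp))))
      (ih fun p hp => hl p (by simp [hp]))
    rw [wd_cons, pw_eq, List.length_cons]
    convert this using 2; ring
omit h1 hFG hvG hvG' in
include hG in
theorem norm_pow_mem {i : ℕ} {a : A} (ha : a ∈ G ^ i) : ‖a‖ ≤ 1 := by
  induction i generalizing a with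
  | zero => rw [pow_zero, Finset.mem_one] at ha; exact ha ▸ norm_one_le
  | succ i ih =>
    rw [pow_succ] at ha
    obtain ⟨b, hb, c, hc, rfl⟩ := Finset.mem_mul.mp ha
    exact norm_mul_one' (ih hb) (hG c hc)

variable (hμ : 0 ≤ μ) (hη : 0 ≤ η) (hθ : 0 ≤ θ) (H : T.Bd F v n fun _ => μ) (hτ : T.τ q = θ)
  (hz : ∀ z, ‖T.τ (q * z)‖ ≤ θ * ‖z‖) {M : ℕ}
  (hQ : ∀ j ≤ M, ∀ y ∈ G ^ j, ∀ z, ‖T.τ (q * y * q * z) - T.τ y * T.τ (q * z)‖ ≤ η * θ * ‖z‖)
include hv hG hq hμ hη hθ H hz hQ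

theorem kickA (p : Bool × A) (z : A) (hz1 : ‖z‖ ≤ 1) (l : List (Bool × A)) : ∀ m : List (Bool × A),
    T.Ch (p :: (m ++ l)) → (∀ x ∈ p :: (m ++ l), x.2 ∈ F) → m.length + l.length ≤ n →
    3 * (m.length + l.length) + 3 ≤ M →
    ‖T.τ (q * (Rt v p.1 * p.2 * wd v m) * wd (v * (1 - (2 : ℂ) • q)) l * z) -
      T.τ (q * (Rt v p.1 * p.2 * wd v m) * wd v l * z)‖ ≤ l.length * (2 * θ * (μ + η)) := by
  induction l with
  | nil => simp
  | cons p' l ih =>
    intro m hc hF hn hM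
    simp only [List.length_cons] at hn hM
    have h2 := ih (m ++ [p']) (by simpa using hc) (by simpa using hF) (by simp; omega)
      (by simp; omega)
    have hF' : ∀ x ∈ p :: m, x.2 ∈ F := fun x hx => hF x (by
      rw [← List.cons_append]; exact List.mem_append_left _ hx)
    have h3 := seg h1 hv hμ H hc hF' (by omega)
    have h4 := hQ _ (by omega) _ (pow_mul_mem (pow_mul_mem (pow_mul_mem (Rt_mem h1 hFG hvG hvG' p.1)
      (show p.2 ∈ G ^ 1 by simpa using hFG (hF p (by simp))))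
      (wd_mem h1 hFG hvG hvG' (l := m) fun x hx => hF' x (by simp [hx]))) (Lf_mem h1 hFG hvG hvG' p'.1))
      (Rt v p'.1 * p'.2 * wd (v * (1 - (2 : ℂ) • q)) l * z)
    have h5 : ‖Rt v p'.1 * p'.2 * wd (v * (1 - (2 : ℂ) • q)) l * z‖ ≤ 1 :=
      norm_mul_one' (norm_mul_one' (norm_mul_one' (norm_pow_mem hG (Rt_mem h1 hFG hvG hvG' _))
        (hG _ (hFG (hF p' (by simp))))) (norm_wd (mul_mem hv hq.sym.unit)
          fun x hx => hG _ (hFG (hF x (by simp [hx]))))) hz1
    set z' := Rt v p'.1 * p'.2 * wd (v * (1 - (2 : ℂ) • q)) l * z with hz'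
    set y := Rt v p.1 * p.2 * wd v m with hy
    have h6 : ‖T.τ (q * (y * Lf v p'.1) * q * z')‖ ≤ θ * (μ + η) := by
      have h7 := norm_add_le (T.τ (q * (y * Lf v p'.1) * q * z') - T.τ (y * Lf v p'.1) * T.τ (q * z'))
        (T.τ (y * Lf v p'.1) * T.τ (q * z'))
      rw [sub_add_cancel, norm_mul] at h7
      have h8 := mul_le_mul h3 ((hz z').trans (mul_le_of_le_one_right hθ h5)) (norm_nonneg _) hμ
      have h9 := mul_le_of_le_one_right (mul_nonneg hη hθ) h5
      linarith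
    have e : T.τ (q * y * wd (v * (1 - (2 : ℂ) • q)) (p' :: l) * z) - T.τ (q * y * wd v (p' :: l) * z)
        = (T.τ (q * (Rt v p.1 * p.2 * wd v (m ++ [p'])) * wd (v * (1 - (2 : ℂ) • q)) l * z) -
          T.τ (q * (Rt v p.1 * p.2 * wd v (m ++ [p'])) * wd v l * z)) -
          2 * T.τ (q * (y * Lf v p'.1) * q * z') := by
      rw [wd_cons, pw_kick v hq.1, hz', hy]
      generalize v * (1 - (2 : ℂ) • q) = v'
      simp only [wd_cons, wd_append, wd_nil, mul_assoc, mul_sub, sub_mul,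
        mul_one, smul_mul_assoc, mul_smul_comm, map_sub, map_smul, smul_eq_mul]
      ring
    rw [e]
    refine (norm_sub_le _ _).trans ?_
    rw [norm_mul, Complex.norm_ofNat, List.length_cons]; push_cast; linarith

include hτ in
theorem kickB (l : List (Bool × A)) : ∀ (j : ℕ) (c : A), c ∈ G ^ j → T.Ch l → (∀ x ∈ l, x.2 ∈ F) →
    l.length ≤ n + 1 → 3 * l.length + j ≤ M →
    ‖T.τ (c * wd (v * (1 - (2 : ℂ) • q)) l) - (1 - 2 * l.length * θ) * T.τ (c * wd v l)‖ ≤
      l.length * (2 * η * θ + 4 * n * θ * (μ + η)) := by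
  induction l with
  | nil => simp
  | cons p l ih =>
    intro j c hc hl hF hn hM
    simp only [List.length_cons] at hn hM
    have hp : p.2 ∈ G ^ 1 := by simpa using hFG (hF p (by simp))
    have hL := Lf_mem h1 hFG hvG hvG' p.1
    have hR := Rt_mem h1 hFG hvG hvG' p.1
    have h2 := ih _ _ (pow_mul_mem hc (pow_mul_mem (pow_mul_mem hL hR) hp)) hl.tail
      (fun x hx => hF x (by simp [hx])) (by omega) (by omega)
    have h3 := kickA h1 hv hFG hvG hvG' hG hq hμ hη hθ H hz hQ p _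
      (norm_pow_mem hG (pow_mul_mem hc hL)) l [] hl hF (by simp; omega) (by simp; omega)
    have h4 := hQ _ (by omega) _ (pow_mul_mem (pow_mul_mem (pow_mul_mem hR hp)
      (wd_mem h1 hFG hvG hvG' fun x hx => hF x (List.mem_cons_of_mem _ hx))) (pow_mul_mem hc hL)) 1
    have h5 := mul_le_of_le_one_right (mul_nonneg hη hθ) (norm_one_le (A := A))
    rw [mul_one, mul_one, hτ, T.comm, ← mul_assoc, hq.2, T.comm (_ * _ * _) (c * _)] at h4
    have e : T.τ (c * wd (v * (1 - (2 : ℂ) • q)) (p :: l)) -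
        (1 - 2 * ((l.length + 1 : ℕ) : ℂ) * θ) * T.τ (c * wd v (p :: l)) =
        (T.τ (c * (Lf v p.1 * Rt v p.1 * p.2) * wd (v * (1 - (2 : ℂ) • q)) l) -
          (1 - 2 * l.length * θ) * T.τ (c * (Lf v p.1 * Rt v p.1 * p.2) * wd v l)) -
        2 * (T.τ (q * (Rt v p.1 * p.2 * wd v []) * wd (v * (1 - (2 : ℂ) • q)) l * (c * Lf v p.1)) -
          T.τ (q * (Rt v p.1 * p.2 * wd v []) * wd v l * (c * Lf v p.1))) -
        2 * (T.τ (q * (Rt v p.1 * p.2 * wd v l * (c * Lf v p.1))) -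
          T.τ (c * Lf v p.1 * (Rt v p.1 * p.2 * wd v l)) * θ) := by
      rw [T.comm (_ * wd (v * _) l) (c * Lf v p.1), wd_cons, pw_kick v hq.1]
      generalize v * (1 - (2 : ℂ) • q) = v'
      simp only [wd_cons, pw_eq v, wd_nil, mul_assoc, mul_sub, sub_mul,
        mul_one, smul_mul_assoc, mul_smul_comm, map_sub, map_smul, smul_eq_mul]
      push_cast; ring
    rw [List.length_cons, e]
    refine (norm_sub_le _ _).trans ((add_le_add_left (norm_sub_le _ _) _).trans ?_)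
    rw [norm_mul, norm_mul, Complex.norm_ofNat]
    have h6 : (l.length : ℝ) * (2 * θ * (μ + η)) ≤ n * (2 * θ * (μ + η)) :=
      mul_le_mul_of_nonneg_right (by exact_mod_cast (by omega)) (by positivity)
    push_cast; linarith

end Kick

theorem popa {P : StarSubalgebra ℂ A} (hP : T.LQ P) (F : Finset A) (h1 : 1 ∈ F)
    (hF : ∀ y ∈ F, ‖y‖ ≤ 1) (n : ℕ) {ε : ℝ} (hε : 0 < ε) :
    ∃ v ∈ P, v ∈ unitary A ∧ T.Bd F v n fun _ => ε := by
  classical
  set B : ℝ := 4 * (n + 1) ^ 2 with hB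
  have hB1 : 1 ≤ B := by nlinarith [Nat.cast_nonneg (α := ℝ) n]
  set η := ε / (4 * B * B ^ n) with hη
  have hη0 : 0 < η := by positivity
  obtain ⟨θ, θ0, θ1, hθ⟩ := hP ((F.card + 2) ^ (3 * n + 1)) η (1 / (2 * n + 2)) hη0 (by positivity)
  rw [le_div_iff₀ (by positivity)] at θ1
  have key : ∀ K : ℕ, ∃ v ∈ P, v ∈ unitary A ∧
      T.Bd F v n fun j => ((1 - θ) ^ K + 2 * B * η) * B ^ j := by
    have θ2 : 0 ≤ 1 - θ := by nlinarith [Nat.cast_nonneg (α := ℝ) n]
    intro K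
    induction K with
    | zero =>
      refine ⟨1, one_mem _, one_mem _, fun x hx l _ _ hl _ => (T.τ_le _).trans ?_⟩
      refine (norm_mul_one' (hF x hx) (norm_wd (one_mem _) fun p hp => hF _ (hl p hp))).trans ?_
      exact one_le_mul_of_one_le_of_one_le (by simp; positivity) (one_le_pow₀ hB1)
    | succ K ih =>
      obtain ⟨v, hvP, hv, H⟩ := ih
      set Φ := (1 - θ) ^ K + 2 * B * η with hΦ
      have hΦ0 : 0 ≤ Φ := by positivity
      let G := insert v (insert (star v) F)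
      have hFG : F ⊆ G := fun x hx => by simp [G, hx]
      have hG : ∀ y ∈ G, ‖y‖ ≤ 1 := by
        simp only [G, Finset.forall_mem_insert]
        exact ⟨norm_unit hv, by simpa using norm_unit hv, hF⟩
      obtain ⟨q, hqP, hq, hτ, hz, hQ⟩ := hθ (G ^ (3 * n + 1)) (Finset.card_pow_le.trans
        (Nat.pow_le_pow_left ((Finset.card_insert_le _ _).trans
          (Nat.succ_le_succ (Finset.card_insert_le _ _))) _)) fun y hy => norm_pow_mem hG hy
      refine ⟨v * (1 - (2 : ℂ) • q), mul_mem hvP (sub_mem (one_mem _) (SMulMemClass.smul_mem _ hqP)),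
        mul_mem hv hq.sym.unit, fun x hx l l0 l1 l2 l3 => ?_⟩
      obtain ⟨k, hk⟩ : ∃ k, l.length = k + 1 := ⟨l.length - 1, by
        have := List.length_pos_iff.mpr l0; omega⟩
      have h2 := kickB (n := k) (μ := Φ * B ^ k) h1 hv hFG (by simp [G]) (by simp [G]) hG hq
        (by positivity) hη0.le θ0.le (fun x hx l l0 l1 l2 l3 => (H x hx l l0 (by omega) l2 l3).trans
          (mul_le_mul_of_nonneg_left (pow_le_pow_right₀ hB1 l1) hΦ0)) hτ hz (M := 3 * n + 1)
        (fun j hj y hy => hQ y (Finset.pow_subset_pow_right (hFG h1) hj hy)) l 1 x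
        (by simpa using hFG hx) l3 l2 hk.le (by omega)
      have h3 := H x hx l l0 l1 l2 l3
      have hkn : (k : ℝ) + 1 ≤ n := by exact_mod_cast hk ▸ l1
      have hk0 := Nat.cast_nonneg (α := ℝ) k
      have h4 : ‖(1 - 2 * (l.length : ℂ) * θ)‖ ≤ 1 - 2 * θ := by
        have : (1 - 2 * (l.length : ℂ) * θ) = ((1 - 2 * (k + 1) * θ : ℝ) : ℂ) := by
          rw [hk]; push_cast; ring
        rw [this, Complex.norm_real, Real.norm_of_nonneg (by nlinarith)]; nlinarith
      have h5 := norm_add_le (T.τ (x * wd (v * (1 - (2 : ℂ) • q)) l) -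
        (1 - 2 * l.length * θ) * T.τ (x * wd v l)) ((1 - 2 * l.length * θ) * T.τ (x * wd v l))
      rw [sub_add_cancel, norm_mul] at h5
      have h6 := mul_le_mul h4 h3 (norm_nonneg _) ((norm_nonneg _).trans h4)
      simp only [hk] at h2 h6 h5 ⊢
      push_cast at h2 h5 h6
      have h7 : ((k : ℝ) + 1) * (4 * k) ≤ B := by nlinarith
      have h8 : ((k : ℝ) + 1) * 2 ≤ B := by nlinarith
      have h9 : 1 ≤ B ^ (k + 1) := one_le_pow₀ hB1
      have a1 := mul_le_mul_of_nonneg_right h7 (show 0 ≤ θ * (Φ * B ^ k) by positivity)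
      have a2 := mul_le_mul_of_nonneg_right h7 (show 0 ≤ θ * η by positivity)
      have a3 := mul_le_mul_of_nonneg_right h8 (show 0 ≤ θ * η by positivity)
      have a4 := mul_le_mul_of_nonneg_left h9 (show 0 ≤ 2 * B * η * θ by positivity)
      have e : ((1 - θ) ^ (K + 1) + 2 * B * η) * B ^ (k + 1) =
          (1 - θ) * (Φ * B ^ (k + 1)) + 2 * B * η * θ * B ^ (k + 1) := by rw [hΦ]; ring
      rw [e]
      rw [pow_succ] at *
      nlinarith
  obtain ⟨K, hK⟩ := exists_pow_lt_of_lt_one (show 0 < ε / (2 * B ^ n) by positivity)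
    (show 1 - θ < 1 by linarith)
  obtain ⟨v, hvP, hv, H⟩ := key K
  refine ⟨v, hvP, hv, fun x hx l l0 l1 l2 l3 => (H x hx l l0 l1 l2 l3).trans ?_⟩
  have : (ε / (2 * B ^ n) + 2 * B * η) * B ^ n = ε := by rw [hη]; field_simp; ring
  rw [← this]
  have θ2 : 0 ≤ 1 - θ := by nlinarith [Nat.cast_nonneg (α := ℝ) n]
  exact mul_le_mul (by linarith) (pow_le_pow_right₀ hB1 l1) (by positivity) (by positivity)

/-- an ultrafilter of asymptotically free Haar unitaries -/
theorem exists_free {P : StarSubalgebra ℂ A} (hP : T.LQ P) :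
    ∃ 𝔉 : Ultrafilter (UP P), ∀ (x : A) (l : List (Bool × A)), l ≠ [] →
      T.Ch l → Tendsto (fun v : UP P => T.τ (x * wd v.1 l)) 𝔉 (𝓝 0) := by
  classical
  choose v hvP hv H using fun p : Finset A × ℕ => popa hP (insert 1 (p.1.filter (‖·‖ ≤ 1)))
    (by simp) (by simp [norm_one_le]) p.2 (Nat.one_div_pos_of_nat (n := p.2))
  refine ⟨(Ultrafilter.of (atTop ×ˢ atTop)).map fun p => ⟨v p, hvP p, hv p⟩, fun x l l0 l1 => ?_⟩
  refine Tendsto.mono_left (x := atTop ×ˢ atTop) (f := fun p => T.τ (x * wd (v p) l)) ?_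
    (Ultrafilter.of_le _)
  obtain ⟨R, hR, hx, hl⟩ : ∃ R : ℝ, 0 < R ∧ ‖x‖ ≤ R ∧ ∀ p ∈ l, ‖p.2‖ ≤ R := by
    obtain ⟨R, h⟩ := ((l.finite_toSet.image fun p => ‖p.2‖).insert ‖x‖).bddAbove
    have h1 := h (Set.mem_insert _ _)
    exact ⟨R + 1, by linarith [norm_nonneg x], by linarith,
      fun p hp => by linarith [h (Set.mem_insert_of_mem _ ⟨p, hp, rfl⟩)]⟩
  let t : ℂ := (R : ℂ)⁻¹
  have ht : t ≠ 0 := inv_ne_zero (by exact_mod_cast hR.ne')
  have ht' : ∀ y : A, ‖y‖ ≤ R → ‖t • y‖ ≤ 1 := fun y hy => by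
    rwa [norm_smul, norm_inv, Complex.norm_real, Real.norm_of_nonneg hR.le, inv_mul_le_iff₀ hR,
      mul_one]
  let l' := l.map fun p => (p.1, t • p.2)
  have e : ∀ (u : A) (l : List (Bool × A)),
      wd u (l.map fun p => (p.1, t • p.2)) = t ^ l.length • wd u l := fun u l => by
    induction l with
    | nil => simp
    | cons p l ih => simp [ih, smul_smul, pow_succ]
  have key : Tendsto (fun p => T.τ (t • x * wd (v p) l')) (atTop ×ˢ atTop) (𝓝 0) := by
    refine squeeze_zero_norm' ?_ (tendsto_one_div_add_atTop_nhds_zero_nat.comp tendsto_snd)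
    filter_upwards [(eventually_ge_atTop (insert (t • x) (l'.map Prod.snd).toFinset)).prod_mk
      (eventually_ge_atTop l.length)] with p hp
    refine H p _ ?_ l' (by simpa [l'] using l0) (by simpa [l'] using hp.2) (fun q hq => ?_) ?_
    · exact Finset.mem_insert_of_mem (Finset.mem_filter.mpr ⟨hp.1 (by simp), ht' x hx⟩)
    · refine Finset.mem_insert_of_mem (Finset.mem_filter.mpr ⟨hp.1 (Finset.mem_insert_of_mem
        (List.mem_toFinset.mpr (List.mem_map_of_mem hq))), ?_⟩)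
      obtain ⟨r, hr, rfl⟩ := List.mem_map.mp hq
      exact ht' _ (hl r hr)
    · exact List.isChain_map_of_isChain _ (fun a b h h' => by simp [h h']) l1
  simpa [l', e, ht, smul_smul, ← mul_assoc] using key.const_mul (t ^ l.length * t)⁻¹

end Tr
end Crest.Agent.GP
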