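import Crest.Agent.GP.Half
/-! Qubits, their commutants, and towers of qubits. -/
set_option autoImplicit false
namespace Crest.Agent.GP
open scoped ComplexConjugate InnerProductSpace
open Filter Topology

variable {A : Type*} [CStarAlgebra A]

theorem Qb.symm {X Z : A} (h : Qb X Z) : Qb Z X := ⟨h.hZ, h.hX, by rw [h.anti, neg_neg]⟩
theorem Sym.neg {s : A} (h : Sym s) : Sym (-s) := ⟨by simp [h.1], by simp [h.2]⟩
theorem Qb.neg {X Z : A} (h : Qb X Z) : Qb X (-Z) := ⟨h.hX, h.hZ.neg, by simp [h.anti]⟩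
theorem Sym.mul {s t : A} (hs : Sym s) (ht : Sym t) (h : s * t = t * s) : Sym (s * t) :=
  ⟨by rw [star_mul, hs.1, ht.1, h], by rw [mul_assoc, ← mul_assoc t, ← h, mul_assoc, ht.2, mul_one, hs.2]⟩
theorem Qb.mul {X Z s : A} (h : Qb X Z) (hs : Sym s) (h1 : X * s = s * X) (h2 : Z * s = s * Z) :
    Qb X (Z * s) :=
  ⟨h.hX, h.hZ.mul hs h2, by rw [← mul_assoc, h.anti, neg_mul, mul_assoc, h1, mul_assoc]⟩

noncomputable def Cm (Q : StarSubalgebra ℂ A) (X Z : A) : StarSubalgebra ℂ A :=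
  Q ⊓ StarSubalgebra.centralizer ℂ {X, Z}

theorem Qb.mem_Cm {X Z : A} (h : Qb X Z) {Q : StarSubalgebra ℂ A} {y : A} :
    y ∈ Cm Q X Z ↔ y ∈ Q ∧ X * y = y * X ∧ Z * y = y * Z := by
  simp [Cm, StarSubalgebra.mem_centralizer_iff, h.hX.1, h.hZ.1]

noncomputable def EZ (Z m : A) : A := (1 / 2 : ℂ) • (m + Z * m * Z)

theorem EZ_mem {Q : StarSubalgebra ℂ A} {Z m : A} (hZ : Z ∈ Q) (hm : m ∈ Q) : EZ Z m ∈ Q :=
  SMulMemClass.smul_mem _ (add_mem hm (mul_mem (mul_mem hZ hm) hZ))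

theorem EZ_comm {Z : A} (hZ : Sym Z) (m : A) : Z * EZ Z m = EZ Z m * Z := by
  simp only [EZ, mul_smul_comm, smul_mul_assoc, mul_add, add_mul, mul_assoc, hZ.mul_mul, hZ.2,
    mul_one, add_comm]

theorem EZ_comm' {X Z m : A} (h : Qb X Z) (hm : Z * m = m * Z) : Z * EZ X m = EZ X m * Z := by
  have : Z * (X * (m * X)) = X * (m * (X * Z)) := by
    rw [← mul_assoc, h.symm.anti, neg_mul, mul_assoc, ← mul_assoc Z, hm, h.anti]
    simp [mul_assoc]
  simp only [EZ, mul_smul_comm, smul_mul_assoc, mul_add, add_mul, mul_assoc, this, hm]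

theorem EZ_norm {Z : A} (hZ : Sym Z) (m : A) : ‖EZ Z m‖ ≤ ‖m‖ := by
  have := norm_add_le m (Z * m * Z)
  have := norm_mul_le' (norm_mul_le' hZ.norm (le_refl ‖m‖)) hZ.norm
  rw [EZ, norm_smul]; simp at *; linarith

theorem EZ_sub (Z m m' : A) : EZ Z (m - m') = EZ Z m - EZ Z m' := by
  simp only [EZ, mul_sub, sub_mul]; module

theorem EZ_of_comm {Z m : A} (hZ : Sym Z) (h : Z * m = m * Z) : EZ Z m = m := by
  rw [EZ, h, mul_assoc, hZ.2, mul_one]; module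

theorem EZ_dec {X Z : A} (h : Qb X Z) (m : A) : m = EZ Z m + X * EZ Z (X * m) := by
  have : X * (Z * (X * (m * Z))) = -(Z * (m * Z)) := by
    rw [← mul_assoc, h.anti, neg_mul, mul_assoc, h.hX.mul_mul]
  simp only [EZ, mul_smul_comm, mul_add, mul_assoc, h.hX.mul_mul, this]; module

theorem qb_half {X Z : A} (h : Qb X Z) {Q : StarSubalgebra ℂ A} (hX : X ∈ Q) (hZ : Z ∈ Q) {m : A}
    (hm : m ∈ Q) (hc : Z * m = m * Z) : EZ X m ∈ Cm Q X Z ∧ EZ X (Z * m) ∈ Cm Q X Z :=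
  ⟨h.mem_Cm.mpr ⟨EZ_mem hX hm, EZ_comm h.hX _, EZ_comm' h hc⟩,
    h.mem_Cm.mpr ⟨EZ_mem hX (mul_mem hZ hm), EZ_comm h.hX _, EZ_comm' h (by rw [mul_assoc, hc])⟩⟩

theorem qb_decomp {X Z : A} (h : Qb X Z) {Q : StarSubalgebra ℂ A} (hX : X ∈ Q) (hZ : Z ∈ Q) {m : A}
    (hm : m ∈ Q) : ∃ a ∈ Cm Q X Z, ∃ b ∈ Cm Q X Z, ∃ c ∈ Cm Q X Z, ∃ d ∈ Cm Q X Z,
      ‖a‖ ≤ ‖m‖ ∧ ‖b‖ ≤ ‖m‖ ∧ ‖c‖ ≤ ‖m‖ ∧ ‖d‖ ≤ ‖m‖ ∧ m = a + Z * b + X * (c + Z * d) := by
  have h1 := qb_half h hX hZ (EZ_mem hZ hm) (EZ_comm h.hZ m)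
  have h2 := qb_half h hX hZ (EZ_mem hZ (mul_mem hX hm)) (EZ_comm h.hZ _)
  have n1 : ∀ {s : A}, Sym s → ∀ y, ‖s * y‖ ≤ ‖y‖ := fun hs y => by
    simpa using norm_mul_le' hs.norm (le_refl ‖y‖)
  refine ⟨_, h1.1, _, h1.2, _, h2.1, _, h2.2, (EZ_norm h.hX _).trans (EZ_norm h.hZ _),
    (EZ_norm h.hX _).trans ((n1 h.hZ _).trans (EZ_norm h.hZ _)),
    (EZ_norm h.hX _).trans ((EZ_norm h.hZ _).trans (n1 h.hX _)),
    (EZ_norm h.hX _).trans ((n1 h.hZ _).trans ((EZ_norm h.hZ _).trans (n1 h.hX _))), ?_⟩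
  rw [← EZ_dec h.symm, ← EZ_dec h.symm, ← EZ_dec h]

namespace Tr
variable {T : Tr A}

theorem τ_anti {X w : A} (hX : Sym X) (h : X * w = -(w * X)) : T.τ w = 0 := by
  have := T.τ_conj hX.2 w
  rw [h, neg_mul, mul_assoc, hX.2, mul_one, map_neg] at this
  linear_combination (-1 / 2) * this

theorem τ_EZ {Z : A} (hZ : Sym Z) (m : A) : T.τ (EZ Z m) = T.τ m := by
  rw [EZ, map_smul, map_add, T.τ_conj hZ.2, smul_eq_mul]; ring

theorem n_EZ_sq {Z : A} (hZ : Sym Z) (m : A) :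
    T.n (EZ Z m) ^ 2 = T.n m ^ 2 - T.n (Z * m - m * Z) ^ 2 / 4 := by
  have h1 := T.n_par m (Z * m * Z)
  rw [T.n_unit_r hZ.unit.2, T.n_unit_l hZ.unit.1, ← T.n_unit_r hZ.unit.2 (m - _), sub_mul,
    mul_assoc _ Z, hZ.2, mul_one, T.n_sub_rev] at h1
  rw [EZ, n_smul]; simp only [norm_div, norm_one, Complex.norm_ofNat]
  nlinarith

theorem n_EZ_le {Z : A} (hZ : Sym Z) (m : A) : T.n (EZ Z m) ≤ T.n m := by
  rw [← sq_le_sq₀ (T.n_nonneg _) (T.n_nonneg _), n_EZ_sq hZ]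
  nlinarith [sq_nonneg (T.n (Z * m - m * Z))]

theorem c_EZ {Z : A} (hZ : Sym Z) (m : A) : T.c (EZ Z m) = EZ Z (T.c m) := by
  rw [c, c, τ_EZ hZ, EZ_sub, EZ_of_comm (m := _ • 1) hZ (by simp)]

theorem c_comm (a y : A) : a * T.c y - T.c y * a = a * y - y * a := by
  simp [c, mul_sub, sub_mul]

theorem comm_mul {a b : A} (ha : ‖a‖ ≤ 1) (hb : ‖b‖ ≤ 1) (y : A) :
    T.n (a * b * y - y * (a * b)) ≤ T.n (a * y - y * a) + T.n (b * y - y * b) := by
  have : a * b * y - y * (a * b) = (a * y - y * a) * b + a * (b * y - y * b) := by noncomm_ring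
  rw [this]
  exact (T.n_add_le _ _).trans (add_le_add (T.n_r1 _ hb) (T.n_l1 ha _))

theorem comm_add (a b y : A) :
    T.n ((a + b) * y - y * (a + b)) ≤ T.n (a * y - y * a) + T.n (b * y - y * b) := by
  have : (a + b) * y - y * (a + b) = (a * y - y * a) + (b * y - y * b) := by noncomm_ring
  rw [this]; exact T.n_add_le _ _

theorem cl_centralizer (hT : T.W) (s : Set A) : T.Cl (StarSubalgebra.centralizer ℂ s) := by
  have key : ∀ x z : A, (∀ ε > 0, ∃ y, z * y = y * z ∧ T.n (y - x) < ε) → z * x = x * z := by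
    intro x z h
    refine hT.eq_of_le fun ε hε => ?_
    have hp : 0 < 2 * ‖z‖ + 1 := by positivity
    obtain ⟨y, hy, h⟩ := h _ (div_pos hε hp)
    have := T.n_comm_le (y - x) z
    rw [sub_mul, mul_sub, hy, sub_sub_sub_cancel_left] at this
    rw [lt_div_iff₀ hp] at h
    nlinarith [T.n_nonneg (y - x)]
  intro x hx
  rw [SetLike.mem_coe, StarSubalgebra.mem_centralizer_iff]
  exact fun g hg => ⟨key x g fun ε hε => (hx ε hε).imp fun y hy =>
      ⟨((StarSubalgebra.mem_centralizer_iff ℂ).mp hy.1 g hg).1, hy.2⟩,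
    key x _ fun ε hε => (hx ε hε).imp fun y hy =>
      ⟨((StarSubalgebra.mem_centralizer_iff ℂ).mp hy.1 g hg).2, hy.2⟩⟩

/-- irreducible inclusions of infinite-dimensional algebras -/
structure Gd (T : Tr A) (P Q : StarSubalgebra ℂ A) : Prop where
  hT : T.W
  hP : T.Cl P
  hQ : T.Cl Q
  le : P ≤ Q
  irr : Irr P Q
  inf : InfD P

variable {P Q : StarSubalgebra ℂ A}

theorem Gd.qb (G : T.Gd P Q) : ∃ X ∈ P, ∃ Z ∈ P, Qb X Z :=
  exists_qb G.hT G.hP (fun y hy => G.irr y (G.le hy)) G.inf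

theorem Gd.cm (G : T.Gd P Q) {X Z : A} (hX : X ∈ P) (hZ : Z ∈ P) (h : Qb X Z) :
    T.Gd (Cm P X Z) (Cm Q X Z) := by
  classical
  refine ⟨G.hT, G.hP.inter (cl_centralizer G.hT _), G.hQ.inter (cl_centralizer G.hT _),
    inf_le_inf_right _ G.le, fun y hy hc => ?_, fun s hs => ?_⟩
  · obtain ⟨h1, h2, h3⟩ := h.mem_Cm.mp hy
    refine G.irr y h1 fun z hz => ?_
    obtain ⟨a, ha, b, hb, c, hc', d, hd, -, -, -, -, rfl⟩ := qb_decomp h hX hZ hz
    exact (Commute.add_left (Commute.add_left (hc a ha) (Commute.mul_left h3 (hc b hb)))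
      (Commute.mul_left h2 (Commute.add_left (hc c hc') (Commute.mul_left h3 (hc d hd))))).eq
  · refine G.inf ((({1, Z, X, X * Z} : Finset A) ×ˢ s).image fun p => p.1 * p.2) fun z hz => ?_
    have key : ∀ w ∈ ({1, Z, X, X * Z} : Finset A), ∀ a ∈ Cm P X Z, w * a ∈ Submodule.span ℂ
        ((({1, Z, X, X * Z} : Finset A) ×ˢ s).image (fun p => p.1 * p.2) : Set A) := by
      intro w hw a ha
      refine Submodule.span_induction (fun x hx => Submodule.subset_span ?_) (by simp)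
        (fun x y _ _ hx hy => by rw [mul_add]; exact add_mem hx hy)
        (fun c x _ hx => by rw [mul_smul_comm]; exact Submodule.smul_mem _ _ hx) (hs a ha)
      rw [Finset.coe_image]
      exact ⟨(w, x), Finset.mem_coe.mpr (Finset.mem_product.mpr ⟨hw, hx⟩), rfl⟩
    obtain ⟨a, ha, b, hb, c, hc', d, hd, -, -, -, -, rfl⟩ := qb_decomp h hX hZ hz
    rw [mul_add, ← mul_assoc]
    exact add_mem (add_mem (by simpa using key 1 (by simp) a ha) (key Z (by simp) b hb))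
      (add_mem (key X (by simp) c hc') (key _ (by simp) d hd))

theorem Gd.gap (G : T.Gd P Q) {Y : A} (hY : Y ∈ Q) :
    ∃ X ∈ P, ∃ Z ∈ P, Qb X Z ∧ T.n (T.c Y) ≤ 40 * T.n (Z * Y - Y * Z) := by
  by_contra! hc
  obtain ⟨X, hX, Z, hZ, h⟩ := G.qb
  set σ := T.n (T.c Y) / 40 with hσ
  have hc : ∀ X ∈ P, ∀ Z ∈ P, Qb X Z → T.n (Z * Y - Y * Z) < σ := fun X hX Z hZ h => by
    linarith [hc X hX Z hZ h]
  have h1 := hc X hX Z hZ h
  have h2 := hc Z hZ X hX h.symm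
  have h3 := comm_all G.hT (G.cm hX hZ h).hP (y := Y) (σ := 2 * σ) fun s hs hs' => by
    obtain ⟨s1, s2, s3⟩ := h.mem_Cm.mp hs
    have h4 := hc X hX _ (mul_mem hZ s1) (h.mul hs' s2 s3)
    have h5 := comm_mul (T := T) h.hZ.norm (h.hZ.mul hs' s3).norm Y
    rw [h.hZ.mul_mul] at h5; linarith
  have := gap0 G.hT G.hP G.hQ G.le G.irr hY (r := 20 * σ) fun u hu hu' => by
    have hn := norm_unit hu'
    obtain ⟨a, ha, b, hb, c, hc', d, hd, n1, n2, n3, n4, e⟩ := qb_decomp h hX hZ hu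
    rw [e, mul_add X]
    have := T.comm_add (a + Z * b) (X * c + X * (Z * d)) Y
    have := T.comm_add a (Z * b) Y
    have := T.comm_add (X * c) (X * (Z * d)) Y
    have := comm_mul (T := T) h.hZ.norm (n2.trans hn) Y
    have := comm_mul (T := T) h.hX.norm (n3.trans hn) Y
    have := comm_mul (T := T) h.hZ.norm (n4.trans hn) Y
    have := comm_mul (T := T) h.hX.norm (norm_mul_one' h.hZ.norm (n4.trans hn)) Y
    have := h3 a ha (n1.trans hn); have := h3 b hb (n2.trans hn)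
    have := h3 c hc' (n3.trans hn); have := h3 d hd (n4.trans hn)
    linarith
  linarith [T.n_nonneg (Z * Y - Y * Z)]

theorem Gd.tower (G : T.Gd P Q) (d : ℕ → A) (hd : ∀ i, d i ∈ Q) : ∃ X Z : ℕ → A,
    (∀ k, X k ∈ P ∧ Z k ∈ P ∧ Qb (X k) (Z k)) ∧
    (∀ k l, k ≠ l → X k * X l = X l * X k ∧ X k * Z l = Z l * X k ∧ Z k * Z l = Z l * Z k) ∧
    ∀ y, (∀ k, X k * y = y * X k ∧ Z k * y = y * Z k) → ∀ i, T.n (T.c y) ≤ T.n (y - d i) := by
  let S := {p : StarSubalgebra ℂ A × StarSubalgebra ℂ A × (ℕ → A) // T.Gd p.1 p.2.1 ∧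
    ∀ i, p.2.2 i ∈ p.2.1}
  have step : ∀ (k : ℕ) (p : S), ∃ X ∈ p.1.1, ∃ Z ∈ p.1.1, Qb X Z ∧
      T.n (T.c (p.1.2.2 k.unpair.1)) ≤
        40 * T.n (Z * p.1.2.2 k.unpair.1 - p.1.2.2 k.unpair.1 * Z) :=
    fun k p => p.2.1.gap (p.2.2 _)
  choose X hX Z hZ hq hg using step
  let nx : ℕ → S → S := fun k p => ⟨⟨Cm p.1.1 (X k p) (Z k p), Cm p.1.2.1 (X k p) (Z k p),
    fun i => EZ (X k p) (EZ (Z k p) (p.1.2.2 i))⟩, p.2.1.cm (hX k p) (hZ k p) (hq k p), fun i =>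
      (qb_half (hq k p) (p.2.1.le (hX k p)) (p.2.1.le (hZ k p))
        (EZ_mem (p.2.1.le (hZ k p)) (p.2.2 i)) (EZ_comm (hq k p).hZ _)).1⟩
  let p : ℕ → S := fun k => Nat.rec ⟨⟨P, Q, d⟩, G, hd⟩ nx k
  have hp : ∀ k, p (k + 1) = nx k (p k) := fun _ => rfl
  have anti : Antitone fun k => (p k).1.1 := antitone_nat_of_succ_le fun k => inf_le_left
  have hlt : ∀ k l, k < l → ∀ y ∈ (p l).1.1, X k (p k) * y = y * X k (p k) ∧
      Z k (p k) * y = y * Z k (p k) := fun k l hkl y hy =>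
    ((hq k (p k)).mem_Cm.mp (anti (Nat.succ_le_of_lt hkl) hy)).2
  refine ⟨fun k => X k (p k), fun k => Z k (p k), fun k => ⟨anti (Nat.zero_le k) (hX k _),
    anti (Nat.zero_le k) (hZ k _), hq k _⟩, fun k l hkl => ?_, fun y hy i => ?_⟩
  · rcases hkl.lt_or_gt with h | h
    · exact ⟨(hlt k l h _ (hX l _)).1, (hlt k l h _ (hZ l _)).1, (hlt k l h _ (hZ l _)).2⟩
    · exact ⟨(hlt l k h _ (hX k _)).1.symm, (hlt l k h _ (hX k _)).2.symm,
        (hlt l k h _ (hZ k _)).2.symm⟩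
  · let f : ℕ → ℝ := fun k => T.n (T.c ((p k).1.2.2 i)) ^ 2
    have f1 : ∀ k, f (k + 1) ≤ f k - T.n (Z k (p k) * (p k).1.2.2 i - (p k).1.2.2 i * Z k (p k)) ^ 2 / 4 :=
      fun k => by
        simp only [f, hp, nx]
        rw [c_EZ (hq k _).hX, c_EZ (hq k _).hZ, ← T.c_comm, ← n_EZ_sq (hq k _).hZ]
        exact pow_le_pow_left₀ (T.n_nonneg _) (n_EZ_le (hq k _).hX _) 2
    have f2 : Antitone f := antitone_nat_of_succ_le fun k => (f1 k).trans (by
      have := sq_nonneg (T.n (Z k (p k) * (p k).1.2.2 i - (p k).1.2.2 i * Z k (p k))); linarith)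
    have f3 : ∀ j : ℕ, ∃ k, f k ≤ (6399 / 6400) ^ j * f 0 := fun j => by
      induction j with
      | zero => exact ⟨0, by simp⟩
      | succ j ih =>
        obtain ⟨k, hk⟩ := ih
        refine ⟨Nat.pair i k + 1, (f1 _).trans ?_⟩
        have h1 := hg (Nat.pair i k) (p (Nat.pair i k))
        simp only [Nat.unpair_pair] at h1
        have h2 := f2 (Nat.right_le_pair i k)
        have h3 := pow_le_pow_left₀ (T.n_nonneg _) h1 2
        simp only [f] at *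
        rw [mul_pow] at h3
        rw [pow_succ' _ j, mul_assoc]; linarith
    have f4 : ∀ k, T.n (T.c (y - (p k).1.2.2 i)) ≤ T.n (y - d i) := fun k => by
      induction k with
      | zero => exact T.n_c_le _
      | succ k ih =>
        simp only [hp, nx]
        rw [← EZ_of_comm (hq k _).hX (hy k).1, ← EZ_of_comm (hq k _).hZ (hy k).2, ← EZ_sub, ← EZ_sub,
          c_EZ (hq k _).hX, c_EZ (hq k _).hZ, EZ_of_comm (hq k _).hZ (hy k).2,
          EZ_of_comm (hq k _).hX (hy k).1]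
        exact (n_EZ_le (hq k _).hX _).trans ((n_EZ_le (hq k _).hZ _).trans ih)
    refine ge_of_tendsto' (x := atTop) (f := fun j : ℕ => T.n (y - d i) + √((6399 / 6400) ^ j * f 0))
      (by simpa using (((tendsto_pow_atTop_nhds_zero_of_lt_one (r := (6399 / 6400 : ℝ)) (by norm_num)
        (by norm_num)).mul_const (f 0)).sqrt).const_add _) fun j => ?_
    obtain ⟨k, hk⟩ := f3 j
    have : T.c y = T.c (y - (p k).1.2.2 i) + T.c ((p k).1.2.2 i) := by simp [c, sub_smul]; abel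
    rw [this]
    exact (T.n_add_le _ _).trans (add_le_add (f4 k) (Real.le_sqrt_of_sq_le hk))

theorem orthonormal_of {X S : ℕ → A} (hX : ∀ k, Sym (X k)) (hS : ∀ k, Sym (S k))
    (h1 : ∀ k, X k * S k = -(S k * X k)) (h2 : ∀ k l, k ≠ l → X k * S l = S l * X k) :
    Orthonormal ℂ fun k => T.ι (S k) := by
  rw [orthonormal_iff_ite]
  intro k l
  rw [inner_ι, (hS k).1]
  split_ifs with h
  · rw [h, (hS l).2, T.one]
  · exact τ_anti (hX k) (by rw [← mul_assoc, h1, neg_mul, mul_assoc, h2 k l h, mul_assoc])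

end Tr
end Crest.Agent.GP
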