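import Crest.Agent.GP.Tr
/-! The amplification estimate, under exact vanishing hypotheses. -/
set_option autoImplicit false
namespace Crest.Agent.GP
open scoped ComplexConjugate
open Finset

variable {B : Type*} [CStarAlgebra B]

theorem cayley {h : B} (hs : star h = -h) (h1 : ‖h‖ ≤ 1) :
    ∃ R, ‖R‖ ≤ 2 ∧ R = 1 + (1 / 2 : ℂ) • h * R ∧ 1 + h * R ∈ unitary B := by
  set x := (1 / 2 : ℂ) • h with hx
  have hx1 : ‖x‖ ≤ 1 / 2 := by rw [hx, norm_smul]; simp; linarith
  have hxs : star x = -x := by simp [hx, hs]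
  have hh : h = x + x := by rw [hx]; module
  obtain ⟨U, hU⟩ := isUnit_one_sub_of_norm_lt_one (x := x) (by linarith)
  have e1 : (1 - x) * (↑U⁻¹ : B) = 1 := by rw [← hU]; simp
  have e2 : (↑U⁻¹ : B) * (1 - x) = 1 := by rw [← hU]; simp
  generalize (↑U⁻¹ : B) = R at e1 e2
  have e3 : R = 1 + x * R := by rw [← e1, sub_mul]; simp
  have e4 : R = 1 + R * x := by rw [← e2, mul_sub]; simp
  have e5 : 1 + h * R = (1 + x) * R := by
    rw [hh, add_mul, add_mul, one_mul, ← add_assoc, ← e3]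
  have e6 : 1 + h * R = R * (1 + x) := by
    have : x * R = R * x := add_left_cancel (e3.symm.trans e4)
    rw [e5, add_mul, mul_add, this]; simp
  have e7 : star R * (1 + x) = 1 := by simpa [hxs] using congrArg star e1
  have e8 : (1 + x) * star R = 1 := by simpa [hxs] using congrArg star e2
  have e9 : (1 - x) * (1 + x) = (1 + x) * (1 - x) := by noncomm_ring
  have e0 : star (1 + x) = 1 - x := by simp [hxs, sub_eq_add_neg]
  refine ⟨R, ?_, e3, ?_, ?_⟩
  · have := norm_add_le 1 (x * R)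
    rw [← e3] at this
    linarith [norm_mul_le' hx1 (le_refl ‖R‖), norm_one_le (A := B)]
  · rw [e5, star_mul, e0, mul_assoc, ← mul_assoc (1 - x), e9, mul_assoc, e1, mul_one, e7]
  · rw [e6, star_mul, e0, mul_assoc, ← mul_assoc (1 + x), ← e9, mul_assoc, e8, mul_one, e2]

def PP (a : ℕ → B) (c : B) : ℕ → B
  | 0 => 1
  | j + 1 => PP a c j * (a j * c * star (a j))

theorem PP_unit {a : ℕ → B} {c : B} (ha : ∀ j, a j ∈ unitary B) (hc : c ∈ unitary B) (j : ℕ) :
    PP a c j ∈ unitary B := by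
  induction j with
  | zero => exact one_mem _
  | succ j ih => exact mul_mem ih (mul_mem (mul_mem (ha j) hc) (Unitary.star_mem (ha j)))

namespace Tr
variable {T : Tr B}

theorem n_sq_skew {h : B} (hs : star h = -h) : T.n h ^ 2 ≤ T.n (h * h) := by
  rw [n_sq, ← T.n_neg (h * h), ← neg_mul, ← hs]
  exact (Complex.re_le_norm _).trans (T.τ_le_n _)

theorem q_bound {Y : ℕ → B} (hY : ∀ i, star (Y i) = -Y i) {σ : ℝ} (hσ : ∀ i, ‖Y i‖ ≤ σ) (k : ℕ)
    (V : ∀ l < k, T.τ ((∑ i ∈ range l, Y i) * (∑ i ∈ range l, Y i) * (∑ i ∈ range l, Y i) * Y l) = 0) :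
    T.n ((∑ i ∈ range k, Y i) * ∑ i ∈ range k, Y i) ≤ 3 * k * σ ^ 2 := by
  induction k with
  | zero => simp
  | succ k ih =>
    have ih := ih fun l hl => V l (by omega)
    have V := V k (by omega)
    rw [sum_range_succ]
    have hH : star (∑ i ∈ range k, Y i) = -∑ i ∈ range k, Y i := by simp [star_sum, hY]
    generalize ∑ i ∈ range k, Y i = H at *
    have hσ := hσ k
    have hσ0 := (norm_nonneg _).trans hσ
    have e : (H + Y k) * (H + Y k) = (H * H + (H * Y k + Y k * H)) + Y k * Y k := by noncomm_ring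
    have h1 := T.n_add_sq (H * H) (H * Y k + Y k * H)
    have h2 : T.τ (star (H * H) * (H * Y k + Y k * H)) = 0 := by
      rw [star_mul, hH, neg_mul_neg, mul_add, map_add, ← mul_assoc, V, ← mul_assoc, T.comm,
        ← mul_assoc, ← mul_assoc, V, add_zero]
    have h3 : T.n (H * Y k + Y k * H) ≤ 2 * σ * T.n H := by
      linarith [T.n_add_le (H * Y k) (Y k * H), T.n_r (le_refl (T.n H)) hσ,
        T.n_l hσ (le_refl (T.n H))]
    have h4 := pow_le_pow_left₀ (T.n_nonneg _) h3 2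
    have h5 := mul_le_mul_of_nonneg_left (n_sq_skew (T := T) hH) (sq_nonneg σ)
    have h6 : T.n (H * H + (H * Y k + Y k * H)) ≤ T.n (H * H) + 2 * σ ^ 2 := by
      rw [← sq_le_sq₀ (T.n_nonneg _) (by have := T.n_nonneg (H * H); positivity), h1, h2]
      simp only [Complex.zero_re]
      nlinarith [sq_nonneg (σ ^ 2)]
    have h7 := (T.n_le _).trans (norm_mul_le' hσ hσ)
    rw [e]
    refine (T.n_add_le _ _).trans ?_
    push_cast; nlinarith

theorem tele_sum {f : ℕ → ℂ} {z : ℂ} {r : ℝ} (k : ℕ) (h : ∀ j < k, ‖f (j + 1) - f j - z‖ ≤ r) :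
    ‖f k - f 0 - k * z‖ ≤ k * r := by
  induction k with
  | zero => simp
  | succ k ih =>
    have := norm_add_le (f (k + 1) - f k - z) (f k - f 0 - k * z)
    have e : f (k + 1) - f k - z + (f k - f 0 - k * z) = f (k + 1) - f 0 - (k + 1 : ℕ) * z := by
      push_cast; ring
    rw [e] at this
    have := h k (by omega); have := ih fun j hj => h j (by omega)
    push_cast at *; linarith

theorem stage_alg {D : ℕ} (hD : 0 < D) {a : ℕ → B} (ha : ∀ j, a j ∈ unitary B) {y : B}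
    (hy : star y = -y) {σ ρ : ℝ} (hσ : ‖y‖ ≤ σ) (σ1 : σ ≤ 1) (hρ : 8 * σ ≤ ρ ^ 2) (ρ0 : 0 ≤ ρ)
    {h R m : B} (hh : h = (D : ℂ)⁻¹ • ∑ i ∈ range D, star (a i) * y * a i) (R1 : ‖R‖ ≤ 2)
    (R2 : R = 1 + (1 / 2 : ℂ) • h * R) (hc : 1 + h * R ∈ unitary B)
    (V1 : ∀ l < D, T.τ ((∑ i ∈ range l, star (a i) * y * a i) * (∑ i ∈ range l, star (a i) * y * a i)
      * (∑ i ∈ range l, star (a i) * y * a i) * (star (a l) * y * a l)) = 0)
    (V2 : ∀ m' ∈ ({1, m} : Set B), ∀ j < D, ∀ k < D, k ≠ j →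
      T.τ (m' * PP a (1 + h * R) j * (a j * (star (a k) * y * a k) * star (a j))) = 0) :
    T.n (h * R) ^ 2 ≤ 12 / D ∧
      ‖T.τ (m * PP a (1 + h * R) D) - T.τ m - T.τ (m * y)‖ ≤ T.n m * (σ * (ρ + 3 * σ)) := by
  have hσ0 := (norm_nonneg _).trans hσ
  have hD' : (0 : ℝ) < D := by exact_mod_cast hD
  have hD'' : (D : ℂ) ≠ 0 := by exact_mod_cast hD.ne'
  have hn := fun j => norm_unit (ha j)
  have hn' := fun j => norm_unit (Unitary.star_mem (ha j))
  have hY : ∀ i, star (star (a i) * y * a i) = -(star (a i) * y * a i) := fun i => by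
    simp [hy, mul_assoc]
  have hq : T.n (h * h) ≤ 3 * σ ^ 2 / D := by
    have := q_bound hY (σ := σ) (fun i => by
      simpa using norm_mul_le' (norm_mul_le' (hn' i) hσ) (hn i)) D V1
    rw [hh, smul_mul_smul_comm, n_smul, norm_mul, norm_inv, Complex.norm_natCast]
    refine (mul_le_mul_of_nonneg_left this (by positivity)).trans_eq (by field_simp)
  set Q := PP a (1 + h * R)
  have hQ := PP_unit ha hc
  have tele : ∀ m' ∈ ({1, m} : Set B), ∀ j < D, ‖T.τ (m' * Q (j + 1)) - T.τ (m' * Q j) -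
      (D : ℂ)⁻¹ * T.τ (m' * Q j * y)‖ ≤ T.n m' * (3 * σ ^ 2 / D) := by
    intro m' hm j hj
    have e1 : T.τ (m' * Q j * (a j * h * star (a j))) = (D : ℂ)⁻¹ * T.τ (m' * Q j * y) := by
      rw [hh, mul_smul_comm, smul_mul_assoc, mul_smul_comm, map_smul, mul_sum, sum_mul, mul_sum,
        map_sum, sum_eq_single_of_mem j (mem_range.mpr hj) fun k hk hkj =>
          V2 m' hm j hj k (mem_range.mp hk) hkj, smul_eq_mul]
      simp only [mul_assoc, (ha j).2, mul_one, ← mul_assoc (a j) (star (a j)), one_mul]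
    have e2 : m' * Q (j + 1) = m' * Q j + m' * Q j * (a j * h * star (a j)) +
        (1 / 2 : ℂ) • (m' * Q j * a j * (h * h * R * star (a j))) := by
      have : h * R = h + (1 / 2 : ℂ) • (h * h * R) := by
        conv_lhs => rw [R2]
        simp [mul_add, mul_assoc]
      change m' * (Q j * (a j * (1 + h * R) * star (a j))) = _
      rw [this]
      simp only [mul_add, add_mul, mul_one, (ha j).2, mul_assoc, mul_smul_comm, smul_mul_assoc,
        add_assoc]
    rw [e2, map_add, map_add, e1, map_smul, add_assoc, add_sub_cancel_left, add_sub_cancel_left,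
      norm_smul]
    have := (T.cs _ _).trans (mul_le_mul ((T.n_r1 _ (hn j)).trans (T.n_r1 m' (norm_unit (hQ j))))
      ((T.n_r1 _ (hn' j)).trans (T.n_r hq R1)) (T.n_nonneg _) (T.n_nonneg _))
    simp only [norm_div, norm_one, Complex.norm_ofNat]; linarith
  have h1 : ∀ j ≤ D, T.n (Q j - 1) ≤ ρ := fun j hj => by
    have := tele_sum (f := fun j => T.τ (Q j)) (z := 0) (r := 4 * σ / D) j fun i hi => by
      have h2 := tele 1 (by simp) i (by omega)
      have h3 := norm_add_le (T.τ (1 * Q (i + 1)) - T.τ (1 * Q i) - (D : ℂ)⁻¹ * T.τ (1 * Q i * y))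
        ((D : ℂ)⁻¹ * T.τ (1 * Q i * y))
      have h4 := mul_le_mul_of_nonneg_left ((T.τ_le _).trans (norm_mul_le' (norm_unit (hQ i)) hσ))
        (inv_pos.mpr hD').le
      have h5 : σ ^ 2 / D ≤ σ / D := div_le_div_of_nonneg_right (by nlinarith) hD'.le
      simp only [sub_add_cancel, one_mul, n_one, norm_mul, norm_inv, Complex.norm_natCast, sub_zero,
        mul_div_assoc, div_eq_inv_mul] at *
      linarith
    have h6 : (j : ℝ) * (4 * σ / D) ≤ 4 * σ := by
      rw [mul_div_assoc', div_le_iff₀ hD', mul_comm]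
      exact mul_le_mul_of_nonneg_left (by exact_mod_cast hj) (by positivity)
    have h7 : Q 0 = 1 := rfl
    simp only [h7, T.one, mul_zero, sub_zero] at this
    rw [← sq_le_sq₀ (T.n_nonneg _) ρ0, T.n_sub_rev, n_sub_sq, ← mul_one (Q j), T.n_unit_l (hQ j).1]
    have h8 := Complex.re_le_norm (1 - T.τ (Q j))
    rw [norm_sub_rev] at h8
    simp at h8 ⊢; linarith
  refine ⟨?_, ?_⟩
  · have hs : star h = -h := by simp [hh, star_sum, hY]
    have := pow_le_pow_left₀ (T.n_nonneg _) (T.n_r (le_refl (T.n h)) R1) 2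
    have h2 := (n_sq_skew hs).trans hq
    have h3 : 3 * σ ^ 2 / D ≤ 3 / D := div_le_div_of_nonneg_right (by nlinarith) hD'.le
    have : (12 : ℝ) / D = 4 * (3 / D) := by ring
    nlinarith
  · have := tele_sum (f := fun j => T.τ (m * Q j)) (z := (D : ℂ)⁻¹ * T.τ (m * y))
      (r := T.n m * (σ * (ρ + 3 * σ)) / D) D fun i hi => by
      have h2 := tele m (by simp) i hi
      have h3 := norm_add_le (T.τ (m * Q (i + 1)) - T.τ (m * Q i) - (D : ℂ)⁻¹ * T.τ (m * Q i * y))
        ((D : ℂ)⁻¹ * T.τ (m * ((Q i - 1) * y)))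
      have h4 := mul_le_mul_of_nonneg_left ((T.cs m _).trans (mul_le_mul_of_nonneg_left
        (T.n_r (h1 i hi.le) hσ) (T.n_nonneg _))) (inv_pos.mpr hD').le
      have e : T.τ (m * Q (i + 1)) - T.τ (m * Q i) - (D : ℂ)⁻¹ * T.τ (m * Q i * y) +
          (D : ℂ)⁻¹ * T.τ (m * ((Q i - 1) * y)) =
          T.τ (m * Q (i + 1)) - T.τ (m * Q i) - (D : ℂ)⁻¹ * T.τ (m * y) := by
        simp only [sub_mul, mul_sub, map_sub, one_mul, mul_assoc]; ring
      rw [e, norm_mul, norm_inv, Complex.norm_natCast] at h3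
      simp only [div_eq_inv_mul] at *
      nlinarith
    rw [← mul_assoc, mul_inv_cancel₀ hD'', one_mul, mul_div_cancel₀ _ hD'.ne'] at this
    simpa [show Q 0 = 1 from rfl] using this

end Tr
end Crest.Agent.GP
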