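import Crest.Agent.GP.Grade
import Crest.Agent.GP.Stage0
/-! One amplification stage. -/
set_option autoImplicit false
namespace Crest.Agent.GP
open scoped ComplexConjugate
open Filter Topology BoundedContinuousFunction Finset

abbrev Lamp := Equiv.Perm (ℤ × ℤ)
def Tz (a : ℤ) : Lamp := Equiv.addRight (a, 0)
def tog : Lamp := Equiv.prodShear (Equiv.refl ℤ) fun a => Equiv.addRight (if a = 0 then 1 else 0)
def KK (γ : ℤ) : Subgroup Lamp := MulAction.stabilizer Lamp ((γ, 0) : ℤ × ℤ)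

theorem Tz_mul_inv (a b : ℤ) : Tz a * (Tz b)⁻¹ = Tz (a - b) := by
  ext p <;> simp [Tz, Equiv.Perm.inv_def, sub_eq_add_neg, add_comm, add_left_comm]
theorem Tz_inv (b : ℤ) : (Tz b)⁻¹ = Tz (-b) := by
  ext p <;> simp [Tz, Equiv.Perm.inv_def]
theorem lamp (a γ : ℤ) : Tz a * tog * (Tz a)⁻¹ ∈ KK γ ↔ a ≠ γ := by
  rw [Tz_inv]
  by_cases h : a = γ
  · simp [KK, Tz, tog, h]
  · simp [KK, Tz, tog, h, add_neg_eq_zero, Ne.symm h]
theorem lamp' (a γ : ℤ) : Tz a * tog⁻¹ * (Tz a)⁻¹ ∈ KK γ ↔ a ≠ γ := by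
  rw [← lamp, ← inv_mem_iff]; simp [mul_assoc]
theorem tog_mem : tog ∈ KK 2 := by simp [KK, tog]
theorem tog_ne : tog ≠ 1 := fun h => by simpa [tog] using Equiv.congr_fun h (0, 0)
theorem tog_ne' : tog * tog ≠ 1 := fun h => by simpa [tog] using Equiv.congr_fun h (0, 0)

variable {A : Type*} [CStarAlgebra A] {P : StarSubalgebra ℂ A}

noncomputable def Pf (P : StarSubalgebra ℂ A) (u : A) : ℕ → (Om P →ᵇ A)
  | 0 => 1
  | j + 1 => Pf P u j * gen P j * const _ u

theorem const_unit {u : A} (hu : u ∈ unitary A) : const (Om P) u ∈ unitary (Om P →ᵇ A) :=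
  ⟨by ext ω; exact hu.1, by ext ω; exact hu.2⟩

theorem Pf_unit {u : A} (hu : u ∈ unitary A) (j : ℕ) : Pf P u j ∈ unitary (Om P →ᵇ A) := by
  induction j with
  | zero => exact one_mem _
  | succ j ih => exact mul_mem (mul_mem ih (gen_unit j)) (const_unit hu)

section
variable {G : Type*} [Group G] {β : ℕ → G} {J : ℕ}

def Hm (β : ℕ → G) (J : ℕ) (g : G) (f : Om P →ᵇ A) : Prop := Gr β J g f ∧ Gr β J g⁻¹ (star f)

theorem Hm.mul {g g' : G} {f f' : Om P →ᵇ A} (h : Hm β J g f) (h' : Hm β J g' f') :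
    Hm β J (g * g') (f * f') := ⟨h.1.mul h'.1, by rw [mul_inv_rev, star_mul]; exact h'.2.mul h.2⟩
theorem Hm.star {g : G} {f : Om P →ᵇ A} (h : Hm β J g f) : Hm β J g⁻¹ (star f) :=
  ⟨h.2, by simpa using h.1⟩
theorem Hm.const (a : A) : Hm β J 1 (const (Om P) a) :=
  ⟨Gr.const a, by rw [inv_one]; exact Gr.const (Star.star a)⟩
theorem Hm.gen {i : ℕ} (hi : i < J) : Hm β J (β i) (gen P i) := ⟨Gr.gen i true hi, Gr.gen i false hi⟩

theorem Hm.pf (u : A) {d : ℕ → G} (h0 : d 0 = 1) {j : ℕ} (hj : j < J) :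
    Hm (fun j => (d j)⁻¹ * d (j + 1)) J (d j) (Pf P u j) ∧
    Hm (fun j => (d j)⁻¹ * d (j + 1)) J (d (j + 1)) (Pf P u j * GP.gen P j) := by
  induction j with
  | zero => exact ⟨h0 ▸ Hm.const 1, by simpa [h0, Pf] using Hm.gen (β := fun j => (d j)⁻¹ * d (j + 1)) hj⟩
  | succ j ih =>
    have h1 : Hm (fun j => (d j)⁻¹ * d (j + 1)) J (d (j + 1)) (Pf P u (j + 1)) := by
      simpa [Pf] using (ih (by omega)).2.mul (Hm.const u)
    exact ⟨h1, by simpa using h1.mul (Hm.gen hj)⟩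

theorem cs_KK (K : Subgroup G) {f f' : Om P →ᵇ A} (hf : f ∈ CS β J K) (hf' : f' ∈ CS β J K) :
    f * f' ∈ CS β J K := cs_mul (fun _ h _ h' => K.mul_mem h h') hf hf'
theorem cs_KN (K : Subgroup G) {f f' : Om P →ᵇ A} (hf : f ∈ CS β J K) (hf' : f' ∈ CS β J (K : Set G)ᶜ) :
    f * f' ∈ CS β J (K : Set G)ᶜ :=
  cs_mul (S := (K : Set G)) (S' := (K : Set G)ᶜ) (S'' := (K : Set G)ᶜ)
    (fun g h g' h' (h'' : g * g' ∈ K) => h' ((K.mul_mem_cancel_left h).mp h'')) hf hf'
end

theorem grading (u : A) (D : ℕ) (α : ℕ → ℤ) : ∃ β : ℕ → Lamp,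
    (∀ i < D, Hm β (D + 1) (Tz (α i)) (Pf P u (i + 1))) ∧
      Hm β (D + 1) tog (Pf P u D * gen P D) := by
  let d : ℕ → Lamp := fun j => Nat.casesOn j 1 fun j => if j < D then Tz (α j) else tog
  refine ⟨_, fun i hi => ?_, by simpa [d] using (Hm.pf (P := P) u (d := d) rfl D.lt_succ_self).2⟩
  simpa [d, hi] using (Hm.pf (P := P) u (d := d) (J := D + 1) (j := i + 1) rfl (by omega)).1

theorem conj_y {β : ℕ → Lamp} {J : ℕ} {w b : Om P →ᵇ A} (hw : Hm β J tog w) {a : ℤ}
    (hb : Hm β J (Tz a) b) (ζ : A) (s : ℂ) {S : Set Lamp} (h1 : Tz a * tog * (Tz a)⁻¹ ∈ S)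
    (h2 : Tz a * tog⁻¹ * (Tz a)⁻¹ ∈ S) :
    b * (s • (const _ ζ * star w - w * star (const _ ζ))) * star b ∈ CS β J S := by
  rw [mul_smul_comm, smul_mul_assoc, mul_sub, sub_mul]
  exact Submodule.smul_mem _ _ (sub_mem
    (((hb.mul ((Hm.const ζ).mul hw.star)).mul hb.star).1.cs (by simpa using h2))
    (((hb.mul (hw.mul (Hm.const ζ).star)).mul hb.star).1.cs (by simpa using h1)))

namespace Tr
variable {T : Tr A}

theorem stage (hP : T.LQ P) {u ζ : A} (hu : u ∈ unitary A) (hζ : ‖ζ‖ ≤ 1) (e : A) {t δ : ℝ}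
    (ht : 0 < t) (ht1 : t ≤ 1 / 2) (hδ : 0 < δ) : ∃ u' ∈ unitary A, T.n (u' - u) ≤ δ ∧
      ∃ w ∈ StarAlgebra.adjoin ℂ (insert u' (P : Set A)), ‖w‖ ≤ 1 ∧
        (T.τ (star e * (w - ((t ^ 2 : ℝ) : ℂ) • ζ))).re ≤ 20 * t ^ 3 * T.n e + δ := by
  obtain ⟨𝔉, hF⟩ := exists_free hP
  obtain ⟨D, hD⟩ := exists_nat_gt (12 / δ ^ 2)
  have hD0 : (0 : ℝ) < D := lt_trans (by positivity) hD
  obtain ⟨T', hT'⟩ := T.exists_lim (itU 𝔉 (D + 1))
  have null : ∀ {β : ℕ → Lamp} g f, Gr β (D + 1) g f → g ≠ 1 → T'.τ f = 0 := fun g f h hg =>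
    tendsto_nhds_unique (hT' f) (gr_null hF _ g f h hg)
  have null' : ∀ {β : ℕ → Lamp} {γ : ℤ} {f}, f ∈ CS β (D + 1) (KK γ : Set Lamp)ᶜ → T'.τ f = 0 :=
    fun hf => cs_null (by simp) null hf
  obtain ⟨a, ha⟩ : ∃ a : ℕ → (Om P →ᵇ A), ∀ j, a j = Pf P u (j + 1) := ⟨_, fun _ => rfl⟩
  have hau : ∀ j, a j ∈ unitary _ := fun j => ha j ▸ Pf_unit hu _
  obtain ⟨w, hw⟩ : ∃ w, w = Pf P u D * gen P D := ⟨_, rfl⟩
  have hwu : w ∈ unitary _ := hw ▸ mul_mem (Pf_unit hu _) (gen_unit _)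
  have gr : ∀ α : ℕ → ℤ, ∃ β : ℕ → Lamp, (∀ i < D, Hm β (D + 1) (Tz (α i)) (a i)) ∧
      Hm β (D + 1) tog w := fun α => by simpa only [ha, hw] using grading u D α
  set s : ℂ := ((t ^ 2 : ℝ) : ℂ) with hs
  set y := s • (const _ ζ * star w - w * star (const _ ζ)) with hy
  have hys : star y = -y := by
    rw [hy, star_smul, star_sub, star_mul, star_mul, star_star, star_star, ← smul_neg, neg_sub, hs,
      Complex.star_def, Complex.conj_ofReal]
  have hyn : ‖y‖ ≤ 2 * t ^ 2 := by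
    have h1 : ‖const (Om P) ζ‖ ≤ 1 := (norm_const_le _).trans hζ
    have := norm_sub_le (const _ ζ * star w) (w * star (const _ ζ))
    have := norm_mul_one' h1 (norm_unit (Unitary.star_mem hwu))
    have := norm_mul_one' (norm_unit hwu) (show ‖star (const (Om P) ζ)‖ ≤ 1 by rwa [norm_star])
    rw [hy, norm_smul, hs, Complex.norm_real, Real.norm_of_nonneg (sq_nonneg _)]; nlinarith
  obtain ⟨h, hh⟩ : ∃ h, h = (D : ℂ)⁻¹ • ∑ i ∈ range D, star (a i) * y * a i := ⟨_, rfl⟩
  have hhn : ‖h‖ ≤ 1 := by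
    rw [hh, norm_smul, norm_inv, Complex.norm_natCast, inv_mul_le_iff₀ hD0]
    refine (norm_sum_le_of_le _ (n := fun _ => 1) fun i _ => ?_).trans (by simp)
    exact norm_mul_one' (norm_mul_one' (norm_unit (Unitary.star_mem (hau i))) (by nlinarith))
      (norm_unit (hau i))
  obtain ⟨R, R1, R2, hc⟩ := cayley (h := h) (by simp [hh, star_sum, hys, mul_assoc]) hhn
  obtain ⟨k1, k2⟩ := stage_alg (T := T') (m := w * star (const _ e)) (by exact_mod_cast hD0) hau hys
    hyn (by nlinarith) (ρ := 4 * t) (by nlinarith) (by positivity) hh R1 R2 hc (fun l hl => by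
      obtain ⟨β, h1, h2⟩ := gr fun i => if i = l then 1 else 0
      have h3 := fun i hi S => conj_y h2 (Tz_inv _ ▸ (h1 i hi).star) ζ s (S := S)
      simp only [star_star] at h3
      have h4 : ∑ i ∈ range l, star (a i) * y * a i ∈ CS β (D + 1) (KK (-1)) :=
        sum_mem fun i hi => by
          have hi := mem_range.mp hi
          exact h3 i (by omega) _ ((lamp _ _).mpr (by simp [hi.ne])) ((lamp' _ _).mpr (by simp [hi.ne]))
      exact null' (cs_KN _ (cs_KK _ (cs_KK _ h4 h4) h4) (h3 l hl _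
        ((lamp _ _).not.mpr (by simp)) ((lamp' _ _).not.mpr (by simp)))))
    fun m hm j hj k hk hkj => by
      obtain ⟨β, h1, h2⟩ := gr fun i => if i = j then 1 else if i = k then -1 else 0
      have h3 := fun i hi l hl S => conj_y h2 (Tz_mul_inv _ _ ▸ (h1 i hi).mul (h1 l hl).star) ζ s
        (S := S)
      have e1 : ∀ i l, a i * star (a l) * y * star (a i * star (a l)) =
          a i * (star (a l) * y * a l) * star (a i) :=
        fun i l => by simp only [star_mul, star_star, mul_assoc]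
      simp only [← hy, e1] at h3
      have h0 : (1 : Om P →ᵇ A) ∈ CS β (D + 1) (KK 2) := (Gr.const 1).cs (one_mem _)
      have h4 : ∀ i ≤ j, PP a (1 + h * R) i ∈ CS β (D + 1) (KK 2) := fun i hi => by
        induction i with
        | zero => exact h0
        | succ i ih =>
          refine cs_KK _ (ih (by omega)) ?_
          have h5 : a i * h * star (a i) ∈ CS β (D + 1) (KK 2) := by
            rw [hh, mul_smul_comm, smul_mul_assoc, mul_sum, sum_mul]
            refine Submodule.smul_mem _ _ (sum_mem fun l hl => ?_)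
            have : (if i = j then 1 else if i = k then -1 else 0) -
                (if l = j then 1 else if l = k then -1 else 0) ≠ (2 : ℤ) := by
              split_ifs <;> omega
            exact h3 i (by omega) l (mem_range.mp hl) _ ((lamp _ _).mpr this) ((lamp' _ _).mpr this)
          have e2 : ∀ x z, a i * (x * z) * star (a i) = a i * x * star (a i) * (a i * z * star (a i)) :=
            fun x z => by simp only [mul_assoc, ← mul_assoc (star (a i)) (a i), (hau i).1, one_mul]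
          have h6 : a i * R * star (a i) ∈ CS β (D + 1) (KK 2) :=
            cs_inv (KK 2) (Submodule.smul_mem _ (1 / 2 : ℂ) h5) (by
              have := norm_mul_one' (norm_mul_one' (norm_unit (hau i)) hhn)
                (norm_unit (Unitary.star_mem (hau i)))
              rw [norm_smul]; simp only [norm_div, norm_one, Complex.norm_ofNat]; linarith) (by
              conv_lhs => rw [R2, mul_add, add_mul, mul_one, (hau i).2, e2, mul_smul_comm,
                smul_mul_assoc])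
          rw [mul_add, add_mul, mul_one, (hau i).2, e2]
          exact add_mem h0 (cs_KK _ h5 h6)
      have h7 : m ∈ CS β (D + 1) (KK 2) := by
        rcases hm with rfl | rfl
        · exact h0
        · exact (h2.mul (Hm.const e).star).1.cs (by simpa using tog_mem)
      exact null' (cs_KN _ (cs_KK _ h7 (h4 j le_rfl)) (h3 j hj k hk _
        ((lamp _ _).not.mpr (by simp [hkj])) ((lamp' _ _).not.mpr (by simp [hkj]))))
  obtain ⟨β, -, h2⟩ := gr 0
  have v1 := null _ _ (h2.mul (Hm.const e).star).1 (by simpa using tog_ne)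
  have v2 := null _ _ ((h2.mul (Hm.const e).star).mul (h2.mul (Hm.const ζ).star)).1
    (by simpa using tog_ne')
  set Q := PP a (1 + h * R) with hQ
  have e3 : T'.τ (w * star (const _ e) * Q D) - T'.τ (w * star (const _ e)) -
      T'.τ (w * star (const _ e) * y) = T'.τ (star (const _ e) * (Q D * w - s • const _ ζ)) := by
    rw [hy, mul_smul_comm, mul_sub, map_smul, map_sub, v1, v2, mul_sub, mul_smul_comm, map_sub,
      map_smul, mul_assoc, T'.comm, mul_assoc, mul_assoc w, T'.comm w, mul_assoc, mul_assoc, hwu.1]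
    simp
  have e4 : T'.n (w * star (const _ e)) = T.n e := by
    rw [T'.n_unit_l hwu.1, n_star, ← sq_eq_sq₀ (T'.n_nonneg _) (T.n_nonneg _), n_sq, n_sq]
    congr 1
    exact tendsto_nhds_unique (hT' _) tendsto_const_nhds
  rw [e3, e4] at k2
  have k3 : (T'.τ (star (const _ e) * (Q D * w - s • const _ ζ))).re < 20 * t ^ 3 * T.n e + δ := by
    have := Complex.re_le_norm (T'.τ (star (const _ e) * (Q D * w - s • const _ ζ)))
    have h3 : 2 * t ^ 2 * (4 * t + 3 * (2 * t ^ 2)) ≤ 20 * t ^ 3 := by nlinarith [pow_pos ht 3]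
    nlinarith [mul_le_mul_of_nonneg_left h3 (T.n_nonneg e)]
  have k4 : (T'.τ (star (h * R) * (h * R))).re < δ ^ 2 := by
    rw [← n_sq]; refine k1.trans_lt ?_
    rw [div_lt_iff₀ (by positivity)] at hD; rw [div_lt_iff₀ hD0]; linarith
  obtain ⟨ω, h3, h4⟩ := ((((Complex.continuous_re.tendsto _).comp (hT' _)).eventually
    (gt_mem_nhds k3)).and (((Complex.continuous_re.tendsto _).comp (hT' _)).eventually
      (gt_mem_nhds k4))).exists
  have hcω : (1 + h * R) ω ∈ unitary A := ⟨congrArg (· ω) hc.1, congrArg (· ω) hc.2⟩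
  have hmem : ∀ i, gen P i ω ∈ StarAlgebra.adjoin ℂ (insert (u * (1 + h * R) ω) (P : Set A)) :=
    fun i => StarAlgebra.subset_adjoin _ _ (Set.mem_insert_of_mem _ (ω i).2.1)
  refine ⟨u * (1 + h * R) ω, mul_mem hu hcω, ?_, (Q D * w) ω, ?_,
    ((Q D * w).norm_coe_le_norm ω).trans (norm_unit (mul_mem (PP_unit hau hc D) hwu)), h3.le⟩
  · have : u * (1 + h * R) ω - u = u * (h * R) ω := by simp [mul_add]
    rw [this, T.n_unit_l hu.1, ← sq_le_sq₀ (T.n_nonneg _) hδ.le, n_sq]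
    exact h4.le
  · have key : ∀ j, (Q j * Pf P u j) ω ∈
        StarAlgebra.adjoin ℂ (insert (u * (1 + h * R) ω) (P : Set A)) := fun j => by
      induction j with
      | zero => simpa [hQ, PP, Pf] using one_mem _
      | succ j ih =>
        have : Q (j + 1) * Pf P u (j + 1) = Q j * Pf P u j * gen P j * (const _ u * (1 + h * R)) := by
          rw [hQ, PP, ← ha, mul_assoc, mul_assoc, (hau j).1, mul_one, ha, Pf]
          simp only [mul_assoc]
        rw [this]
        exact mul_mem (mul_mem ih (hmem j)) (StarAlgebra.subset_adjoin _ _ (Set.mem_insert _ _))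
    rw [hw, ← mul_assoc]
    exact mul_mem (key D) (hmem D)

end Tr
end Crest.Agent.GP
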