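import Mathlib
/-! Tracial states on C⋆-algebras and their 2-norm. -/
set_option autoImplicit false
namespace Crest.Agent.GP
open scoped InnerProductSpace ComplexConjugate
open Filter Topology

structure Tr (A : Type*) [CStarAlgebra A] where
  τ : A →ₗ[ℂ] ℂ
  one : τ 1 = 1
  comm : ∀ a b, τ (a * b) = τ (b * a)
  map_star : ∀ a, τ (star a) = conj (τ a)
  pos : ∀ a, 0 ≤ (τ (star a * a)).re

variable {A : Type*} [CStarAlgebra A]

theorem norm_one_le : ‖(1 : A)‖ ≤ 1 := by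
  nontriviality A
  rw [norm_one]

theorem norm_le_one_of_star_mul {u : A} (h : ‖star u * u‖ ≤ 1) : ‖u‖ ≤ 1 := by
  rw [CStarRing.norm_star_mul_self] at h
  nlinarith [norm_nonneg u]

theorem norm_unit {u : A} (h : u ∈ unitary A) : ‖u‖ ≤ 1 :=
  norm_le_one_of_star_mul (by rw [h.1]; exact norm_one_le)

theorem norm_mul_le' {a b : A} {s t : ℝ} (ha : ‖a‖ ≤ s) (hb : ‖b‖ ≤ t) : ‖a * b‖ ≤ s * t :=
  (norm_mul_le _ _).trans (mul_le_mul ha hb (norm_nonneg _) ((norm_nonneg _).trans ha))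

theorem norm_mul_one' {a b : A} (ha : ‖a‖ ≤ 1) (hb : ‖b‖ ≤ 1) : ‖a * b‖ ≤ 1 := by
  simpa using norm_mul_le' ha hb

namespace Tr
variable (T : Tr A)

set_option linter.unusedVariables false in
def L2 (T : Tr A) := A
instance : AddCommGroup T.L2 := inferInstanceAs (AddCommGroup A)
instance : Module ℂ T.L2 := inferInstanceAs (Module ℂ A)
noncomputable def ι : A ≃ₗ[ℂ] T.L2 := LinearEquiv.refl ℂ _

noncomputable abbrev core : PreInnerProductSpace.Core ℂ T.L2 where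
  inner a b := T.τ (star (T.ι.symm a) * T.ι.symm b)
  conj_inner_symm := by intro a b; simp [← T.map_star]
  re_inner_nonneg _ := T.pos _
  add_left _ _ _ := by rw [map_add, star_add, add_mul, map_add]
  smul_left := by simp

noncomputable instance : SeminormedAddCommGroup T.L2 :=
  InnerProductSpace.Core.toSeminormedAddCommGroup (c := T.core)
noncomputable instance : InnerProductSpace ℂ T.L2 := InnerProductSpace.ofCore T.core

/-- the 2-norm -/
noncomputable def n (x : A) : ℝ := ‖T.ι x‖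

theorem inner_ι (a b : A) : ⟪T.ι a, T.ι b⟫_ℂ = T.τ (star a * b) := rfl

theorem n_nonneg (x : A) : 0 ≤ T.n x := norm_nonneg _

theorem n_sq (x : A) : T.n x ^ 2 = (T.τ (star x * x)).re := by
  rw [n, ← inner_self_eq_norm_sq (𝕜 := ℂ)]; rfl

theorem n_sq' (x : A) : T.τ (star x * x) = ((T.n x ^ 2 : ℝ) : ℂ) := by
  rw [← inner_ι, inner_self_eq_norm_sq_to_K, n]; simp

theorem n_eq_of {x y : A} (h : T.τ (star x * x) = T.τ (star y * y)) : T.n x = T.n y := by
  rw [← sq_eq_sq₀ (T.n_nonneg _) (T.n_nonneg _), n_sq, n_sq, h]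

@[simp] theorem n_star (x : A) : T.n (star x) = T.n x := T.n_eq_of (by rw [star_star, T.comm])
@[simp] theorem n_zero : T.n 0 = 0 := by simp [n]
@[simp] theorem n_one : T.n 1 = 1 := by
  rw [← sq_eq_sq₀ (T.n_nonneg _) zero_le_one, n_sq]; simp [T.one]
@[simp] theorem n_neg (x : A) : T.n (-x) = T.n x := by simp [n]
theorem n_sub_rev (x y : A) : T.n (x - y) = T.n (y - x) := by rw [← n_neg, neg_sub]
theorem n_add_le (x y : A) : T.n (x + y) ≤ T.n x + T.n y := by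
  simp only [n, map_add]; exact norm_add_le _ _
theorem n_sub_le (x y : A) : T.n (x - y) ≤ T.n x + T.n y := by
  simp only [n, map_sub]; exact norm_sub_le _ _
theorem n_tri (x y z : A) : T.n (x - z) ≤ T.n (x - y) + T.n (y - z) := by
  have := T.n_add_le (x - y) (y - z); rwa [sub_add_sub_cancel] at this
theorem n_smul (c : ℂ) (x : A) : T.n (c • x) = ‖c‖ * T.n x := by simp only [n, map_smul, norm_smul]
theorem n_sum_le {I : Type*} (s : Finset I) (f : I → A) : T.n (∑ i ∈ s, f i) ≤ ∑ i ∈ s, T.n (f i) := by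
  simp only [n, map_sum]; exact norm_sum_le _ _
theorem dist_ι (x y : A) : dist (T.ι x) (T.ι y) = T.n (x - y) := by rw [dist_eq_norm, n, map_sub]

theorem n_add_sq (x y : A) :
    T.n (x + y) ^ 2 = T.n x ^ 2 + 2 * (T.τ (star x * y)).re + T.n y ^ 2 := by
  simp only [n, map_add]; rw [norm_add_sq (𝕜 := ℂ)]; rfl

theorem n_sub_sq (x y : A) :
    T.n (x - y) ^ 2 = T.n x ^ 2 - 2 * (T.τ (star x * y)).re + T.n y ^ 2 := by
  simp only [n, map_sub]; rw [norm_sub_sq (𝕜 := ℂ)]; rfl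

theorem n_par (x y : A) :
    T.n (x + y) ^ 2 + T.n (x - y) ^ 2 = 2 * (T.n x ^ 2 + T.n y ^ 2) := by
  rw [n_add_sq, n_sub_sq]; ring

theorem cs (a b : A) : ‖T.τ (a * b)‖ ≤ T.n a * T.n b := by
  have := norm_inner_le_norm (𝕜 := ℂ) (T.ι (star a)) (T.ι b)
  rw [inner_ι, star_star] at this
  exact this.trans_eq (by rw [← T.n_star a]; rfl)

theorem τ_le_n (a : A) : ‖T.τ a‖ ≤ T.n a := by simpa using T.cs 1 a

theorem re_nonneg [PartialOrder A] [StarOrderedRing A] {a : A} (ha : 0 ≤ a) : 0 ≤ (T.τ a).re := by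
  obtain ⟨b, hb, rfl⟩ := CStarAlgebra.nonneg_iff_exists_isSelfAdjoint_and_eq_mul_self.mp ha
  have := T.pos b
  rwa [hb.star_eq] at this

theorem re_mono [PartialOrder A] [StarOrderedRing A] {a b : A} (h : a ≤ b) :
    (T.τ a).re ≤ (T.τ b).re := by
  have := T.re_nonneg (sub_nonneg.mpr h)
  rw [map_sub, Complex.sub_re] at this; linarith

theorem n_mul_le (a b : A) : T.n (a * b) ≤ ‖a‖ * T.n b := by
  letI := CStarAlgebra.spectralOrder A
  haveI := CStarAlgebra.spectralOrderedRing A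
  rw [← sq_le_sq₀ (T.n_nonneg _) (mul_nonneg (norm_nonneg _) (T.n_nonneg _)), mul_pow, n_sq, n_sq]
  have : star (a * b) * (a * b) ≤ ‖a‖ ^ 2 • (star b * b) := by
    rw [star_mul, ← mul_assoc, mul_assoc _ (star a), sq, ← CStarRing.norm_star_mul_self (x := a)]
    exact CStarAlgebra.star_left_conjugate_le_norm_smul
  refine (T.re_mono this).trans_eq ?_
  rw [← Complex.coe_smul, map_smul, smul_eq_mul, Complex.re_ofReal_mul]

theorem n_mul_le' (a b : A) : T.n (a * b) ≤ T.n a * ‖b‖ := by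
  rw [← n_star, star_mul, mul_comm, ← T.n_star a, ← norm_star b]; exact T.n_mul_le _ _

theorem n_le (a : A) : T.n a ≤ ‖a‖ := by simpa using T.n_mul_le a 1

theorem τ_le (a : A) : ‖T.τ a‖ ≤ ‖a‖ := (T.τ_le_n a).trans (T.n_le a)

theorem n_l {a b : A} {s t : ℝ} (ha : ‖a‖ ≤ s) (hb : T.n b ≤ t) : T.n (a * b) ≤ s * t :=
  (T.n_mul_le _ _).trans (mul_le_mul ha hb (T.n_nonneg _) ((norm_nonneg _).trans ha))

theorem n_r {a b : A} {s t : ℝ} (ha : T.n a ≤ s) (hb : ‖b‖ ≤ t) : T.n (a * b) ≤ s * t :=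
  (T.n_mul_le' _ _).trans (mul_le_mul ha hb (norm_nonneg _) ((T.n_nonneg _).trans ha))

theorem n_l1 {a : A} (ha : ‖a‖ ≤ 1) (b : A) : T.n (a * b) ≤ T.n b := by
  simpa using T.n_l ha (le_refl (T.n b))

theorem n_r1 (a : A) {b : A} (hb : ‖b‖ ≤ 1) : T.n (a * b) ≤ T.n a := by
  simpa using T.n_r (le_refl (T.n a)) hb

theorem n_unit_l {u : A} (hu : star u * u = 1) (b : A) : T.n (u * b) = T.n b :=
  T.n_eq_of (by rw [star_mul, mul_assoc, ← mul_assoc (star u), hu, one_mul])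

theorem n_unit_r {u : A} (hu : u * star u = 1) (b : A) : T.n (b * u) = T.n b := by
  rw [← n_star, star_mul, T.n_unit_l (by rwa [star_star]), n_star]

theorem τ_conj {u w : A} (hu : w * u = 1) (b : A) : T.τ (u * b * w) = T.τ b := by
  rw [T.comm, ← mul_assoc, hu, one_mul]

theorem τ_sa {a : A} (ha : IsSelfAdjoint a) : (((T.τ a).re : ℝ) : ℂ) = T.τ a :=
  Complex.conj_eq_iff_re.mp (by rw [← T.map_star, ha.star_eq])

/-- centred part -/
noncomputable def c (x : A) : A := x - T.τ x • 1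

@[simp] theorem τ_c (x : A) : T.τ (T.c x) = 0 := by simp [c, T.one]

theorem n_c_sq (x : A) : T.n (T.c x) ^ 2 + ‖T.τ x‖ ^ 2 = T.n x ^ 2 := by
  have h : x = T.c x + T.τ x • 1 := by simp [c]
  conv_rhs => rw [h, n_add_sq]
  rw [n_smul, n_one, mul_smul_comm, mul_one, map_smul, T.map_star, τ_c]; simp

theorem n_c_le (x : A) : T.n (T.c x) ≤ T.n x := by
  rw [← sq_le_sq₀ (T.n_nonneg _) (T.n_nonneg _), ← T.n_c_sq x]; nlinarith [sq_nonneg ‖T.τ x‖]

theorem c_sub_smul (x : A) (z : ℂ) : T.c (x - z • 1) = T.c x := by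
  simp [c, T.one, sub_smul]

theorem n_c_le' (x : A) (z : ℂ) : T.n (T.c x) ≤ T.n (x - z • 1) := by
  rw [← T.c_sub_smul x z]; exact T.n_c_le _

theorem n_comm_le (x z : A) : T.n (x * z - z * x) ≤ 2 * ‖z‖ * T.n x := by
  have := T.n_sub_le (x * z) (z * x)
  have := T.n_mul_le z x
  have := T.n_mul_le' x z
  linarith

include T in
theorem nontrivial : Nontrivial A := ⟨1, 0, fun h => by simpa [h] using T.one⟩

/-- faithful, with 2-complete balls -/
structure W : Prop where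
  faith : ∀ x, T.n x = 0 → x = 0
  lim : ∀ (x : ℕ → A) (C : ℝ), (∀ k, ‖x k‖ ≤ C) → CauchySeq (fun k => T.ι (x k)) →
    ∃ y, ‖y‖ ≤ C ∧ Tendsto (fun k => T.n (x k - y)) atTop (𝓝 0)

/-- 2-closed sets -/
def Cl (S : Set A) : Prop := ∀ x, (∀ ε > 0, ∃ y ∈ S, T.n (y - x) < ε) → x ∈ S

variable {T}

theorem Cl.lim {S : Set A} (hS : T.Cl S) {x : ℕ → A} {y : A} (hx : ∀ k, x k ∈ S)
    (h : Tendsto (fun k => T.n (x k - y)) atTop (𝓝 0)) : y ∈ S := hS y fun ε hε => by
  obtain ⟨k, hk⟩ := (h.eventually (gt_mem_nhds hε)).exists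
  exact ⟨x k, hx k, hk⟩

theorem Cl.isClosed {S : Set A} (hS : T.Cl S) : IsClosed S := by
  refine isClosed_of_closure_subset fun x hx => hS x fun ε hε => ?_
  obtain ⟨y, hy, h⟩ := Metric.mem_closure_iff.mp hx ε hε
  exact ⟨y, hy, (T.n_le _).trans_lt (by rwa [dist_comm, dist_eq_norm] at h)⟩

theorem W.eq_of_le (hT : T.W) {x y : A} (h : ∀ ε > 0, T.n (x - y) ≤ ε) : x = y :=
  sub_eq_zero.mp (hT.faith _ (le_antisymm (le_of_forall_pos_le_add (by simpa using h))
    (T.n_nonneg _)))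

theorem W.eq_of_lim (hT : T.W) {x y : A} {f : ℕ → ℝ} (hf : Tendsto f atTop (𝓝 0))
    (h : ∀ k, T.n (x - y) ≤ f k) : x = y :=
  sub_eq_zero.mp (hT.faith _ (le_antisymm (ge_of_tendsto' hf h) (T.n_nonneg _)))

/-- linear conditions pass to limits -/
theorem W.lim_eq (hT : T.W) {x : ℕ → A} {y : A} (h : Tendsto (fun k => T.n (x k - y)) atTop (𝓝 0))
    (φ : A →+ A) (C : ℝ) (hφ : ∀ z, T.n (φ z) ≤ C * T.n z) {b : ℕ → A} {b' : A}
    (hb : Tendsto (fun k => T.n (b k - b')) atTop (𝓝 0)) (e : ∀ k, φ (x k) = b k) : φ y = b' := by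
  refine hT.eq_of_lim (f := fun k => C * T.n (x k - y) + T.n (b k - b')) ?_ fun k => ?_
  · simpa using (h.const_mul C).add hb
  · refine (T.n_tri _ (φ (x k)) _).trans (add_le_add ?_ (by rw [e]))
    rw [← map_sub, T.n_sub_rev (x k)]; exact hφ _

theorem W.cl_ball (hT : T.W) (C : ℝ) : T.Cl {x | ‖x‖ ≤ C} := fun x hx => by
  choose y hy hy' using fun k : ℕ => hx (1 / ((k : ℝ) + 1)) Nat.one_div_pos_of_nat
  have h : Tendsto (fun k => T.n (y k - x)) atTop (𝓝 0) :=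
    squeeze_zero (fun _ => T.n_nonneg _) (fun k => (hy' k).le) tendsto_one_div_add_atTop_nhds_zero_nat
  have h' : Tendsto (fun k => T.ι (y k)) atTop (𝓝 (T.ι x)) := by
    rw [tendsto_iff_dist_tendsto_zero]; simpa only [dist_ι] using h
  obtain ⟨z, hz, hz'⟩ := hT.lim y C hy h'.cauchySeq
  have : x = z := hT.lim_eq h (AddMonoidHom.id A) 1 (by simp) hz' fun _ => rfl
  exact this ▸ hz

end Tr
end Crest.Agent.GP
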